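import Vale.Agent.P245B.PotL

/-! The logarithmic Sobolev inequality for uniformly convex potentials. -/

open MeasureTheory Real Set Filter Topology
open scoped ENNReal RealInnerProductSpace

noncomputable section

namespace Vale.Agent.P245B

open Vale.Agent.P245 (Ent gibbs Ent_nonneg)

set_option linter.unusedSectionVars false

variable {E : Type} [NormedAddCommGroup E] [InnerProductSpace ℝ E] [FiniteDimensional ℝ E]
  [CompleteSpace E] [MeasurableSpace E] [BorelSpace E]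

namespace BE

omit [FiniteDimensional ℝ E] [CompleteSpace E] [MeasurableSpace E] [BorelSpace E] in
theorem norm_mix (x y : E) (s : ℝ) :
    ‖(1 - s) • x + s • y‖ ^ 2 = (1 - s) * ‖x‖ ^ 2 + s * ‖y‖ ^ 2 - s * (1 - s) * ‖x - y‖ ^ 2 := by
  rw [norm_add_sq_real, norm_sub_sq_real, norm_smul, norm_smul, inner_smul_left,
    inner_smul_right, mul_pow, mul_pow, Real.norm_eq_abs, Real.norm_eq_abs, sq_abs, sq_abs]
  simp only [conj_trivial]
  ring

theorem pointwise {W g : E → ℝ} {σ K s : ℝ} (hσ : 0 < σ) (_hK0 : 0 ≤ K)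
    (hc : ConvexOn ℝ univ fun x => W x - σ⁻¹ / 2 * ‖x‖ ^ 2)
    (hK : ∀ x z, g x ≤ g z + ⟪gradient g z, x - z⟫ + K * ‖x - z‖ ^ 2)
    (h0 : 0 < s) (h1 : s ≤ 1) (h2 : s * (4 * σ * (K + 1)) ≤ 1) (x y : E) :
    (1 - s) * (g x - W x) + s * (-W y) ≤
      g ((1 - s) • x + s • y) + s * (σ * ‖gradient g ((1 - s) • x + s • y)‖ ^ 2 -
        g ((1 - s) • x + s • y)) - W ((1 - s) • x + s • y) := by
  have hs : 0 ≤ 1 - s := by linarith
  have c1 := hc.2 (mem_univ x) (mem_univ y) hs h0.le (by ring)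
  simp only [smul_eq_mul] at c1
  rw [norm_mix] at c1
  set z := (1 - s) • x + s • y with hz
  have e1 : x - z = s • (x - y) := by
    rw [hz, smul_sub, sub_smul, one_smul]
    abel
  have c2 := hK x z
  rw [e1, inner_smul_right, norm_smul, mul_pow, Real.norm_eq_abs, sq_abs] at c2
  have c3 := real_inner_le_norm (gradient g z) (x - y)
  set p := ‖gradient g z‖
  set d := ‖x - y‖
  set q := ⟪gradient g z, x - y⟫
  have hi : 0 < σ⁻¹ := inv_pos.2 hσ
  have hσ1 : σ * σ⁻¹ = 1 := mul_inv_cancel₀ hσ.ne'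
  have c4 : p * d ≤ σ * p ^ 2 + σ⁻¹ / 4 * d ^ 2 := by
    have h3 : 0 ≤ σ * (p - σ⁻¹ / 2 * d) ^ 2 := by positivity
    have h4 : σ * (p - σ⁻¹ / 2 * d) ^ 2 =
        σ * p ^ 2 - (σ * σ⁻¹) * (p * d) + (σ * σ⁻¹) * (σ⁻¹ / 4 * d ^ 2) := by ring
    rw [h4, hσ1] at h3
    linarith
  have c5 : K * s ≤ σ⁻¹ / 4 := by
    have h3 : σ⁻¹ * (s * (4 * σ * (K + 1))) ≤ σ⁻¹ * 1 := mul_le_mul_of_nonneg_left h2 hi.le
    have h4 : σ⁻¹ * (s * (4 * σ * (K + 1))) = (σ * σ⁻¹) * (4 * (K * s) + 4 * s) := by ring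
    rw [h4, hσ1] at h3
    linarith
  have c6 : q + K * s * d ^ 2 - σ⁻¹ / 2 * d ^ 2 ≤ σ * p ^ 2 := by
    have := mul_le_mul_of_nonneg_right c5 (sq_nonneg d)
    linarith
  have c7 : (1 - s) * (q + K * s * d ^ 2 - σ⁻¹ / 2 * d ^ 2) ≤ σ * p ^ 2 := by
    have h3 := mul_le_mul_of_nonneg_left c6 hs
    have h4 : 0 ≤ s * (σ * p ^ 2) := by positivity
    linarith
  have c8 := mul_le_mul_of_nonneg_left c7 h0.le
  have c9 := mul_le_mul_of_nonneg_left c2 hs
  nlinarith

theorem pl_step {W g : E → ℝ} {σ K s : ℝ} (hσ : 0 < σ) (hK0 : 0 ≤ K) (hW : Measurable W)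
    (hg : Measurable g) (hc : ConvexOn ℝ univ fun x => W x - σ⁻¹ / 2 * ‖x‖ ^ 2)
    (hK : ∀ x z, g x ≤ g z + ⟪gradient g z, x - z⟫ + K * ‖x - z‖ ^ 2)
    (h0 : 0 < s) (h1 : s < 1) (h2 : s * (4 * σ * (K + 1)) ≤ 1) :
    (∫⁻ x, ENNReal.ofReal (exp (g x)) ∂ms W) ^ (1 - s) *
        (∫⁻ x, ENNReal.ofReal (exp (-W x))) ^ s ≤
      ∫⁻ x, ENNReal.ofReal (exp (g x + s * (σ * ‖gradient g x‖ ^ 2 - g x))) ∂ms W := by
  have hm := measurable_grad g
  have m1 : Measurable fun x => ENNReal.ofReal (exp (g x)) := by fun_prop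
  have m2 : Measurable fun x =>
      ENNReal.ofReal (exp (g x + s * (σ * ‖gradient g x‖ ^ 2 - g x))) := by fun_prop
  rw [lintegral_ms hW m1, lintegral_ms hW m2]
  refine Vale.Agent.Lib.PL.prekopa_leindler volume (by linarith) h0 (by ring) (by fun_prop)
    (by fun_prop) (by fun_prop) fun x y => ?_
  rw [← ENNReal.ofReal_mul (exp_pos _).le, ← ENNReal.ofReal_mul (exp_pos _).le, ← exp_add,
    ← exp_add, ENNReal.ofReal_rpow_of_pos (exp_pos _), ENNReal.ofReal_rpow_of_pos (exp_pos _),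
    ← ENNReal.ofReal_mul (by positivity), ← exp_mul, ← exp_mul, ← exp_add]
  refine ENNReal.ofReal_le_ofReal (exp_le_exp.2 ?_)
  have := pointwise hσ hK0 hc hK h0 h1.le h2 x y
  linarith

end BE

theorem bakry {W g : E → ℝ} {σ : ℝ} (hσ : 0 < σ) (hW : Continuous W)
    (hc : ConvexOn ℝ univ fun x => W x - σ⁻¹ / 2 * ‖x‖ ^ 2)
    (hi : Integrable fun x => exp (-W x)) (hg : Tst g) :
    ∫ x, g x * exp (g x) ∂ms W - (∫ x, exp (g x) ∂ms W) *
        log ((∫ x, exp (g x) ∂ms W) / ∫ x, exp (-W x)) ≤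
      σ * ∫ x, ‖gradient g x‖ ^ 2 * exp (g x) ∂ms W := by
  have hWm := hW.measurable
  have hgm := hg.cont.measurable
  have hgr := measurable_grad g
  have hfin : IsFiniteMeasure (ms W) := isFiniteMeasure_withDensity_ofReal hi.2
  obtain ⟨G, hG0, hG⟩ := hg.bdd
  obtain ⟨K, hK0, hK⟩ := hg.taylor
  set μ := ms W with hμ
  have he : ∀ x, |exp (g x)| ≤ exp G := fun x => by
    rw [abs_of_pos (exp_pos _)]
    exact exp_le_exp.2 ((le_abs_self _).trans (hG x).1)
  have iM : Integrable (fun x => exp (g x)) μ := P245.integrable_of_bdd hgm.exp he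
  have iB : ∀ {u : E → ℝ} {D : ℝ}, Measurable u → (∀ x, |u x| ≤ D) →
      Integrable (fun x => u x * exp (g x)) μ := fun hu hD =>
    iM.bdd_mul hu.aestronglyMeasurable (Eventually.of_forall hD)
  have hZ : 0 < ∫ x, exp (-W x) := integral_exp_pos hi
  have hM : 0 < ∫ x, exp (g x) ∂μ := by
    have i1 := (integrable_ms hWm _).1 iM
    rw [hμ, integral_ms hWm]
    simp only [← exp_add] at i1 ⊢
    exact integral_exp_pos i1
  set M := ∫ x, exp (g x) ∂μ with hMd
  set Z := ∫ x, exp (-W x) with hZd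
  have mΦ : Measurable fun x => ‖gradient g x‖ ^ 2 := by fun_prop
  have hΦ : ∀ x, |‖gradient g x‖ ^ 2| ≤ G ^ 2 := fun x => by
    rw [abs_of_nonneg (sq_nonneg _)]
    exact pow_le_pow_left₀ (norm_nonneg _) (hG x).2 2
  set D := σ * G ^ 2 + G with hD
  have mB : Measurable fun x => σ * ‖gradient g x‖ ^ 2 - g x := by fun_prop
  have hB : ∀ x, |σ * ‖gradient g x‖ ^ 2 - g x| ≤ D := fun x => by
    have b1 := mul_le_mul_of_nonneg_left (abs_le.1 (hΦ x)).2 hσ.le
    have b2 := abs_le.1 (hG x).1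
    have b3 : 0 ≤ σ * ‖gradient g x‖ ^ 2 := by positivity
    have b4 : 0 ≤ σ * G ^ 2 := by positivity
    rw [abs_le]
    constructor <;> linarith [b2.1, b2.2]
  have hD0 : 0 ≤ D := (abs_nonneg _).trans (hB 0)
  have hL := P245.pl_limit (I := ∫ x, (σ * ‖gradient g x‖ ^ 2 - g x) * exp (g x) ∂μ)
    (C := D ^ 2 * M) (s₀ := min (min (1 / 2) (1 / (4 * σ * (K + 1)))) (1 / (D + 1))) hM hZ
    (by positivity) (by
      intro s hs0 hs1
      have hs2 := hs1.trans (min_le_right _ _)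
      have hs3 := (hs1.trans (min_le_left _ _)).trans (min_le_left _ _)
      have hs4 := (hs1.trans (min_le_left _ _)).trans (min_le_right _ _)
      rw [le_div_iff₀ (by positivity)] at hs2 hs4
      have hpt2 : ∀ x, exp (g x + s * (σ * ‖gradient g x‖ ^ 2 - g x)) ≤ exp (g x) +
          s * ((σ * ‖gradient g x‖ ^ 2 - g x) * exp (g x)) + s ^ 2 * (D ^ 2 * exp (g x)) :=
        fun x => by
          have b1 : |s * (σ * ‖gradient g x‖ ^ 2 - g x)| ≤ s * D := by
            rw [abs_mul, abs_of_pos hs0]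
            exact mul_le_mul_of_nonneg_left (hB x) hs0.le
          have b2 := (abs_le.1 (abs_exp_sub_one_sub_id_le (b1.trans (by linarith)))).2
          have b3 : (s * (σ * ‖gradient g x‖ ^ 2 - g x)) ^ 2 ≤ (s * D) ^ 2 := by
            rw [← sq_abs]
            gcongr
          rw [exp_add]
          nlinarith [mul_le_mul_of_nonneg_left (b2.trans b3) (exp_pos (g x)).le]
      have i1 := (iM.add ((iB mB hB).const_mul s))
      have i2 := (iM.const_mul (D ^ 2)).const_mul (s ^ 2)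
      have iH : Integrable (fun x => exp (g x + s * (σ * ‖gradient g x‖ ^ 2 - g x))) μ :=
        (i1.add i2).mono' (by fun_prop : Measurable _).aestronglyMeasurable
          (Eventually.of_forall fun x => by
            rw [Real.norm_eq_abs, abs_of_pos (exp_pos _)]
            exact hpt2 x)
      have h2 := BE.pl_step hσ hK0 hWm hgm hc hK hs0 (by linarith) hs4
      rw [← ofReal_integral_eq_lintegral_ofReal iM (Eventually.of_forall fun _ => (exp_pos _).le),
        ← ofReal_integral_eq_lintegral_ofReal hi (Eventually.of_forall fun _ => (exp_pos _).le),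
        ← ofReal_integral_eq_lintegral_ofReal iH (Eventually.of_forall fun _ => (exp_pos _).le),
        ENNReal.ofReal_rpow_of_pos hM, ENNReal.ofReal_rpow_of_pos hZ,
        ← ENNReal.ofReal_mul (by positivity),
        ENNReal.ofReal_le_ofReal_iff (integral_nonneg fun _ => (exp_pos _).le)] at h2
      refine h2.trans ((integral_mono iH (i1.add i2) hpt2).trans_eq ?_)
      have e1 := integral_add i1 i2
      have e2 := integral_add iM ((iB mB hB).const_mul s)
      simp only [Pi.add_apply, integral_const_mul] at e1 e2 ⊢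
      rw [e1, e2])
  have e3 : ∫ x, (σ * ‖gradient g x‖ ^ 2 - g x) * exp (g x) ∂μ =
      σ * ∫ x, ‖gradient g x‖ ^ 2 * exp (g x) ∂μ - ∫ x, g x * exp (g x) ∂μ := by
    have j1 := (iB mΦ hΦ).const_mul σ
    have j3 := iB hgm fun x => (hG x).1
    rw [← integral_const_mul, ← integral_sub j1 j3]
    refine integral_congr_ae (Eventually.of_forall fun x => ?_)
    simp only
    ring
  rw [e3] at hL
  rw [log_div hM.ne' hZ.ne']
  linarith

end Vale.Agent.P245B
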