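import Vale.Agent.P245B.Defs

/-! Basic facts: densities, growth, potentials. -/

open MeasureTheory Real Set Filter Topology
open scoped ENNReal RealInnerProductSpace

noncomputable section

namespace Vale.Agent.P245B

open Vale.Agent.P245 (Ent gibbs Ent_nonneg)

set_option linter.unusedSectionVars false

variable {E : Type} [NormedAddCommGroup E] [InnerProductSpace ℝ E] [FiniteDimensional ℝ E]
  [CompleteSpace E] [MeasurableSpace E] [BorelSpace E]

namespace Bas

theorem one_le_s (x : E) : 1 ≤ 1 + ‖x‖ := le_add_of_nonneg_right (norm_nonneg x)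

theorem mono {A B : ℝ} (h : A ≤ B) (x : E) : exp (A * (1 + ‖x‖)) ≤ exp (B * (1 + ‖x‖)) :=
  exp_le_exp.2 (mul_le_mul_of_nonneg_right h (by positivity))

theorem lin_le (C : ℝ) (x : E) : C * (1 + ‖x‖) ≤ exp (C * (1 + ‖x‖)) :=
  le_trans (by linarith) (add_one_le_exp _)

theorem shift_le {C ρ : ℝ} (x z : E) (hz : ‖z‖ ≤ ρ) :
    C * (1 + ‖x + z‖) ≤ |C| * (1 + |ρ|) * (1 + ‖x‖) := by
  have h1 : ‖x + z‖ ≤ ‖x‖ + |ρ| :=
    (norm_add_le x z).trans (by linarith [le_abs_self ρ])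
  have h2 : 1 + ‖x + z‖ ≤ (1 + |ρ|) * (1 + ‖x‖) := by
    have := mul_nonneg (abs_nonneg ρ) (norm_nonneg x)
    nlinarith
  calc C * (1 + ‖x + z‖) ≤ |C| * (1 + ‖x + z‖) :=
        mul_le_mul_of_nonneg_right (le_abs_self C) (by positivity)
    _ ≤ |C| * ((1 + |ρ|) * (1 + ‖x‖)) := mul_le_mul_of_nonneg_left h2 (abs_nonneg C)
    _ = _ := by ring

theorem abs_mul_log {w : ℝ} (h : 0 ≤ w) : |w * log w| ≤ 1 + w * w := by
  rcases h.eq_or_lt with h | h
  · subst h; simp
  · have h1 := log_le_sub_one_of_pos h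
    have h2 := one_sub_inv_le_log_of_pos h
    have h3 : w * (1 - w⁻¹) = w - 1 := by field_simp
    have h4 := mul_le_mul_of_nonneg_left h1 h.le
    have h5 := mul_le_mul_of_nonneg_left h2 h.le
    rw [abs_le]
    constructor <;> nlinarith

/-- Truncation at level `N`. -/
def cl (N t : ℝ) : ℝ := max (-N) (min t N)

theorem cl_abs {N : ℝ} (hN : 0 ≤ N) (t : ℝ) : |cl N t| ≤ N := by
  unfold cl
  rw [abs_le]
  exact ⟨le_max_left _ _, max_le (by linarith) (min_le_right _ _)⟩

theorem cl_abs' {N : ℝ} (hN : 0 ≤ N) (t : ℝ) : |cl N t| ≤ |t| := by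
  unfold cl
  have h1 := le_abs_self t
  have h2 := neg_abs_le t
  have h3 := abs_nonneg t
  rw [abs_le]
  refine ⟨le_max_of_le_right (le_min h2 (by linarith)), max_le (by linarith) ?_⟩
  exact (min_le_left _ _).trans h1

theorem cl_exp {N : ℝ} (hN : 0 ≤ N) (t : ℝ) : exp (cl N t) ≤ exp t + 1 := by
  have h1 := exp_pos t
  unfold cl
  rcases le_total (-N) (min t N) with h | h
  · rw [max_eq_right h]
    have := exp_le_exp.2 (min_le_left t N)
    linarith
  · rw [max_eq_left h]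
    have : exp (-N) ≤ 1 := exp_le_one_iff.2 (by linarith)
    linarith

theorem cl_add {N s t d : ℝ} (hd : 0 ≤ d) (h : s ≤ t + d) : cl N s ≤ cl N t + d := by
  unfold cl
  refine max_le (by linarith [le_max_left (-N) (min t N)]) ?_
  have h1 := le_max_right (-N) (min t N)
  have h2 : min s N ≤ min t N + d := by
    rcases le_total t N with h3 | h3
    · rw [min_eq_left h3]; exact (min_le_left _ _).trans h
    · rw [min_eq_right h3]; linarith [min_le_right s N]
  linarith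

theorem cl_meas {α : Type} [MeasurableSpace α] {a : α → ℝ} (ha : Measurable a) (N : ℝ) :
    Measurable fun x => cl N (a x) :=
  measurable_const.max (ha.min measurable_const)

theorem cl_lim (t : ℝ) : Tendsto (fun N : ℕ => cl N t) atTop (𝓝 t) := by
  refine tendsto_const_nhds.congr' ?_
  filter_upwards [(tendsto_natCast_atTop_atTop (R := ℝ)).eventually_ge_atTop |t|] with N hN
  have h1 := le_abs_self t
  have h2 := neg_abs_le t
  unfold cl
  rw [min_eq_left (by linarith), max_eq_right (by linarith)]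

end Bas

theorem one_le_C1 : 1 ≤ C1 := by
  have : (1 : ℝ) ≤ exp 9 := one_le_exp (by norm_num)
  unfold C1
  linarith

theorem measurable_grad (f : E → ℝ) : Measurable (gradient f) :=
  (InnerProductSpace.toDual ℝ E).symm.continuous.measurable.comp (measurable_fderiv ℝ f)

theorem inner_grad (f : E → ℝ) (x v : E) : ⟪gradient f x, v⟫ = fderiv ℝ f x v := inner_gradient_left

theorem norm_grad (f : E → ℝ) (x : E) : ‖gradient f x‖ = ‖fderiv ℝ f x‖ :=
  (InnerProductSpace.toDual ℝ E).symm.norm_map _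

theorem lintegral_ms {V : E → ℝ} (hV : Measurable V) {F : E → ℝ≥0∞} (hF : Measurable F) :
    ∫⁻ x, F x ∂ms V = ∫⁻ x, ENNReal.ofReal (exp (-V x)) * F x :=
  lintegral_withDensity_eq_lintegral_mul _ hV.neg.exp.ennreal_ofReal hF

theorem integral_ms {V : E → ℝ} (hV : Measurable V) (F : E → ℝ) :
    ∫ x, F x ∂ms V = ∫ x, F x * exp (-V x) := by
  unfold ms
  have hm : Measurable fun x => ENNReal.ofReal (exp (-V x)) := hV.neg.exp.ennreal_ofReal
  rw [integral_withDensity_eq_integral_toReal_smul hm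
    (Eventually.of_forall fun _ => ENNReal.ofReal_lt_top)]
  refine integral_congr_ae (Eventually.of_forall fun x => ?_)
  simp only [ENNReal.toReal_ofReal (exp_pos _).le, smul_eq_mul, mul_comm]

theorem integrable_ms {V : E → ℝ} (hV : Measurable V) (F : E → ℝ) :
    Integrable F (ms V) ↔ Integrable fun x => F x * exp (-V x) := by
  unfold ms
  have hm : Measurable fun x => ENNReal.ofReal (exp (-V x)) := hV.neg.exp.ennreal_ofReal
  rw [integrable_withDensity_iff hm
    (Eventually.of_forall fun _ => ENNReal.ofReal_lt_top)]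
  simp only [ENNReal.toReal_ofReal (exp_pos _).le]

theorem jensen_exp {α : Type} [MeasurableSpace α] {μ : Measure α} [IsProbabilityMeasure μ]
    {g : α → ℝ} (hg : Integrable g μ) (he : Integrable (fun x => exp (g x)) μ) :
    exp (∫ x, g x ∂μ) ≤ ∫ x, exp (g x) ∂μ :=
  convexOn_exp.map_integral_le continuous_exp.continuousOn isClosed_univ
    (Eventually.of_forall fun _ => mem_univ _) hg he

theorem Tail.int_exp {μ : Measure E} (ht : Tail μ) (C : ℝ) :
    Integrable (fun x => exp (C * (1 + ‖x‖))) μ := by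
  have h := (ht C).const_mul (exp C)
  refine h.congr (Eventually.of_forall fun x => ?_)
  simp only [← exp_add]
  exact congrArg exp (by ring)

section XG

variable {F : Type} [NormedAddCommGroup F]

theorem XG.of_le {G : Type} [NormedAddCommGroup G] {u : E → F} {v : E → G} (hv : XG v)
    (h : ∀ x, ‖u x‖ ≤ ‖v x‖) : XG u := by
  obtain ⟨C, hC⟩ := hv
  exact ⟨C, fun x => (h x).trans (hC x)⟩

theorem XG.of_bdd {u : E → F} {C : ℝ} (h : ∀ x, ‖u x‖ ≤ C) : XG u := by
  refine ⟨|C|, fun x => (h x).trans (le_trans ?_ (Bas.lin_le _ x))⟩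
  exact (le_abs_self C).trans (le_mul_of_one_le_right (abs_nonneg C) (Bas.one_le_s x))

theorem XG.of_lin {u : E → F} {C : ℝ} (h : ∀ x, ‖u x‖ ≤ C * (1 + ‖x‖)) : XG u :=
  ⟨C, fun x => (h x).trans (Bas.lin_le C x)⟩

theorem XG.of_quad {u : E → F} {C : ℝ} (h : ∀ x, ‖u x‖ ≤ C * (1 + ‖x‖ ^ 2)) : XG u := by
  refine ⟨|C| + 1, fun x => (h x).trans ?_⟩
  have h1 := Bas.lin_le |C| x
  have h2 := Bas.lin_le 1 x
  have h3 : 1 + ‖x‖ ^ 2 ≤ (1 + ‖x‖) * (1 * (1 + ‖x‖)) := by nlinarith [norm_nonneg x]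
  calc C * (1 + ‖x‖ ^ 2) ≤ |C| * (1 + ‖x‖ ^ 2) :=
        mul_le_mul_of_nonneg_right (le_abs_self C) (by positivity)
    _ ≤ |C| * ((1 + ‖x‖) * (1 * (1 + ‖x‖))) := mul_le_mul_of_nonneg_left h3 (abs_nonneg C)
    _ = (|C| * (1 + ‖x‖)) * (1 * (1 + ‖x‖)) := by ring
    _ ≤ exp (|C| * (1 + ‖x‖)) * exp (1 * (1 + ‖x‖)) :=
        mul_le_mul h1 h2 (by positivity) (exp_pos _).le
    _ = exp ((|C| + 1) * (1 + ‖x‖)) := by rw [← exp_add, add_mul]

theorem XG.add {u v : E → F} (hu : XG u) (hv : XG v) : XG fun x => u x + v x := by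
  obtain ⟨A, hA⟩ := hu
  obtain ⟨B, hB⟩ := hv
  refine ⟨max A B + 1, fun x => (norm_add_le _ _).trans ?_⟩
  have h1 := (hA x).trans (Bas.mono (le_max_left A B) x)
  have h2 := (hB x).trans (Bas.mono (le_max_right A B) x)
  have h3 : 2 ≤ exp (1 * (1 + ‖x‖)) :=
    le_trans (by linarith [norm_nonneg x]) (add_one_le_exp _)
  rw [add_mul, exp_add]
  nlinarith [exp_pos (max A B * (1 + ‖x‖))]

theorem XG.mul {u v : E → ℝ} (hu : XG u) (hv : XG v) : XG fun x => u x * v x := by
  obtain ⟨A, hA⟩ := hu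
  obtain ⟨B, hB⟩ := hv
  refine ⟨A + B, fun x => ?_⟩
  rw [norm_mul, add_mul, exp_add]
  exact mul_le_mul (hA x) (hB x) (norm_nonneg _) (exp_pos _).le

theorem XG.smul [NormedSpace ℝ F] {u : E → ℝ} {v : E → F} (hu : XG u) (hv : XG v) :
    XG fun x => u x • v x := by
  obtain ⟨A, hA⟩ := hu
  obtain ⟨B, hB⟩ := hv
  refine ⟨A + B, fun x => ?_⟩
  rw [norm_smul, add_mul, exp_add]
  exact mul_le_mul (hA x) (hB x) (norm_nonneg _) (exp_pos _).le

theorem XG.inner {u v : E → E} (hu : XG u) (hv : XG v) : XG fun x => ⟪u x, v x⟫ := by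
  obtain ⟨A, hA⟩ := hu
  obtain ⟨B, hB⟩ := hv
  refine ⟨A + B, fun x => (norm_inner_le_norm _ _).trans ?_⟩
  rw [add_mul, exp_add]
  exact mul_le_mul (hA x) (hB x) (norm_nonneg _) (exp_pos _).le

theorem XG.mul_log {w : E → ℝ} (hw : XG w) (h0 : ∀ x, 0 ≤ w x) :
    XG fun x => w x * log (w x) := by
  have h1 : XG fun x => (1 : ℝ) + w x * w x :=
    XG.add (XG.of_bdd (C := 1) fun _ => by simp) (hw.mul hw)
  refine h1.of_le fun x => ?_
  rw [Real.norm_eq_abs, Real.norm_eq_abs]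
  exact (Bas.abs_mul_log (h0 x)).trans (le_abs_self _)

/-- A bound that is uniform for shifts of bounded length. -/
theorem XG.shift {u : E → F} (hu : XG u) (ρ : ℝ) :
    ∃ C : ℝ, ∀ x z : E, ‖z‖ ≤ ρ → ‖u (x + z)‖ ≤ exp (C * (1 + ‖x‖)) := by
  obtain ⟨C, hC⟩ := hu
  exact ⟨|C| * (1 + |ρ|), fun x z hz => (hC _).trans (exp_le_exp.2 (Bas.shift_le x z hz))⟩

theorem Tail.int {μ : Measure E} (ht : Tail μ) {u : E → F} (hm : AEStronglyMeasurable u μ)
    (hu : XG u) : Integrable u μ := by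
  obtain ⟨C, hC⟩ := hu
  exact (ht.int_exp C).mono' hm (Eventually.of_forall hC)

end XG

theorem LG.xg {u : E → ℝ} (hu : LG u) : XG u := by
  obtain ⟨-, C, hC⟩ := hu
  exact XG.of_lin (C := C) hC

theorem LG.exp_xg {u : E → ℝ} (hu : LG u) : XG fun x => exp (u x) := by
  obtain ⟨-, C, hC⟩ := hu
  refine ⟨C, fun x => ?_⟩
  rw [Real.norm_eq_abs, abs_of_pos (exp_pos _)]
  exact exp_le_exp.2 ((le_abs_self _).trans (hC x))

theorem LG.const (k : ℝ) : LG fun _ : E => k :=
  ⟨measurable_const, |k|, fun x => le_mul_of_one_le_right (abs_nonneg k) (Bas.one_le_s x)⟩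

theorem LG.add {u v : E → ℝ} (hu : LG u) (hv : LG v) : LG fun x => u x + v x := by
  obtain ⟨hm, A, hA⟩ := hu
  obtain ⟨hm', B, hB⟩ := hv
  refine ⟨hm.add hm', A + B, fun x => (abs_add_le _ _).trans ?_⟩
  rw [add_mul]
  exact add_le_add (hA x) (hB x)

theorem LG.const_mul {u : E → ℝ} (hu : LG u) (k : ℝ) : LG fun x => k * u x := by
  obtain ⟨hm, A, hA⟩ := hu
  refine ⟨hm.const_mul k, |k| * A, fun x => ?_⟩
  rw [abs_mul, mul_assoc]
  exact mul_le_mul_of_nonneg_left (hA x) (abs_nonneg k)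

theorem LG.shift {u : E → ℝ} (hu : LG u) (z : E) : LG fun x => u (x + z) := by
  obtain ⟨hm, A, hA⟩ := hu
  exact ⟨hm.comp (measurable_add_const z), |A| * (1 + |‖z‖|),
    fun x => (hA _).trans (Bas.shift_le x z le_rfl)⟩

theorem LG.of_lip {u : E → ℝ} {R : ℝ} (h : ∀ x y, |u x - u y| ≤ R * ‖x - y‖) : LG u := by
  have hc : Continuous u := by
    refine (LipschitzWith.of_dist_le_mul (K := ⟨|R|, abs_nonneg R⟩) fun x y => ?_).continuous
    rw [Real.dist_eq, dist_eq_norm]
    exact (h x y).trans (mul_le_mul_of_nonneg_right (le_abs_self R) (norm_nonneg _))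
  refine ⟨hc.measurable, |u 0| + |R|, fun x => ?_⟩
  have h1 := h x 0
  rw [sub_zero] at h1
  have h2 : |u x| ≤ |u x - u 0| + |u 0| := by
    have := abs_add_le (u x - u 0) (u 0)
    rwa [sub_add_cancel] at this
  have h3 := mul_le_mul_of_nonneg_right (le_abs_self R) (norm_nonneg x)
  have h4 := mul_nonneg (abs_nonneg (u 0)) (norm_nonneg x)
  nlinarith [abs_nonneg R]

theorem Tail.withDensity {μ : Measure E} (ht : Tail μ) {ρ : E → ℝ} (hm : Measurable ρ)
    (hρ : XG ρ) : Tail (μ.withDensity fun x => ENNReal.ofReal (ρ x)) := by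
  intro C
  rw [integrable_withDensity_iff hm.ennreal_ofReal
    (Eventually.of_forall fun _ => ENNReal.ofReal_lt_top)]
  have h1 : XG fun x : E => exp (C * ‖x‖) := by
    refine LG.exp_xg (LG.const_mul ⟨measurable_norm, 1, fun x => ?_⟩ C)
    rw [abs_norm]
    linarith
  have h2 : XG fun x => (ENNReal.ofReal (ρ x)).toReal := by
    refine hρ.of_le fun x => ?_
    rw [ENNReal.toReal_ofReal', Real.norm_eq_abs, Real.norm_eq_abs,
      abs_of_nonneg (le_max_right _ _)]
    exact max_le (le_abs_self _) (abs_nonneg _)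
  exact ht.int (((measurable_norm.const_mul C).exp.mul
    hm.ennreal_ofReal.ennreal_toReal).aestronglyMeasurable) (h1.mul h2)

theorem IC.ext {μ : Measure E} [IsProbabilityMeasure μ] {κ : ℝ} (h : IC μ κ) (hκ : 0 ≤ κ)
    {a b : E → ℝ} (ha : Measurable a) (hb : Measurable b)
    (ia : Integrable (fun y => exp (a y)) μ) (ib : Integrable b μ)
    (hab : ∀ x y, a y ≤ b x + κ * ‖y - x‖ ^ 2) : ∫ y, exp (a y) ∂μ ≤ exp (∫ x, b x ∂μ) := by
  have hN : ∀ N : ℕ, ∫ y, exp (Bas.cl N (a y)) ∂μ ≤ exp (∫ x, Bas.cl N (b x) ∂μ) := fun N =>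
    h _ _ (Bas.cl_meas ha N) (Bas.cl_meas hb N)
      ⟨N, fun x => ⟨Bas.cl_abs N.cast_nonneg _, Bas.cl_abs N.cast_nonneg _⟩⟩
      fun x y => Bas.cl_add (by positivity) (hab x y)
  have l1 : Tendsto (fun N : ℕ => ∫ y, exp (Bas.cl N (a y)) ∂μ) atTop
      (𝓝 (∫ y, exp (a y) ∂μ)) := by
    refine tendsto_integral_of_dominated_convergence (fun y => exp (a y) + 1)
      (fun N => (Bas.cl_meas ha N).exp.aestronglyMeasurable) (ia.add (integrable_const 1))
      (fun N => Eventually.of_forall fun y => ?_) (Eventually.of_forall fun y => ?_)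
    · rw [Real.norm_eq_abs, abs_of_pos (exp_pos _)]
      exact Bas.cl_exp N.cast_nonneg _
    · exact (continuous_exp.tendsto _).comp (Bas.cl_lim _)
  have l2 : Tendsto (fun N : ℕ => ∫ x, Bas.cl N (b x) ∂μ) atTop (𝓝 (∫ x, b x ∂μ)) :=
    tendsto_integral_of_dominated_convergence (fun x => ‖b x‖)
      (fun N => (Bas.cl_meas hb N).aestronglyMeasurable) ib.norm
      (fun N => Eventually.of_forall fun x => Bas.cl_abs' N.cast_nonneg _)
      (Eventually.of_forall fun x => Bas.cl_lim _)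
  exact le_of_tendsto_of_tendsto' l1 ((continuous_exp.tendsto _).comp l2) hN

end Vale.Agent.P245B
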