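import Vale.Agent.P245B.TailL

/-! Removing the defect by centring. -/

open MeasureTheory Real Set Filter Topology
open scoped ENNReal RealInnerProductSpace

noncomputable section

namespace Vale.Agent.P245B

open Vale.Agent.P245 (Ent gibbs Ent_nonneg)

set_option linter.unusedSectionVars false

variable {E : Type} [NormedAddCommGroup E] [InnerProductSpace ℝ E] [FiniteDimensional ℝ E]
  [CompleteSpace E] [MeasurableSpace E] [BorelSpace E]

namespace Cent

theorem exp_le (y : ℝ) : exp y ≤ 1 + y + y ^ 2 * exp |y| := by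
  have h1 : exp y * (1 - y) ≤ 1 := by
    have := mul_le_mul_of_nonneg_left (add_one_le_exp (-y)) (exp_pos y).le
    rw [← exp_add, add_neg_cancel, exp_zero] at this
    linarith
  rcases le_total 0 y with hy | hy
  · rw [abs_of_nonneg hy]
    nlinarith [mul_le_mul_of_nonneg_left h1 hy]
  · have h2 : y ^ 2 * 1 ≤ y ^ 2 * exp |y| :=
      mul_le_mul_of_nonneg_left (one_le_exp (abs_nonneg y)) (sq_nonneg y)
    nlinarith [mul_le_mul_of_nonneg_left (add_one_le_exp y) (neg_nonneg.2 hy)]

theorem exp_le' {A r : ℝ} (hA : 0 < A) (hr : 1 ≤ r) (e : A * r ^ 2 = 1) (y : ℝ) :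
    exp y ≤ 1 + y + 2 * A * (exp (2 * r * y) + exp (-(2 * r) * y)) := by
  have h0 : 0 ≤ r * |y| := mul_nonneg (by linarith) (abs_nonneg y)
  have h1 : y ^ 2 ≤ 2 * A * exp (r * |y|) := by
    have h2 := mul_le_mul_of_nonneg_left (quadratic_le_exp_of_nonneg h0) hA.le
    have h3 : A * (r * |y|) ^ 2 = y ^ 2 := by rw [mul_pow, ← mul_assoc, e, one_mul, sq_abs]
    nlinarith [mul_nonneg hA.le h0]
  have h2 : exp |y| ≤ exp (r * |y|) := exp_le_exp.2 (le_mul_of_one_le_left (abs_nonneg y) hr)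
  have h3 : exp (r * |y|) * exp (r * |y|) ≤ exp (2 * r * y) + exp (-(2 * r) * y) := by
    rw [← exp_add]
    rcases abs_cases y with h | h <;> rw [h.1]
    · rw [show r * y + r * y = 2 * r * y by ring]
      linarith [exp_pos (-(2 * r) * y)]
    · rw [show r * -y + r * -y = -(2 * r) * y by ring]
      linarith [exp_pos (2 * r * y)]
  have h4 := mul_le_mul h1 h2 (exp_pos _).le (by positivity)
  have h5 := mul_le_mul_of_nonneg_left h3 (by positivity : 0 ≤ 2 * A)
  rw [mul_assoc] at h4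
  linarith [exp_le y]

end Cent

theorem center_one {α : Type} [MeasurableSpace α] {μ : Measure α} [IsProbabilityMeasure μ]
    {Y : α → ℝ} (hY : Measurable Y) {A : ℝ} (hA : 0 < A)
    (h : ∀ t : ℝ, Integrable (fun x => exp (t * Y x)) μ ∧
      ∫ x, exp (t * Y x) ∂μ ≤ exp (A * t ^ 2 + 1)) :
    ∫ x, exp (Y x - ∫ y, Y y ∂μ) ∂μ ≤ exp (C1 * A) := by
  have hi : Integrable Y μ := by
    refine ((h 1).1.add (h (-1)).1).mono' hY.aestronglyMeasurable (ae_of_all _ fun x => ?_)
    simp only [Pi.add_apply, one_mul, neg_mul, norm_eq_abs]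
    rw [abs_le]
    constructor <;> linarith [add_one_le_exp (Y x), add_one_le_exp (-Y x), exp_pos (Y x),
      exp_pos (-Y x)]
  generalize hm : ∫ y, Y y ∂μ = m
  have h1 : ∀ t : ℝ, t * m ≤ A * t ^ 2 + 1 := fun t => by
    have := (jensen_exp (hi.const_mul t) (h t).1).trans (h t).2
    rwa [integral_const_mul, hm, exp_le_exp] at this
  have e : ∀ t : ℝ, (fun x => exp (t * (Y x - m))) = fun x => exp (-(t * m)) * exp (t * Y x) :=
    fun t => funext fun x => by rw [← exp_add]; congr 1; ring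
  have h2 : ∀ t : ℝ, Integrable (fun x => exp (t * (Y x - m))) μ := fun t => by
    rw [e]
    exact (h t).1.const_mul _
  have h3 : ∀ t : ℝ, ∫ x, exp (t * (Y x - m)) ∂μ ≤ exp (-(t * m) + (A * t ^ 2 + 1)) := fun t => by
    rw [e, integral_const_mul, exp_add]
    exact mul_le_mul_of_nonneg_left (h t).2 (exp_pos _).le
  rcases le_total 1 A with hA1 | hA1
  · have h4 := h3 1
    simp only [one_mul] at h4
    refine h4.trans (exp_le_exp.2 ?_)
    have h5 : 4 * A * 1 ≤ 4 * A * exp 9 :=
      mul_le_mul_of_nonneg_left (one_le_exp (by norm_num)) (by positivity)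
    have h6 := h1 (-1)
    unfold C1
    nlinarith
  · obtain ⟨r, hr, hr'⟩ : ∃ r : ℝ, 1 ≤ r ∧ A * r ^ 2 = 1 :=
      ⟨(√A)⁻¹, (one_le_inv₀ (sqrt_pos.2 hA)).2 (sqrt_le_one.2 hA1), by
        rw [inv_pow, sq_sqrt hA.le, mul_inv_cancel₀ hA.ne']⟩
    have h4 : ∫ x, exp (2 * r * (Y x - m)) ∂μ ≤ exp 9 :=
      (h3 _).trans (exp_le_exp.2 (by nlinarith [h1 (-r)]))
    have h5 : ∫ x, exp (-(2 * r) * (Y x - m)) ∂μ ≤ exp 9 :=
      (h3 _).trans (exp_le_exp.2 (by nlinarith [h1 r]))
    have i1 : Integrable (fun x => Y x - m) μ := hi.sub (integrable_const m)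
    have i2 : Integrable (fun x => 1 + (Y x - m)) μ := (integrable_const 1).add i1
    have i3 : Integrable (fun x => exp (2 * r * (Y x - m)) + exp (-(2 * r) * (Y x - m))) μ :=
      (h2 _).add (h2 _)
    have i4 : Integrable (fun x => exp (Y x - m)) μ := by simpa only [one_mul] using h2 1
    have h6 := integral_mono i4 (i2.add (i3.const_mul (2 * A))) fun x =>
      Cent.exp_le' hA hr hr' (Y x - m)
    simp only [Pi.add_apply] at h6
    rw [integral_add i2 (i3.const_mul _), integral_add (integrable_const 1) i1,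
      integral_sub hi (integrable_const m), integral_const_mul, integral_add (h2 _) (h2 _),
      hm] at h6
    simp only [integral_const, probReal_univ, one_smul] at h6
    have h7 := mul_le_mul_of_nonneg_left (add_le_add h4 h5) (by positivity : 0 ≤ 2 * A)
    have h8 := add_one_le_exp (C1 * A)
    unfold C1 at h8 ⊢
    linarith

theorem SG.center {μ : Measure E} [IsProbabilityMeasure μ] {L : ℝ} (h : SG μ 0 L 1) (hL : 0 < L) :
    SG μ (∫ x, x ∂μ) (C1 * L) 0 := by
  intro θ
  rcases eq_or_ne θ 0 with rfl | hθ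
  · simp
  have hi : Integrable (fun x : E => x) μ :=
    (h.tail hL).int aestronglyMeasurable_id (XG.of_lin (C := 1) fun x => by linarith)
  have h1 : ∀ t : ℝ, Integrable (fun x => exp (t * ⟪θ, x⟫)) μ ∧
      ∫ x, exp (t * ⟪θ, x⟫) ∂μ ≤ exp (L * ‖θ‖ ^ 2 * t ^ 2 + 1) := fun t => by
    have := h.int (t • θ)
    simp only [sub_zero, real_inner_smul_left, norm_smul, mul_pow, norm_eq_abs, sq_abs] at this
    rwa [mul_assoc, mul_comm (‖θ‖ ^ 2)]
  have h2 := center_one (Y := fun x => ⟪θ, x⟫) (by fun_prop)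
    (mul_pos hL (pow_pos (norm_pos_iff.2 hθ) 2)) h1
  rw [integral_inner hi] at h2
  have h3 : Integrable (fun x => exp (⟪θ, x⟫ - ⟪θ, ∫ y, y ∂μ⟫)) μ := by
    simp only [exp_sub]
    simpa only [one_mul] using (h1 1).1.div_const _
  simp only [inner_sub_right]
  rw [← ofReal_integral_eq_lintegral_ofReal h3 (ae_of_all _ fun x => (exp_pos _).le), add_zero,
    mul_assoc]
  exact ENNReal.ofReal_le_ofReal h2

end Vale.Agent.P245B
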