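import Vale.Agent.P245B.Bas

/-! Gaussian densities and the logarithmic Harnack inequality. -/

open MeasureTheory Real Set Filter Topology
open scoped ENNReal RealInnerProductSpace

noncomputable section

namespace Vale.Agent.P245B

open Vale.Agent.P245 (Ent gibbs Ent_nonneg)

set_option linter.unusedSectionVars false

variable {E : Type} [NormedAddCommGroup E] [InnerProductSpace ℝ E] [FiniteDimensional ℝ E]
  [CompleteSpace E] [MeasurableSpace E] [BorelSpace E]

variable {σ : ℝ}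

namespace Gau

theorem val (hσ : 0 < σ) :
    ∫ z : E, gs σ z = (2 * π * σ) ^ ((Module.finrank ℝ E : ℝ) / 2) := by
  have h := GaussianFourier.integral_rexp_neg_mul_sq_norm (V := E) (b := 1 / (2 * σ))
    (by positivity)
  have e : π / (1 / (2 * σ)) = 2 * π * σ := by field_simp
  rw [← e, ← h]
  refine integral_congr_ae (ae_of_all _ fun z => ?_)
  simp only [gs]
  congr 1
  ring

theorem pos (hσ : 0 < σ) : 0 < ∫ z : E, gs σ z := by
  rw [val hσ]
  positivity

theorem cont (σ : ℝ) : Continuous (gs σ : E → ℝ) := by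
  unfold gs
  fun_prop

end Gau

theorem gs_int (hσ : 0 < σ) : Integrable (gs σ : E → ℝ) :=
  Integrable.of_integral_ne_zero (Gau.pos hσ).ne'

theorem gs_val (hσ : 0 < σ) :
    ∫ z : E, gs σ z = (2 * π * σ) ^ ((Module.finrank ℝ E : ℝ) / 2) := Gau.val hσ

theorem gs_pos (hσ : 0 < σ) : 0 < ∫ z : E, gs σ z := Gau.pos hσ

theorem ga_pos (hσ : 0 < σ) (z : E) : 0 < ga σ z := div_pos (exp_pos _) (gs_pos hσ)

theorem ga_cont (σ : ℝ) : Continuous (ga σ : E → ℝ) := (Gau.cont σ).div_const _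

theorem ga_le (hσ : 0 < σ) (z : E) : ga σ z ≤ (∫ w : E, gs σ w)⁻¹ := by
  rw [ga, ← one_div]
  exact div_le_div_of_nonneg_right (exp_le_one_iff.2 (neg_nonpos.2 (by positivity))) (gs_pos hσ).le

theorem ga_neg (σ : ℝ) (z : E) : ga σ (-z) = ga σ z := by simp only [ga, gs, norm_neg]

theorem ga_int (hσ : 0 < σ) : Integrable (ga σ : E → ℝ) := (gs_int hσ).div_const _

theorem ga_one (hσ : 0 < σ) : ∫ z : E, ga σ z = 1 := by
  simp only [ga]
  rw [integral_div, div_self (gs_pos hσ).ne']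

theorem ga_tail (hσ : 0 < σ) (C : ℝ) : Integrable fun z : E => exp (C * ‖z‖) * ga σ z := by
  refine (((gs_int (E := E) (mul_pos two_pos hσ)).const_mul (exp (σ * C ^ 2))).div_const
    (∫ w : E, gs σ w)).mono' ((by fun_prop : Continuous fun z : E => exp (C * ‖z‖)).mul
      (ga_cont σ)).aestronglyMeasurable (ae_of_all _ fun z => ?_)
  rw [Real.norm_of_nonneg (mul_pos (exp_pos _) (ga_pos hσ z)).le, ga, ← mul_div_assoc]
  refine div_le_div_of_nonneg_right ?_ (gs_pos hσ).le
  rw [gs, gs, ← exp_add, ← exp_add, exp_le_exp, ← sub_nonneg]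
  have e : σ * C ^ 2 + -(‖z‖ ^ 2 / (2 * (2 * σ))) - (C * ‖z‖ + -(‖z‖ ^ 2 / (2 * σ))) =
      (‖z‖ - 2 * σ * C) ^ 2 / (4 * σ) := by
    field_simp
    ring
  rw [e]
  positivity

theorem ga_mgf (hσ : 0 < σ) (θ : E) :
    Integrable (fun z : E => exp ⟪θ, z⟫ * ga σ z) ∧
      ∫ z : E, exp ⟪θ, z⟫ * ga σ z = exp (σ / 2 * ‖θ‖ ^ 2) := by
  have e : (fun z : E => exp ⟪θ, z⟫ * ga σ z) =
      fun z => exp (σ / 2 * ‖θ‖ ^ 2) * ga σ (z - σ • θ) := by
    funext z
    rw [ga, ga, ← mul_div_assoc, ← mul_div_assoc, gs, gs, ← exp_add, ← exp_add, norm_sub_sq_real,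
      inner_smul_right, norm_smul, real_inner_comm, Real.norm_of_nonneg hσ.le]
    congr 2
    field_simp
    ring
  rw [e]
  refine ⟨((ga_int hσ).comp_sub_right _).const_mul _, ?_⟩
  rw [integral_const_mul, integral_sub_right_eq_self (ga σ), ga_one hσ, mul_one]

theorem ga_scale (hσ : 0 < σ) (F : E → ℝ) :
    ∫ z : E, F z * ga σ z = ∫ z : E, F (√σ • z) * ga 1 z := by
  have e : ∀ z : E, gs σ (√σ • z) = gs 1 z := fun z => by
    rw [gs, gs, norm_smul, mul_pow, Real.norm_of_nonneg (sqrt_nonneg σ), sq_sqrt hσ.le]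
    congr 2
    field_simp
  have h1 := Measure.integral_comp_smul volume (gs σ : E → ℝ) √σ
  have h2 := Measure.integral_comp_smul volume (fun z : E => F z * gs σ z) √σ
  have h0 : |(√σ ^ Module.finrank ℝ E)⁻¹| ≠ 0 := by
    have := sqrt_pos.2 hσ
    positivity
  simp only [e, smul_eq_mul] at h1 h2
  simp only [ga, ← mul_div_assoc]
  rw [integral_div, integral_div, h1, h2, mul_div_mul_left _ _ h0]

theorem harnack (hσ : 0 < σ) {h : E → ℝ} (hm : Measurable h) {M : ℝ} (hM : ∀ x, |h x| ≤ M)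
    (x y : E) : ∫ w, h w * ga σ (w - y) ≤
      log (∫ w, exp (h w) * ga σ (w - x)) + ‖y - x‖ ^ 2 / (2 * σ) := by
  have ip : ∀ y : E, Integrable fun w => ga σ (w - y) := fun y => (ga_int hσ).comp_sub_right y
  have i1 : Integrable fun w => h w * ga σ (w - y) :=
    (ip y).bdd_mul hm.aestronglyMeasurable (ae_of_all _ hM)
  have i2 : Integrable fun w => exp (h w) * ga σ (w - x) :=
    (ip x).bdd_mul (c := exp M) hm.exp.aestronglyMeasurable (ae_of_all _ fun w => by
      rw [Real.norm_of_nonneg (exp_pos _).le]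
      exact exp_le_exp.2 (le_of_abs_le (hM w)))
  have i3 : Integrable fun z : E => ⟪z, y - x⟫ / σ * ga σ z := by
    refine (ga_tail hσ (‖y - x‖ / σ)).mono' ((by fun_prop :
      Continuous fun z : E => ⟪z, y - x⟫ / σ).mul (ga_cont σ)).aestronglyMeasurable
      (ae_of_all _ fun z => ?_)
    rw [norm_mul, Real.norm_of_nonneg (ga_pos hσ z).le]
    refine mul_le_mul_of_nonneg_right ?_ (ga_pos hσ z).le
    have h1 := add_one_le_exp (‖y - x‖ / σ * ‖z‖)
    have h2 := div_le_div_of_nonneg_right (norm_inner_le_norm (𝕜 := ℝ) z (y - x)) hσ.le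
    rw [norm_div, Real.norm_of_nonneg hσ.le]
    have e : ‖z‖ * ‖y - x‖ / σ = ‖y - x‖ / σ * ‖z‖ := by ring
    linarith
  have z3 : ∫ z : E, ⟪z, y - x⟫ / σ * ga σ z = 0 := by
    have h1 := integral_neg_eq_self (fun z : E => ⟪z, y - x⟫ / σ * ga σ z) volume
    simp only [inner_neg_left, ga_neg, neg_div, neg_mul, integral_neg] at h1
    linarith
  have i4 := i3.comp_sub_right y
  rw [← integral_sub_right_eq_self _ y] at z3
  have z1 : ∫ w, ga σ (w - y) = 1 := by rw [integral_sub_right_eq_self (ga σ), ga_one hσ]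
  set H := ∫ w, h w * ga σ (w - y) with hH
  have key : ∀ w, exp (H - ‖y - x‖ ^ 2 / (2 * σ)) * ((1 - H) * ga σ (w - y) +
      (h w * ga σ (w - y) - ⟪w - y, y - x⟫ / σ * ga σ (w - y))) ≤ exp (h w) * ga σ (w - x) := by
    intro w
    have e : exp (h w) * ga σ (w - x) = exp (H - ‖y - x‖ ^ 2 / (2 * σ)) *
        (exp (h w - ⟪w - y, y - x⟫ / σ - H) * ga σ (w - y)) := by
      rw [ga, ga, ← mul_div_assoc, ← mul_div_assoc, ← mul_div_assoc, gs, gs, ← exp_add, ← exp_add,
        ← exp_add, ← sub_add_sub_cancel w y x, norm_add_sq_real]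
      congr 2
      field_simp
      ring
    rw [e]
    refine mul_le_mul_of_nonneg_left ?_ (exp_pos _).le
    have h1 := mul_le_mul_of_nonneg_right (add_one_le_exp (h w - ⟪w - y, y - x⟫ / σ - H))
      (ga_pos hσ (w - y)).le
    linarith
  have i5 : Integrable fun w => h w * ga σ (w - y) - ⟪w - y, y - x⟫ / σ * ga σ (w - y) :=
    i1.sub i4
  have h1 := integral_mono ((((ip y).const_mul (1 - H)).add i5).const_mul _) i2 key
  simp only [Pi.add_apply] at h1
  rw [integral_const_mul, integral_add ((ip y).const_mul _) i5, integral_sub i1 i4,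
    integral_const_mul, z1, z3, ← hH] at h1
  have h2 : exp (H - ‖y - x‖ ^ 2 / (2 * σ)) ≤ ∫ w, exp (h w) * ga σ (w - x) := by linarith
  have h3 := (le_log_iff_exp_le ((exp_pos _).trans_le h2)).2 h2
  linarith

end Vale.Agent.P245B
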