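import Vale.Agent.P245B.BE
import Vale.Agent.P245B.Gau

/-! From the transport inequality to the logarithmic Sobolev inequality. -/

open MeasureTheory Real Set Filter Topology
open scoped ENNReal RealInnerProductSpace

noncomputable section

namespace Vale.Agent.P245B

open Vale.Agent.P245 (Ent gibbs Ent_nonneg)

set_option linter.unusedSectionVars false

variable {E : Type} [NormedAddCommGroup E] [InnerProductSpace ℝ E] [FiniteDimensional ℝ E]
  [CompleteSpace E] [MeasurableSpace E] [BorelSpace E]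

variable {V : E → ℝ} {ε κ : ℝ}

namespace Chan

variable {μ : Measure E} [IsProbabilityMeasure μ] {σ : ℝ}

/-- Bounded measurable functions. -/
def BM (F : E → ℝ) : Prop := Measurable F ∧ ∃ C : ℝ, ∀ x, |F x| ≤ C

theorem BM.int {F : E → ℝ} (h : BM F) : Integrable F μ := by
  obtain ⟨hm, C, hC⟩ := h
  exact Vale.Agent.P245.integrable_of_bdd hm hC

theorem BM.mul {F H : E → ℝ} (h : BM F) (h' : BM H) : BM fun x => F x * H x := by
  obtain ⟨hm, C, hC⟩ := h
  obtain ⟨hm', C', hC'⟩ := h'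
  refine ⟨hm.mul hm', C * C', fun x => ?_⟩
  rw [abs_mul]
  exact mul_le_mul (hC x) (hC' x) (abs_nonneg _) ((abs_nonneg _).trans (hC x))

theorem BM.exp {F : E → ℝ} (h : BM F) : BM fun x => exp (F x) := by
  obtain ⟨hm, C, hC⟩ := h
  refine ⟨hm.exp, Real.exp C, fun x => ?_⟩
  rw [abs_of_pos (exp_pos _)]
  exact exp_le_exp.2 (le_of_abs_le (hC x))

theorem bm_const (c : ℝ) : BM fun _ : E => c := ⟨measurable_const, |c|, fun _ => le_rfl⟩

theorem bm_ga (hσ : 0 < σ) (y : E) : BM fun x => ga σ (y - x) :=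
  ⟨((ga_cont σ).comp (continuous_const.sub continuous_id)).measurable, _, fun x => by
    rw [abs_of_pos (ga_pos hσ _)]
    exact ga_le hσ _⟩

theorem ga_shift (hσ : 0 < σ) (x : E) :
    Integrable (fun y => ga σ (y - x)) ∧ ∫ y, ga σ (y - x) = 1 :=
  ⟨(ga_int hσ).comp_sub_right x, by rw [integral_sub_right_eq_self (ga σ) x, ga_one hσ]⟩

theorem ga_meas (σ : ℝ) : Measurable fun p : E × E => ga σ (p.2 - p.1) :=
  ((ga_cont σ).comp (continuous_snd.sub continuous_fst)).measurable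

theorem ga_prod (hσ : 0 < σ) : Integrable (fun p : E × E => ga σ (p.2 - p.1)) (μ.prod volume) := by
  rw [integrable_prod_iff (ga_meas σ).aestronglyMeasurable]
  refine ⟨Eventually.of_forall fun x => (ga_shift hσ x).1, ?_⟩
  have : (fun x : E => ∫ y, ‖ga σ (y - x)‖) = fun _ => 1 := by
    funext x
    simp only [Real.norm_eq_abs, abs_of_pos (ga_pos hσ _)]
    exact (ga_shift hσ x).2
  rw [this]
  exact integrable_const _

theorem prod_int (hσ : 0 < σ) {F H : E → ℝ} (hF : BM F) (hH : BM H) :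
    Integrable (fun p : E × E => F p.1 * H p.2 * ga σ (p.2 - p.1)) (μ.prod volume) := by
  obtain ⟨hm, C, hC⟩ := hF
  obtain ⟨hm', C', hC'⟩ := hH
  refine (ga_prod hσ).bdd_mul (c := C * C')
    ((hm.comp measurable_fst).mul (hm'.comp measurable_snd)).aestronglyMeasurable
    (Eventually.of_forall fun p => ?_)
  rw [Real.norm_eq_abs, abs_mul]
  exact mul_le_mul (hC _) (hC' _) (abs_nonneg _) ((abs_nonneg _).trans (hC p.1))

theorem swap (hσ : 0 < σ) {F H : E → ℝ} (hF : BM F) (hH : BM H) :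
    Integrable (fun y => (∫ x, F x * ga σ (y - x) ∂μ) * H y) ∧
      ∫ y, (∫ x, F x * ga σ (y - x) ∂μ) * H y = ∫ x, F x * (∫ y, H y * ga σ (y - x)) ∂μ := by
  have h := prod_int (μ := μ) hσ hF hH
  have e1 : (fun y => (∫ x, F x * ga σ (y - x) ∂μ) * H y) =
      fun y => ∫ x, F x * H y * ga σ (y - x) ∂μ := by
    funext y
    rw [← integral_mul_const]
    exact integral_congr_ae (Eventually.of_forall fun x => by ring)
  have e2 : (fun x => F x * ∫ y, H y * ga σ (y - x)) =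
      fun x => ∫ y, F x * H y * ga σ (y - x) := by
    funext x
    rw [← integral_const_mul]
    exact integral_congr_ae (Eventually.of_forall fun x => by ring)
  rw [e1, e2]
  exact ⟨h.integral_prod_right, (integral_integral_swap h).symm⟩

theorem swap1 (hσ : 0 < σ) {F : E → ℝ} (hF : BM F) :
    Integrable (fun y => ∫ x, F x * ga σ (y - x) ∂μ) ∧
      ∫ y, ∫ x, F x * ga σ (y - x) ∂μ = ∫ x, F x ∂μ := by
  have h := swap (μ := μ) hσ hF (bm_const 1)
  simpa only [mul_one, one_mul, (ga_shift hσ _).2] using h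

theorem cv_meas (σ : ℝ) {F : E → ℝ} (hF : Measurable F) :
    Measurable fun y => ∫ x, F x * ga σ (y - x) ∂μ :=
  (((hF.comp measurable_fst).mul (ga_meas σ)).stronglyMeasurable.integral_prod_left'
    (μ := μ)).measurable

theorem heat_meas (σ : ℝ) {H : E → ℝ} (hH : Measurable H) :
    Measurable fun x => ∫ y, H y * ga σ (y - x) :=
  (((hH.comp measurable_snd).mul (ga_meas σ)).stronglyMeasurable.integral_prod_right'
    (ν := volume)).measurable

theorem heat_bd (hσ : 0 < σ) {H : E → ℝ} (hH : BM H) {a b : ℝ} (h : ∀ y, a ≤ H y ∧ H y ≤ b)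
    (x : E) : a ≤ ∫ y, H y * ga σ (y - x) ∧ ∫ y, H y * ga σ (y - x) ≤ b := by
  obtain ⟨hm, C, hC⟩ := hH
  obtain ⟨hi, h1⟩ := ga_shift hσ x
  have hH := hi.bdd_mul (c := C) hm.aestronglyMeasurable (Eventually.of_forall hC)
  constructor
  · have := integral_mono (hi.const_mul a) hH fun y =>
      mul_le_mul_of_nonneg_right (h y).1 (ga_pos hσ _).le
    rwa [integral_const_mul, h1, mul_one] at this
  · have := integral_mono hH (hi.const_mul b) fun y =>
      mul_le_mul_of_nonneg_right (h y).2 (ga_pos hσ _).le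
    rwa [integral_const_mul, h1, mul_one] at this

theorem log_bd {t M : ℝ} (h1 : exp (-M) ≤ t) (h2 : t ≤ exp M) : |log t| ≤ M := by
  have h0 := (exp_pos _).trans_le h1
  exact abs_le.2 ⟨(le_log_iff_exp_le h0).2 h1, (log_le_iff_le_exp h0).2 h2⟩

theorem exp_bd {t M : ℝ} (h : |t| ≤ M) : exp (-M) ≤ exp t ∧ exp t ≤ exp M :=
  ⟨exp_le_exp.2 (abs_le.1 h).1, exp_le_exp.2 (abs_le.1 h).2⟩

theorem cv_pos (hσ : 0 < σ) (y : E) : 0 < ∫ x, ga σ (y - x) ∂μ := by
  rw [integral_pos_iff_support_of_nonneg (fun x => (ga_pos hσ _).le) (bm_ga hσ y).int]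
  have : Function.support (fun x => ga σ (y - x)) = univ :=
    eq_univ_of_forall fun x => (ga_pos hσ _).ne'
  rw [this, measure_univ]
  exact one_pos

theorem ratio_bd (hσ : 0 < σ) {g : E → ℝ} (hg : Measurable g) {M : ℝ} (hM : ∀ x, |g x| ≤ M)
    (y : E) : exp (-M) ≤ (∫ x, exp (g x) * ga σ (y - x) ∂μ) / ∫ x, ga σ (y - x) ∂μ ∧
      (∫ x, exp (g x) * ga σ (y - x) ∂μ) / ∫ x, ga σ (y - x) ∂μ ≤ exp M := by
  have hi : Integrable (fun x => ga σ (y - x)) μ := (bm_ga hσ y).int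
  have hi' : Integrable (fun x => exp (g x) * ga σ (y - x)) μ :=
    ((BM.exp ⟨hg, M, hM⟩).mul (bm_ga hσ y)).int
  rw [le_div_iff₀ (cv_pos hσ y), div_le_iff₀ (cv_pos hσ y), ← integral_const_mul,
    ← integral_const_mul]
  exact ⟨integral_mono (hi.const_mul _) hi' fun x =>
      mul_le_mul_of_nonneg_right (exp_bd (hM x)).1 (ga_pos hσ _).le,
    integral_mono hi' (hi.const_mul _) fun x =>
      mul_le_mul_of_nonneg_right (exp_bd (hM x)).2 (ga_pos hσ _).le⟩

theorem ic_step (hκ : 0 < κ) (hic : IC μ κ) {h : E → ℝ} (hm : Measurable h) {M : ℝ}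
    (hM : ∀ x, |h x| ≤ M) : ∫ x, exp (2 * ∫ y, h y * ga κ⁻¹ (y - x)) ∂μ ≤
      (∫ x, (∫ y, exp (h y) * ga κ⁻¹ (y - x)) ∂μ) ^ 2 := by
  have hσ : 0 < κ⁻¹ := inv_pos.2 hκ
  have b1 : BM h := ⟨hm, M, hM⟩
  have h1 := fun x => abs_le.2 (heat_bd hσ b1 (fun y => abs_le.1 (hM y)) x)
  have h2 := heat_bd hσ b1.exp fun y => exp_bd (hM y)
  have h3 := fun x => log_bd (h2 x).1 (h2 x).2
  have m2 := heat_meas κ⁻¹ hm.exp
  have h4 := hic (fun x => 2 * ∫ y, h y * ga κ⁻¹ (y - x))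
    (fun x => 2 * log (∫ y, exp (h y) * ga κ⁻¹ (y - x))) ((heat_meas κ⁻¹ hm).const_mul 2)
    (m2.log.const_mul 2) ⟨2 * M, fun x => by
      rw [abs_mul, abs_mul, abs_two]
      exact ⟨by linarith [h1 x], by linarith [h3 x]⟩⟩ fun x y => by
      have a1 := harnack hσ hm hM x y
      have a2 : ‖y - x‖ ^ 2 / (2 * κ⁻¹) = κ * ‖y - x‖ ^ 2 / 2 := by field_simp
      linarith
  refine h4.trans ?_
  rw [integral_const_mul, two_mul, exp_add, ← sq]
  refine pow_le_pow_left₀ (exp_pos _).le ?_ 2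
  have b2 : BM fun x => log (∫ y, exp (h y) * ga κ⁻¹ (y - x)) := ⟨m2.log, M, h3⟩
  refine (jensen_exp b2.int b2.exp.int).trans_eq (integral_congr_ae
    (Eventually.of_forall fun x => exp_log ((exp_pos _).trans_le (h2 x).1)))

theorem main (hκ : 0 < κ) (hic : IC μ κ) {g D : E → ℝ} (hg : BM g) (hD : BM D)
    (hf : ∀ y, ∫ x, g x * exp (g x) * ga κ⁻¹ (y - x) ∂μ - (∫ x, exp (g x) * ga κ⁻¹ (y - x) ∂μ) *
        log ((∫ x, exp (g x) * ga κ⁻¹ (y - x) ∂μ) / ∫ x, ga κ⁻¹ (y - x) ∂μ) ≤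
      κ⁻¹ * ∫ x, D x * ga κ⁻¹ (y - x) ∂μ) :
    Ent μ (fun x => exp (g x)) ≤ 2 / κ * ∫ x, D x ∂μ := by
  have hσ : 0 < κ⁻¹ := inv_pos.2 hκ
  obtain ⟨M, hM⟩ := hg.2
  have r := ratio_bd (μ := μ) hσ hg.1 hM
  obtain ⟨h, hh⟩ : ∃ h : E → ℝ, h = fun y =>
    log ((∫ x, exp (g x) * ga κ⁻¹ (y - x) ∂μ) / ∫ x, ga κ⁻¹ (y - x) ∂μ) := ⟨_, rfl⟩
  have hm : Measurable h := by
    have m1 := cv_meas (μ := μ) κ⁻¹ (F := fun _ => 1) measurable_const
    simp only [one_mul] at m1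
    rw [hh]
    exact ((cv_meas κ⁻¹ hg.1.exp).div m1).log
  have hb : ∀ y, |h y| ≤ M := fun y => by
    rw [hh]
    exact log_bd (r y).1 (r y).2
  have bh : BM h := ⟨hm, M, hb⟩
  obtain ⟨i1, e1⟩ := swap1 (μ := μ) hσ (hg.mul hg.exp)
  obtain ⟨i2, e2⟩ := swap (μ := μ) hσ hg.exp bh
  obtain ⟨i3, e3⟩ := swap1 (μ := μ) hσ hD
  have h1 := integral_mono (i1.sub i2) (i3.const_mul κ⁻¹) fun y => by
    rw [hh]
    exact hf y
  rw [integral_sub' i1 i2, integral_const_mul, e1, e2, e3] at h1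
  have h2 : ∫ x, (∫ y, exp (h y) * ga κ⁻¹ (y - x)) ∂μ = ∫ x, exp (g x) ∂μ := by
    have e4 := (swap (μ := μ) hσ (bm_const 1) bh.exp).2
    simp only [one_mul] at e4
    rw [← e4, ← (swap1 (μ := μ) hσ hg.exp).2]
    refine integral_congr_ae (Eventually.of_forall fun y => ?_)
    simp only [hh]
    rw [exp_log ((exp_pos _).trans_le (r y).1), mul_div_cancel₀ _ (cv_pos hσ y).ne']
  have h3 := ic_step hκ hic hm hb
  rw [h2] at h3
  have h4 : 0 < ∫ x, exp (g x) ∂μ := integral_exp_pos hg.exp.int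
  have bp : BM fun x => 2 * ∫ y, h y * ga κ⁻¹ (y - x) :=
    (bm_const 2).mul ⟨heat_meas κ⁻¹ hm, M, fun x =>
      abs_le.2 (heat_bd hσ bh (fun y => abs_le.1 (hb y)) x)⟩
  have h5 := gibbs (μ := μ) (w := fun x => exp (g x)) (fun x => (exp_pos _).le) hg.exp.int
    (by simpa only [log_exp] using (hg.exp.mul hg).int) (hg.exp.mul bp).int bp.exp.int
    (pow_pos h4 2) h3
  have e5 : ∫ x, exp (g x) * (2 * ∫ y, h y * ga κ⁻¹ (y - x)) ∂μ =
      2 * ∫ x, exp (g x) * (∫ y, h y * ga κ⁻¹ (y - x)) ∂μ := by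
    rw [← integral_const_mul]
    exact integral_congr_ae (Eventually.of_forall fun x => by ring)
  have e6 : Ent μ (fun x => exp (g x)) = ∫ x, g x * exp (g x) ∂μ -
      (∫ x, exp (g x) ∂μ) * log (∫ x, exp (g x) ∂μ) := by
    simp only [Ent, log_exp, mul_comm]
  rw [e5, log_pow] at h5
  rw [div_eq_mul_inv]
  push_cast at h5
  linarith

theorem cvx (hV : Pot V ε) (hε : 0 ≤ ε) (hσ : 0 < σ) (y : E) :
    ConvexOn ℝ univ fun x => V x - log (ga σ (y - x)) - σ⁻¹ / 2 * ‖x‖ ^ 2 := by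
  have h1 : ConvexOn ℝ univ fun x : E => ‖x‖ ^ 2 :=
    convexOn_univ_norm.pow (fun x _ => norm_nonneg x) 2
  have h2 := ((-σ⁻¹) • innerₛₗ ℝ y : E →ₗ[ℝ] ℝ).convexOn convex_univ
  have h3 := ((hV.cvx.add (h1.smul (by positivity : 0 ≤ ε / 2))).add h2).add_const
    (‖y‖ ^ 2 / (2 * σ) + log (∫ w : E, gs σ w))
  refine h3.congr fun x _ => ?_
  simp only [Pi.add_apply, smul_eq_mul, LinearMap.smul_apply, innerₛₗ_apply_apply]
  have h4 : gs σ (y - x) ≠ 0 := (exp_pos _).ne'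
  rw [ga, log_div h4 (gs_pos hσ).ne', gs, log_exp, norm_sub_sq_real]
  field_simp
  ring

end Chan

/-- The fibrewise inequality for the Gaussian channel. -/
theorem chan_fibre (hV : Pot V ε) (hε : 0 ≤ ε) {σ : ℝ} (hσ : 0 < σ) {g : E → ℝ} (hg : Tst g)
    (y : E) :
    ∫ x, g x * exp (g x) * ga σ (y - x) ∂ms V - (∫ x, exp (g x) * ga σ (y - x) ∂ms V) *
        log ((∫ x, exp (g x) * ga σ (y - x) ∂ms V) / ∫ x, ga σ (y - x) ∂ms V) ≤
      σ * ∫ x, ‖gradient g x‖ ^ 2 * exp (g x) * ga σ (y - x) ∂ms V := by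
  have := hV.prob
  have hW : Continuous fun x => V x - log (ga σ (y - x)) :=
    hV.diff.continuous.sub (((ga_cont σ).comp (continuous_const.sub continuous_id)).log
      fun x => (ga_pos hσ _).ne')
  have e1 : ∀ x, exp (-(V x - log (ga σ (y - x)))) = ga σ (y - x) * exp (-V x) := fun x => by
    rw [neg_sub, sub_eq_add_neg, exp_add, exp_log (ga_pos hσ _)]
  have e2 : ∀ F : E → ℝ, ∫ x, F x ∂ms (fun x => V x - log (ga σ (y - x))) =
      ∫ x, F x * ga σ (y - x) ∂ms V := fun F => by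
    rw [integral_ms hW.measurable, integral_ms hV.meas]
    simp only [e1, mul_assoc]
  have h := bakry hσ hW (Chan.cvx hV hε hσ y) (by
    simp only [e1]
    exact (integrable_ms hV.meas _).1 (Chan.bm_ga hσ y).int) hg
  simp only [e1, e2] at h
  rwa [← integral_ms hV.meas] at h

theorem chan_exp (hV : Pot V ε) (hε : 0 ≤ ε) (hκ : 0 < κ) (h : IC (ms V) κ) {g : E → ℝ}
    (hg : Tst g) : Ent (ms V) (fun x => exp (g x)) ≤
      2 / κ * ∫ x, ‖gradient g x‖ ^ 2 * exp (g x) ∂ms V := by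
  have := hV.prob
  obtain ⟨M, hM0, hM⟩ := hg.bdd
  have b1 : Chan.BM g := ⟨hg.cont.measurable, M, fun x => (hM x).1⟩
  have b2 : Chan.BM fun x => ‖gradient g x‖ ^ 2 :=
    ⟨(hg.grad_cont.norm.pow 2).measurable, M ^ 2, fun x => by
      rw [abs_of_nonneg (sq_nonneg _)]
      exact pow_le_pow_left₀ (norm_nonneg _) (hM x).2 2⟩
  exact Chan.main hκ h b1 (b2.mul b1.exp) (chan_fibre hV hε (inv_pos.2 hκ) hg)

end Vale.Agent.P245B
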