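import Vale.Agent.P245B.PotL

/-! Cutting off test functions. -/

open MeasureTheory Real Set Filter Topology
open scoped ENNReal RealInnerProductSpace

noncomputable section

namespace Vale.Agent.P245B

open Vale.Agent.P245 (Ent gibbs Ent_nonneg)

set_option linter.unusedSectionVars false

variable {E : Type} [NormedAddCommGroup E] [InnerProductSpace ℝ E] [FiniteDimensional ℝ E]
  [CompleteSpace E] [MeasurableSpace E] [BorelSpace E]

namespace Cut

theorem norm_grad (g : E → ℝ) (x : E) : ‖gradient g x‖ = ‖fderiv ℝ g x‖ :=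
  (InnerProductSpace.toDual ℝ E).symm.norm_map _

theorem bump : ∃ (c : ℕ → E → ℝ) (B : ℝ), 0 ≤ B ∧ (∀ k, ContDiff ℝ 2 (c k) ∧ HasCompactSupport (c k)) ∧
    (∀ k x, |c k x| ≤ 1 ∧ ‖fderiv ℝ (c k) x‖ ≤ B) ∧
    ∀ x, ∀ᶠ k in atTop, c k =ᶠ[𝓝 x] fun _ => 1 := by
  let χ : ContDiffBump (0 : E) := ⟨1, 2, one_pos, one_lt_two⟩
  have hχ : ContDiff ℝ 2 (χ : E → ℝ) := χ.contDiff
  obtain ⟨B, hB⟩ := (hχ.continuous_fderiv (by norm_num)).bounded_above_of_compact_support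
    (χ.hasCompactSupport.fderiv (𝕜 := ℝ))
  have hpos : ∀ k : ℕ, (0 : ℝ) < ((k : ℝ) + 1)⁻¹ := fun k => by positivity
  have hle : ∀ k : ℕ, ((k : ℝ) + 1)⁻¹ ≤ 1 := fun k =>
    inv_le_one_of_one_le₀ (by linarith [k.cast_nonneg (α := ℝ)])
  have hB0 : 0 ≤ B := (norm_nonneg _).trans (hB 0)
  refine ⟨fun k x => χ (((k : ℝ) + 1)⁻¹ • x), B, hB0, fun k => ⟨?_, ?_⟩, fun k x => ⟨?_, ?_⟩,
    fun x => ?_⟩
  · exact hχ.comp (contDiff_id.const_smul _)
  · exact χ.hasCompactSupport.comp_smul (hpos k).ne'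
  · rw [abs_of_nonneg χ.nonneg]
    exact χ.le_one
  · have h1 : HasFDerivAt (fun x : E => ((k : ℝ) + 1)⁻¹ • x)
        (((k : ℝ) + 1)⁻¹ • ContinuousLinearMap.id ℝ E) x := (hasFDerivAt_id x).const_smul _
    have h2 := ((hχ.differentiable (by norm_num)) (((k : ℝ) + 1)⁻¹ • x)).hasFDerivAt.comp x h1
    have h3 : fderiv ℝ (fun x : E => χ (((k : ℝ) + 1)⁻¹ • x)) x = _ := h2.fderiv
    rw [h3]
    refine (ContinuousLinearMap.opNorm_comp_le _ _).trans ?_
    have h4 : ‖((k : ℝ) + 1)⁻¹ • ContinuousLinearMap.id ℝ E‖ ≤ 1 := by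
      rw [norm_smul, Real.norm_eq_abs, abs_of_pos (hpos k)]
      exact mul_le_one₀ (hle k) (norm_nonneg _) ContinuousLinearMap.norm_id_le
    exact (mul_le_mul (hB _) h4 (norm_nonneg _) hB0).trans_eq (mul_one B)
  · obtain ⟨n, hn⟩ := exists_nat_gt ‖x‖
    filter_upwards [eventually_ge_atTop n] with k hk
    have hk' : (n : ℝ) ≤ k := by exact_mod_cast hk
    have ho : Metric.ball (0 : E) ((k : ℝ) + 1) ∈ 𝓝 x :=
      Metric.isOpen_ball.mem_nhds (by rw [mem_ball_zero_iff]; linarith)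
    filter_upwards [ho] with y hy
    rw [mem_ball_zero_iff] at hy
    refine χ.one_of_mem_closedBall ?_
    rw [mem_closedBall_zero_iff, norm_smul, Real.norm_eq_abs, abs_of_pos (hpos k)]
    show _ ≤ (1 : ℝ)
    rw [inv_mul_le_iff₀ (by positivity)]
    linarith

end Cut

theorem cut {f : E → ℝ} (hf : Tst f) : ∃ (F : ℕ → E → ℝ) (M : ℝ),
    (∀ k, ContDiff ℝ 2 (F k) ∧ HasCompactSupport (F k)) ∧
    (∀ k x, |F k x| ≤ M ∧ ‖gradient (F k) x‖ ≤ M) ∧
    ∀ x, ∀ᶠ k in atTop, F k x = f x ∧ gradient (F k) x = gradient f x := by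
  obtain ⟨c, B, hB, h1, h2, h3⟩ := Cut.bump (E := E)
  obtain ⟨M, hM, hf2⟩ := hf.bdd
  refine ⟨fun k x => c k x * f x, M + M * B, fun k => ⟨(h1 k).1.mul hf.1, (h1 k).2.mul_right⟩,
    fun k x => ⟨?_, ?_⟩, fun x => ?_⟩
  · rw [abs_mul]
    have := mul_le_mul (h2 k x).1 (hf2 x).1 (abs_nonneg _) zero_le_one
    nlinarith [mul_nonneg hM hB]
  · rw [Cut.norm_grad, fderiv_fun_mul ((h1 k).1.differentiable (by norm_num) x) (hf.diff x)]
    refine (norm_add_le _ _).trans (add_le_add ?_ ?_)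
    · rw [norm_smul, Real.norm_eq_abs, ← Cut.norm_grad]
      exact (mul_le_mul (h2 k x).1 (hf2 x).2 (norm_nonneg _) zero_le_one).trans_eq (one_mul M)
    · rw [norm_smul, Real.norm_eq_abs]
      exact mul_le_mul (hf2 x).1 (h2 k x).2 (norm_nonneg _) hM
  · filter_upwards [h3 x] with k hk
    have e : (fun y => c k y * f y) =ᶠ[𝓝 x] f := by
      filter_upwards [hk] with y hy
      rw [hy, one_mul]
    exact ⟨e.eq_of_nhds, e.gradient_eq⟩

theorem cut_ind {μ : Measure E} [IsFiniteMeasure μ] {w₁ w₂ : E → ℝ} (h₁ : Integrable w₁ μ)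
    (h₂ : Integrable w₂ μ) {Φ : ℝ × ℝ × ℝ × ℝ × ℝ → ℝ} (hΦ : Continuous Φ)
    (h : ∀ f : E → ℝ, ContDiff ℝ 2 f → HasCompactSupport f →
      0 ≤ Φ (Ent μ (fun x => f x ^ 2), Dir μ f, ∫ x, f x ^ 2 ∂μ, ∫ x, f x ^ 2 * w₁ x ∂μ,
        ∫ x, f x * w₂ x ∂μ)) {f : E → ℝ} (hf : Tst f) :
    0 ≤ Φ (Ent μ (fun x => f x ^ 2), Dir μ f, ∫ x, f x ^ 2 ∂μ, ∫ x, f x ^ 2 * w₁ x ∂μ,
      ∫ x, f x * w₂ x ∂μ) := by
  obtain ⟨F, M, h1, h2, h3⟩ := cut hf
  have hT : ∀ k, Tst (F k) := fun k => Tst.of_supp (h1 k).1 (h1 k).2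
  have key : ∀ (G : ℝ × E → ℝ), Continuous G → ∀ w : E → ℝ, Integrable w μ →
      Tendsto (fun k => ∫ x, G (F k x, gradient (F k) x) * w x ∂μ) atTop
        (𝓝 (∫ x, G (f x, gradient f x) * w x ∂μ)) := by
    intro G hG w hw
    obtain ⟨C, hC⟩ := (isCompact_closedBall (0 : ℝ × E) M).exists_bound_of_continuousOn
      hG.continuousOn
    refine tendsto_integral_of_dominated_convergence (fun x => C * ‖w x‖)
      (fun k => ((hG.comp ((hT k).cont.prodMk (hT k).grad_cont)).aestronglyMeasurable).mul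
        hw.aestronglyMeasurable) (hw.norm.const_mul C)
      (fun k => Eventually.of_forall fun x => ?_) (Eventually.of_forall fun x => ?_)
    · rw [norm_mul]
      refine mul_le_mul_of_nonneg_right (hC _ ?_) (norm_nonneg _)
      rw [mem_closedBall_zero_iff, Prod.norm_def]
      exact max_le (h2 k x).1 (h2 k x).2
    · refine tendsto_const_nhds.congr' ?_
      filter_upwards [h3 x] with k hk
      rw [hk.1, hk.2]
  have key1 : ∀ (G : ℝ × E → ℝ), Continuous G →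
      Tendsto (fun k => ∫ x, G (F k x, gradient (F k) x) ∂μ) atTop
        (𝓝 (∫ x, G (f x, gradient f x) ∂μ)) := by
    intro G hG
    simpa only [mul_one] using key G hG (fun _ => 1) (integrable_const _)
  have t1 := key1 (fun p => p.1 ^ 2 * log (p.1 ^ 2))
    (continuous_mul_log.comp (continuous_fst.pow 2))
  have t2 := key1 (fun p => p.1 ^ 2) (continuous_fst.pow 2)
  have t3 := key1 (fun p => ‖p.2‖ ^ 2) (continuous_snd.norm.pow 2)
  have t4 := key (fun p => p.1 ^ 2) (continuous_fst.pow 2) w₁ h₁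
  have t5 := key (fun p => p.1) continuous_fst w₂ h₂
  have t6 : Tendsto (fun k => Ent μ (fun x => F k x ^ 2)) atTop (𝓝 (Ent μ fun x => f x ^ 2)) :=
    t1.sub ((continuous_mul_log.tendsto _).comp t2)
  have t7 := (hΦ.tendsto _).comp (t6.prodMk_nhds (t3.prodMk_nhds (t2.prodMk_nhds
    (t4.prodMk_nhds t5))))
  exact ge_of_tendsto' t7 fun k => h (F k) (h1 k).1 (h1 k).2

end Vale.Agent.P245B
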