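import Vale.Agent.P245B.PotL

/-! Poincare inequality, the lemma of Rothaus, and the squared form. -/

open MeasureTheory Real Set Filter Topology
open scoped ENNReal RealInnerProductSpace

noncomputable section

namespace Vale.Agent.P245B

open Vale.Agent.P245 (Ent gibbs Ent_nonneg)

set_option linter.unusedSectionVars false

variable {E : Type} [NormedAddCommGroup E] [InnerProductSpace ℝ E] [FiniteDimensional ℝ E]
  [CompleteSpace E] [MeasurableSpace E] [BorelSpace E]

variable {μ : Measure E} [IsProbabilityMeasure μ] {K : ℝ}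

namespace Poin

theorem exp_le {x : ℝ} (hx : |x| ≤ 1) : exp x ≤ 1 + x + x ^ 2 / 2 + |x| ^ 3 := by
  have h := (abs_le.1 (Real.exp_bound hx (n := 3) (by norm_num))).2
  simp only [Finset.sum_range_succ, Finset.range_zero, Finset.sum_empty, Nat.factorial] at h
  have h3 : 0 ≤ |x| ^ 3 := by positivity
  norm_num at h
  linarith

theorem le_of_small {a b C t0 : ℝ} (ht0 : 0 < t0) (h : ∀ t, 0 < t → t ≤ t0 → a ≤ b + t * C) :
    a ≤ b := by
  have hc : Continuous fun t : ℝ => b + t * C := by fun_prop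
  have ht := (hc.tendsto 0).mono_left (nhdsWithin_le_nhds (s := Ioi 0))
  simp only [zero_mul, add_zero] at ht
  refine ge_of_tendsto ht ?_
  filter_upwards [Ioc_mem_nhdsGT ht0] with t ht' using h t ht'.1 ht'.2

theorem pi_zero (h : LSI μ K) {g : E → ℝ} (hg : Tst g) (h0 : ∫ x, g x ∂μ = 0) :
    2 * ∫ x, g x ^ 2 ∂μ ≤ K * Dir μ g := by
  obtain ⟨M, hM0, hM⟩ := hg.bdd
  set V := ∫ x, g x ^ 2 ∂μ with hV
  have hV0 : 0 ≤ V := integral_nonneg fun _ => sq_nonneg _
  have i1 : Integrable g μ := hg.int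
  have i2 : Integrable (fun x => g x ^ 2) μ := hg.int_sq
  refine le_of_small (C := 10 * M ^ 3 + 2 * V ^ 2 + 8 * M ^ 3 * V) (t0 := 1 / (2 * M + 1))
    (by positivity) fun t ht ht0 => ?_
  rw [le_div_iff₀ (by positivity)] at ht0
  have ht1 : t ≤ 1 := by nlinarith
  obtain ⟨hu, hgr⟩ := hg.affine 1 t
  have h1 := h _ hu
  have hD : Dir μ (fun x => 1 + t * g x) = t ^ 2 * Dir μ g := by
    simp only [Dir, hgr, norm_smul, mul_pow, Real.norm_eq_abs, sq_abs, integral_const_mul]
  have hb : ∀ x, |2 * t * g x| ≤ 2 * t * M := fun x => by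
    rw [abs_mul, abs_of_pos (by positivity)]
    exact mul_le_mul_of_nonneg_left (hM x).1 (by positivity)
  have hb1 : 2 * t * M ≤ 1 := by nlinarith
  have cG : Continuous fun x => 2 * t * g x := continuous_const.mul hg.cont
  have iG : Integrable (fun x => (1 + t * g x) ^ 2 * (2 * t * g x)) μ :=
    hu.int_sq.mul_bdd (c := 1) cG.aestronglyMeasurable
      (Eventually.of_forall fun x => (hb x).trans hb1)
  have iE : Integrable (fun x => exp (2 * t * g x)) μ :=
    P245.integrable_of_bdd (continuous_exp.comp cG).measurable (C := exp 1) fun x => by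
      rw [abs_of_pos (exp_pos _)]
      exact exp_le_exp.2 ((le_abs_self _).trans ((hb x).trans hb1))
  have poly : ∀ a b c : ℝ, ∫ x, (a + b * g x + c * g x ^ 2) ∂μ = a + c * V := fun a b c => by
    rw [integral_add ((integrable_const a).fun_add (i1.const_mul b)) (i2.const_mul c),
      integral_add (integrable_const a) (i1.const_mul b), integral_const_mul, integral_const_mul,
      h0]
    simp [hV]
  have ipoly : ∀ a b c : ℝ, Integrable (fun x => a + b * g x + c * g x ^ 2) μ := fun a b c =>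
    ((integrable_const a).add (i1.const_mul b)).add (i2.const_mul c)
  have hZ : ∫ x, exp (2 * t * g x) ∂μ ≤ 1 + 8 * t ^ 3 * M ^ 3 + 2 * t ^ 2 * V := by
    rw [← poly _ (2 * t)]
    refine integral_mono iE (ipoly _ _ _) fun x => ?_
    have h2 := exp_le ((hb x).trans hb1)
    have h3 := pow_le_pow_left₀ (abs_nonneg _) (hb x) 3
    dsimp only
    nlinarith
  have hG : -(2 * t ^ 3 * M ^ 3) + 4 * t ^ 2 * V ≤
      ∫ x, (1 + t * g x) ^ 2 * (2 * t * g x) ∂μ := by
    rw [← poly _ (2 * t)]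
    refine integral_mono (ipoly _ _ _) iG fun x => ?_
    have h3 : -M ^ 3 ≤ g x ^ 3 := by
      have := pow_le_pow_left₀ (abs_nonneg _) (hM x).1 3
      rw [← abs_pow] at this
      exact (abs_le.1 this).1
    have h4 := mul_le_mul_of_nonneg_left h3 (by positivity : 0 ≤ 2 * t ^ 3)
    dsimp only
    nlinarith
  have hw : ∫ x, (1 + t * g x) ^ 2 ∂μ = 1 + t ^ 2 * V := by
    rw [← poly 1 (2 * t)]
    exact integral_congr_ae (Eventually.of_forall fun x => by ring)
  have hZ0 : 0 < 1 + 8 * t ^ 3 * M ^ 3 + 2 * t ^ 2 * V := by positivity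
  have h5 := gibbs (fun x => sq_nonneg (1 + t * g x)) hu.int_sq hu.int_log iG iE hZ0 hZ
  have h6 := mul_le_mul_of_nonneg_left (Real.log_le_sub_one_of_pos hZ0)
    (by positivity : 0 ≤ 1 + t ^ 2 * V)
  rw [hw] at h5
  rw [hD] at h1
  have h7 : t ^ 2 * (2 * V) ≤ t ^ 2 * (K * Dir μ g +
      t * (10 * M ^ 3 + t * (2 * V ^ 2) + t ^ 2 * (8 * M ^ 3 * V))) := by
    nlinarith
  have h8 := le_of_mul_le_mul_left h7 (by positivity)
  have h9 : t * (2 * V ^ 2) ≤ 2 * V ^ 2 := mul_le_of_le_one_left (by positivity) ht1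
  have h10 : t ^ 2 * (8 * M ^ 3 * V) ≤ 8 * M ^ 3 * V :=
    mul_le_of_le_one_left (by positivity) (pow_le_one₀ ht.le ht1)
  nlinarith

theorem scal (v : ℝ) : (1 + 2 * v) * log (max ((1 + v) ^ 2) (1 / 4)) ≤ 2 * v + 6 * v ^ 2 := by
  rcases le_total (-1 / 2) v with h | h
  · rw [max_eq_left (by nlinarith), log_pow]
    have h1 := Real.log_le_sub_one_of_pos (by linarith : 0 < 1 + v)
    have h2 := mul_le_mul_of_nonneg_left h1 (by linarith : 0 ≤ 1 + 2 * v)
    push_cast
    nlinarith [sq_nonneg v]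
  · have h1 : log (1 / 4) ≤ log (max ((1 + v) ^ 2) (1 / 4)) :=
      log_le_log (by norm_num) (le_max_right _ _)
    have h2 : log (1 / 4 : ℝ) = -(2 * log 2) := by
      rw [one_div, log_inv, show (4 : ℝ) = 2 ^ 2 by norm_num, log_pow]
      norm_num
    have h3 := Real.log_two_lt_d9
    have h4 : -3 / 2 ≤ log (max ((1 + v) ^ 2) (1 / 4)) := by
      rw [h2] at h1
      norm_num at h3 ⊢
      linarith
    have h5 := mul_le_mul_of_nonpos_left h4 (by linarith : 1 + 2 * v ≤ 0)
    nlinarith [sq_nonneg (v + 5 / 12)]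

theorem point {c : ℝ} (hc : c ≠ 0) (y N : ℝ) :
    y ^ 2 * log (y ^ 2) ≤ (y - c) ^ 2 * (log (max (y ^ 2) (c ^ 2 / 4)) - log N) +
      (c ^ 2 * log (c ^ 2) + (2 * c + 2 * c * log (c ^ 2)) * (y - c) +
        (6 + log N) * (y - c) ^ 2) := by
  have hc2 : 0 < c ^ 2 := by positivity
  have h1 : y ^ 2 * log (y ^ 2) ≤ y ^ 2 * log (max (y ^ 2) (c ^ 2 / 4)) := by
    rcases eq_or_ne y 0 with rfl | hy
    · simp
    · exact mul_le_mul_of_nonneg_left (log_le_log (by positivity) (le_max_left _ _)) (sq_nonneg _)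
  have h2 := mul_le_mul_of_nonneg_left (scal ((y - c) / c)) hc2.le
  have e : max ((1 + (y - c) / c) ^ 2) (1 / 4) = max (y ^ 2) (c ^ 2 / 4) / c ^ 2 := by
    rw [← max_div_div_right hc2.le]
    congr 1 <;> field_simp
    ring
  have hF : 0 < max (y ^ 2) (c ^ 2 / 4) := lt_max_of_lt_right (by positivity)
  rw [e, log_div hF.ne' hc2.ne', ← mul_assoc] at h2
  have e1 : c ^ 2 * (1 + 2 * ((y - c) / c)) = c ^ 2 + 2 * c * (y - c) := by field_simp
  have e2 : c ^ 2 * (2 * ((y - c) / c) + 6 * ((y - c) / c) ^ 2) =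
      2 * c * (y - c) + 6 * (y - c) ^ 2 := by field_simp
  rw [e1, e2] at h2
  nlinarith

end Poin

theorem lsi_of_exp (hK : 0 ≤ K) (h : ∀ g : E → ℝ, Tst g → Ent μ (fun x => exp (g x)) ≤
    K * ∫ x, ‖gradient g x‖ ^ 2 * exp (g x) ∂μ) : LSI μ (4 * K) := by
  intro f hf
  obtain ⟨M, -, hM⟩ := hf.bdd
  refine P245.Ent_le_of_forall (C := M ^ 2) (B := 0) (hf.cont.measurable.pow_const 2)
    (fun x => sq_nonneg _) (fun x => ?_) fun δ hδ _ => ?_
  · rw [← sq_abs]
    exact pow_le_pow_left₀ (abs_nonneg _) (hM x).1 2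
  · obtain ⟨hg, hgr⟩ := hf.log_sq hδ
    have hp : ∀ x, 0 < f x ^ 2 + δ := fun x => by positivity
    have h1 := h _ hg
    simp only [exp_log (hp _), hgr] at h1
    refine h1.trans ?_
    rw [zero_mul, add_zero, mul_comm 4 K, mul_assoc, Dir, ← integral_const_mul 4]
    refine mul_le_mul_of_nonneg_left (integral_mono_of_nonneg
      (Eventually.of_forall fun x => mul_nonneg (sq_nonneg _) (hp x).le)
      (hf.int_grad.const_mul 4) (Eventually.of_forall fun x => ?_)) hK
    have e : (2 * f x / (f x ^ 2 + δ)) ^ 2 * (f x ^ 2 + δ) ≤ 4 := by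
      rw [div_pow, sq (f x ^ 2 + δ), ← div_div, div_mul_cancel₀ _ (hp x).ne', div_le_iff₀ (hp x)]
      nlinarith
    dsimp only
    rw [norm_smul, mul_pow, Real.norm_eq_abs, sq_abs, mul_right_comm]
    exact mul_le_mul_of_nonneg_right e (sq_nonneg _)

theorem LSI.pi (h : LSI μ K) : PI μ (K / 2) := by
  intro f hf
  set m := ∫ x, f x ∂μ with hm
  obtain ⟨hg, hgr⟩ := hf.affine (-m) 1
  have h0 : ∫ x, (-m + 1 * f x) ∂μ = 0 := by
    rw [integral_add (integrable_const _) (hf.int.const_mul 1), integral_const_mul]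
    simp [hm]
  have h1 := Poin.pi_zero h hg h0
  have hD : Dir μ (fun x => -m + 1 * f x) = Dir μ f := by
    simp only [Dir, hgr, one_smul]
  have h2 : ∫ x, (-m + 1 * f x) ^ 2 ∂μ = ∫ x, f x ^ 2 ∂μ - m ^ 2 := by
    have e : ∀ x, (-m + 1 * f x) ^ 2 = m ^ 2 + (-2 * m) * f x + f x ^ 2 := fun x => by ring
    simp only [e]
    rw [integral_add ((integrable_const _).fun_add (hf.int.const_mul _)) hf.int_sq,
      integral_add (integrable_const _) (hf.int.const_mul _), integral_const_mul, ← hm]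
    simp
    ring
  rw [hD, h2] at h1
  linarith

theorem rothaus {α : Type} [MeasurableSpace α] {μ : Measure α} [IsProbabilityMeasure μ]
    {f : α → ℝ} (hm : Measurable f) {M : ℝ} (hM : ∀ x, |f x| ≤ M) :
    Ent μ (fun x => f x ^ 2) ≤ Ent μ (fun x => (f x - ∫ y, f y ∂μ) ^ 2) +
      7 * ∫ x, (f x - ∫ y, f y ∂μ) ^ 2 ∂μ := by
  set c := ∫ y, f y ∂μ with hc
  set V := ∫ x, (f x - c) ^ 2 ∂μ with hV
  have hV0 : 0 ≤ V := integral_nonneg fun _ => sq_nonneg _
  rcases eq_or_ne c 0 with h0 | h0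
  · simp only [h0, sub_zero]
    linarith
  have hc2 : 0 < c ^ 2 := by positivity
  have i0 : Integrable f μ := P245.integrable_of_bdd hm hM
  have i1 : Integrable (fun x => f x - c) μ := i0.sub (integrable_const c)
  have mg : Measurable fun x => (f x - c) ^ 2 := (hm.sub_const c).pow_const 2
  have bf : ∀ x, f x ^ 2 ≤ M ^ 2 := fun x => by
    rw [← sq_abs]
    exact pow_le_pow_left₀ (abs_nonneg _) (hM x) 2
  have bg : ∀ x, (f x - c) ^ 2 ≤ 2 * M ^ 2 + 2 * c ^ 2 := fun x => by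
    nlinarith [bf x, sq_nonneg (f x + c)]
  have i2 := P245.int_of_nonneg_le (μ := μ) mg (fun x => sq_nonneg _) bg
  have i3 := P245.int_mul_log (μ := μ) mg (fun x => sq_nonneg _) bg
  have i4 := P245.int_mul_log (μ := μ) (hm.pow_const 2) (fun x => sq_nonneg _) bf
  have z1 : ∫ x, (f x - c) ∂μ = 0 := by
    rw [integral_sub i0 (integrable_const c)]
    simp [hc]
  have poly : ∀ a b d : ℝ, ∫ x, (a + b * (f x - c) + d * (f x - c) ^ 2) ∂μ = a + d * V :=
    fun a b d => by
      rw [integral_add ((integrable_const a).fun_add (i1.const_mul b)) (i2.const_mul d),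
        integral_add (integrable_const a) (i1.const_mul b), integral_const_mul, integral_const_mul,
        z1]
      simp [hV]
  have ipoly : ∀ a b d : ℝ, Integrable (fun x => a + b * (f x - c) + d * (f x - c) ^ 2) μ :=
    fun a b d => ((integrable_const a).add (i1.const_mul b)).add (i2.const_mul d)
  have hN : ∫ x, f x ^ 2 ∂μ = c ^ 2 + V := by
    rw [← one_mul V, ← poly _ (2 * c)]
    exact integral_congr_ae (Eventually.of_forall fun x => by ring)
  have hN0 : 0 < c ^ 2 + V := by positivity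
  have hF : ∀ x, 0 < max (f x ^ 2) (c ^ 2 / 4) := fun x => lt_max_of_lt_right (by positivity)
  have mF : Measurable fun x => max (f x ^ 2) (c ^ 2 / 4) := (hm.pow_const 2).max measurable_const
  have mG : Measurable fun x => log (max (f x ^ 2) (c ^ 2 / 4)) - log (c ^ 2 + V) :=
    mF.log.sub_const _
  have iG : Integrable (fun x => (f x - c) ^ 2 *
      (log (max (f x ^ 2) (c ^ 2 / 4)) - log (c ^ 2 + V))) μ := by
    refine i2.mul_bdd (c := |log (c ^ 2 / 4)| + |log (max (M ^ 2) (c ^ 2 / 4))| + |log (c ^ 2 + V)|)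
      mG.aestronglyMeasurable (Eventually.of_forall fun x => ?_)
    have l1 : log (c ^ 2 / 4) ≤ log (max (f x ^ 2) (c ^ 2 / 4)) :=
      log_le_log (by positivity) (le_max_right _ _)
    have l2 : log (max (f x ^ 2) (c ^ 2 / 4)) ≤ log (max (M ^ 2) (c ^ 2 / 4)) :=
      log_le_log (hF x) (max_le_max_right _ (bf x))
    rw [Real.norm_eq_abs, abs_le]
    constructor
    · linarith [neg_abs_le (log (c ^ 2 / 4)), abs_nonneg (log (max (M ^ 2) (c ^ 2 / 4))),
        le_abs_self (log (c ^ 2 + V))]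
    · linarith [abs_nonneg (log (c ^ 2 / 4)), le_abs_self (log (max (M ^ 2) (c ^ 2 / 4))),
        neg_abs_le (log (c ^ 2 + V))]
  have eE : ∀ x, exp (log (max (f x ^ 2) (c ^ 2 / 4)) - log (c ^ 2 + V)) =
      max (f x ^ 2) (c ^ 2 / 4) / (c ^ 2 + V) := fun x => by
    rw [exp_sub, exp_log (hF x), exp_log hN0]
  have iF : Integrable (fun x => max (f x ^ 2) (c ^ 2 / 4)) μ :=
    P245.int_of_nonneg_le mF (fun x => (hF x).le) fun x => max_le_max_right _ (bf x)
  have hZ : ∫ x, exp (log (max (f x ^ 2) (c ^ 2 / 4)) - log (c ^ 2 + V)) ∂μ ≤ 2 := by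
    simp only [eE]
    rw [integral_div, div_le_iff₀ hN0]
    have h1 : ∫ x, max (f x ^ 2) (c ^ 2 / 4) ∂μ ≤ c ^ 2 + 2 * V := by
      rw [← poly _ (2 * c)]
      refine integral_mono iF (ipoly _ _ _) fun x => max_le ?_ ?_
      · nlinarith [sq_nonneg (f x - c)]
      · nlinarith [sq_nonneg (2 * f x - c)]
    linarith
  have h5 := gibbs (fun x => sq_nonneg (f x - c)) i2 i3 iG
    (by simp only [eE]; exact iF.div_const _) two_pos hZ
  have h6 := integral_mono i4 (iG.add (ipoly _ _ _)) fun x => Poin.point h0 (f x) (c ^ 2 + V)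
  simp only [Pi.add_apply] at h6
  rw [integral_add iG (ipoly _ _ _), poly] at h6
  have h7 : c ^ 2 * log (c ^ 2) ≤ c ^ 2 * log (c ^ 2 + V) :=
    mul_le_mul_of_nonneg_left (log_le_log hc2 (by linarith)) hc2.le
  have h8 : V * log 2 ≤ V * 1 :=
    mul_le_mul_of_nonneg_left (by linarith [Real.log_two_lt_d9]) hV0
  rw [← hV] at h5
  unfold Ent at h5 ⊢
  rw [hN]
  linarith

end Vale.Agent.P245B
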