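import Vale.Agent.P245B.Pert
import Vale.Agent.P245B.Poin
import Vale.Agent.P245B.Cut

/-! Transfer of the inequality from the perturbed measure. -/

open MeasureTheory Real Set Filter Topology
open scoped ENNReal RealInnerProductSpace

noncomputable section

namespace Vale.Agent.P245B

open Vale.Agent.P245 (Ent gibbs Ent_nonneg)

set_option linter.unusedSectionVars false

variable {E : Type} [NormedAddCommGroup E] [InnerProductSpace ℝ E] [FiniteDimensional ℝ E]
  [CompleteSpace E] [MeasurableSpace E] [BorelSpace E]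

variable {V f : E → ℝ} {L s K : ℝ}

theorem tilt_tst (μ : Measure E) (s : ℝ) (h1 : ContDiff ℝ 2 f) (h2 : HasCompactSupport f) :
    Tst (fun x => f x * exp (Uq μ s x / 2)) ∧ ∀ x,
      ‖gradient (fun x => f x * exp (Uq μ s x / 2)) x‖ ^ 2 ≤
        exp (Uq μ s x) * (2 * ‖gradient f x‖ ^ 2 + s ^ 2 / 2 * (f x ^ 2 * ‖x‖ ^ 2)) := by
  have e : (fun x => f x * exp (Uq μ s x / 2)) =
      fun x => f x * exp (s / 4 * (‖x‖ ^ 2 - ∫ y, ‖y‖ ^ 2 ∂μ)) := by
    funext x
    rw [Uq]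
    ring_nf
  refine ⟨Tst.of_supp ?_ h2.mul_right, fun x => ?_⟩
  · rw [e]
    exact h1.mul (contDiff_const.mul ((contDiff_norm_sq ℝ).sub contDiff_const)).exp
  · have d := ((h1.differentiable (by norm_num) x).hasFDerivAt.fun_mul
      (((hasStrictFDerivAt_norm_sq x).hasFDerivAt.sub_const (∫ y, ‖y‖ ^ 2 ∂μ)).const_mul
        (s / 4)).exp).fderiv
    have e2 : exp (Uq μ s x) = exp (s / 4 * (‖x‖ ^ 2 - ∫ y, ‖y‖ ^ 2 ∂μ)) ^ 2 := by
      rw [← exp_nat_mul, Uq]
      ring_nf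
    rw [norm_grad, norm_grad, e, d, e2]
    have hp := exp_pos (s / 4 * (‖x‖ ^ 2 - ∫ y, ‖y‖ ^ 2 ∂μ))
    generalize exp (s / 4 * (‖x‖ ^ 2 - ∫ y, ‖y‖ ^ 2 ∂μ)) = t at hp
    have a := norm_add_le (f x • t • (s / 4) • 2 • innerSL ℝ x) (t • fderiv ℝ f x)
    rw [two_nsmul, ← two_smul ℝ] at a ⊢
    simp only [norm_smul, innerSL_apply_norm, Real.norm_eq_abs, abs_of_pos hp, abs_div,
      Nat.abs_ofNat] at a
    refine (pow_le_pow_left₀ (norm_nonneg _) a 2).trans ?_
    rw [← sq_abs s, ← sq_abs (f x)]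
    nlinarith [sq_nonneg (|f x| * (t * (|s| / 4 * (2 * ‖x‖))) - t * ‖fderiv ℝ f x‖)]

namespace Trans

theorem sq_eq (hV : Pot V 0) (s : ℝ) (f : E → ℝ) :
    ∫ x, (f x * exp (Uq (ms V) s x / 2)) ^ 2 ∂ms (Vs V s) =
      exp (-ph (ms V) s) * ∫ x, f x ^ 2 ∂ms V := by
  rw [integral_Vs hV, ← integral_const_mul]
  refine integral_congr_ae (Eventually.of_forall fun x => ?_)
  dsimp only
  rw [mul_pow, ← exp_nat_mul, mul_assoc, ← exp_add, mul_comm]
  ring_nf

theorem dir_le (hV : Pot V 0) (hs : 0 ≤ s) (hf : ContDiff ℝ 2 f) (hf' : HasCompactSupport f) :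
    Dir (ms (Vs V s)) (fun x => f x * exp (Uq (ms V) s x / 2)) ≤
      exp (-ph (ms V) s) * (2 * Dir (ms V) f + s ^ 2 / 2 * ∫ x, f x ^ 2 * ‖x‖ ^ 2 ∂ms V) := by
  have := hV.prob
  have := (pot_Vs hV hs).prob
  obtain ⟨t1, t2⟩ := tilt_tst (ms V) s hf hf'
  have i1 := ((Tst.of_supp hf hf').int_grad (μ := ms V)).const_mul 2
  have i2 : Integrable (fun x => s ^ 2 / 2 * (f x ^ 2 * ‖x‖ ^ 2)) (ms V) := by
    refine (Continuous.integrable_of_hasCompactSupport ?_ ?_).const_mul _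
    · have := hf.continuous
      fun_prop
    · exact (hf'.comp_left (g := fun y : ℝ => y ^ 2) (by simp)).mul_right
  rw [Dir, Dir, integral_Vs hV, ← integral_const_mul, ← integral_const_mul, ← integral_add i1 i2,
    ← integral_const_mul]
  refine integral_mono ((integrable_Vs hV s _).1 t1.int_grad) ((i1.add i2).const_mul _) fun x => ?_
  refine (mul_le_mul_of_nonneg_right (t2 x) (exp_pos _).le).trans (le_of_eq ?_)
  rw [mul_right_comm, ← exp_add]
  ring_nf

theorem cs {α : Type} [MeasurableSpace α] {μ : Measure α} {g h : α → ℝ}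
    (i1 : Integrable (fun x => g x ^ 2) μ) (i2 : Integrable (fun x => g x * h x) μ)
    (i3 : Integrable (fun x => h x ^ 2) μ) :
    (∫ x, g x * h x ∂μ) ^ 2 ≤ (∫ x, g x ^ 2 ∂μ) * ∫ x, h x ^ 2 ∂μ := by
  have := discrim_le_zero (a := ∫ x, g x ^ 2 ∂μ) (b := 2 * ∫ x, g x * h x ∂μ)
    (c := ∫ x, h x ^ 2 ∂μ) fun t => by
      have e : ∫ x, (t * g x + h x) ^ 2 ∂μ =
          ∫ x, (g x ^ 2 * (t * t) + g x * h x * (2 * t) + h x ^ 2) ∂μ :=
        integral_congr_ae (Eventually.of_forall fun x => by ring)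
      have i4 : Integrable (fun x => g x ^ 2 * (t * t) + g x * h x * (2 * t)) μ :=
        (i1.mul_const _).add (i2.mul_const _)
      rw [integral_add i4 i3, integral_add (i1.mul_const _) (i2.mul_const _), integral_mul_const,
        integral_mul_const] at e
      have : 0 ≤ ∫ x, (t * g x + h x) ^ 2 ∂μ := integral_nonneg fun x => sq_nonneg _
      linarith
  rw [discrim] at this
  linarith

theorem second (hV : Pot V 0) (h : SG (ms V) 0 L 0) (hL : 0 < L) (hf : Tst f) :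
    ∫ x, f x ^ 2 * ‖x‖ ^ 2 ∂ms V ≤ 8 * L * (Ent (ms V) (fun x => f x ^ 2) +
      (∫ x, f x ^ 2 ∂ms V) * ((Module.finrank ℝ E : ℝ) / 2)) := by
  have := hV.prob
  obtain ⟨M, -, hM⟩ := hf.bdd
  have := h.second hL (w := fun x => f x ^ 2) (hf.cont.measurable.pow_const 2)
    (fun x => sq_nonneg _) (XG.of_bdd (C := M ^ 2) fun x => by
      rw [norm_pow]
      exact pow_le_pow_left₀ (norm_nonneg _) (hM x).1 2)
  simpa only [sub_zero, add_zero] using this

theorem intU (hV : Pot V 0) (s : ℝ) (hf : ContDiff ℝ 2 f) (hf' : HasCompactSupport f) :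
    Integrable (fun x => f x ^ 2 * Uq (ms V) s x) (ms V) := by
  have := hV.prob
  have h1 : HasCompactSupport fun x => f x ^ 2 := hf'.comp_left (g := fun y : ℝ => y ^ 2) (by simp)
  have h2 : HasCompactSupport fun x => f x ^ 2 * Uq (ms V) s x := h1.mul_right
  have h3 : Continuous fun x => f x ^ 2 * Uq (ms V) s x := (hf.continuous.pow 2).mul (Uq_cont _ _)
  exact h3.integrable_of_hasCompactSupport h2

theorem ent_eq (hV : Pot V 0) (s : ℝ) (hf : ContDiff ℝ 2 f) (hf' : HasCompactSupport f) :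
    Ent (ms (Vs V s)) (fun x => (f x * exp (Uq (ms V) s x / 2)) ^ 2) = exp (-ph (ms V) s) *
      (Ent (ms V) (fun x => f x ^ 2) + ∫ x, f x ^ 2 * Uq (ms V) s x ∂ms V +
        ph (ms V) s * ∫ x, f x ^ 2 ∂ms V) := by
  have := hV.prob
  have ht := Tst.of_supp hf hf'
  have e1 : ∫ x, (f x * exp (Uq (ms V) s x / 2)) ^ 2 *
      log ((f x * exp (Uq (ms V) s x / 2)) ^ 2) ∂ms (Vs V s) = exp (-ph (ms V) s) *
        (∫ x, f x ^ 2 * log (f x ^ 2) ∂ms V + ∫ x, f x ^ 2 * Uq (ms V) s x ∂ms V) := by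
    rw [integral_Vs hV, ← integral_add ht.int_log (intU hV s hf hf'), ← integral_const_mul]
    refine integral_congr_ae (Eventually.of_forall fun x => ?_)
    dsimp only
    have e : exp (Uq (ms V) s x / 2) ^ 2 = exp (Uq (ms V) s x) := by
      rw [← exp_nat_mul]
      ring_nf
    rw [mul_pow, e]
    by_cases h0 : f x ^ 2 = 0
    · simp only [h0, zero_mul, add_zero, mul_zero]
    · rw [log_mul h0 (exp_pos _).ne', log_exp, sub_eq_add_neg, exp_add, exp_neg (Uq _ _ _)]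
      field_simp
  rw [Ent, Ent, e1, sq_eq hV]
  by_cases h0 : ∫ x, f x ^ 2 ∂ms V = 0
  · simp only [h0, zero_mul, sub_zero, mul_zero, add_zero]
  · rw [log_mul (exp_pos _).ne' h0, log_exp]
    ring

theorem gib (hV : Pot V 0) (hs : 0 ≤ s) (hf : ContDiff ℝ 2 f) (hf' : HasCompactSupport f) :
    -(2 * ∫ x, f x ^ 2 * Uq (ms V) s x ∂ms V) ≤ Ent (ms V) (fun x => f x ^ 2) +
      (∫ x, f x ^ 2 ∂ms V) * ph (ms V) (2 * s) := by
  have := hV.prob
  have ht := Tst.of_supp hf hf'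
  have h2 : 0 ≤ 2 * s := by positivity
  have a3 := gibbs (μ := ms V) (w := fun x => f x ^ 2) (G := fun x => -Uq (ms V) (2 * s) x)
    (fun x => sq_nonneg _) ht.int_sq ht.int_log
    ((intU hV (2 * s) hf hf').neg.congr (Eventually.of_forall fun x => (mul_neg _ _).symm))
    (Uq_int h2) (exp_pos _) (exp_ph h2).ge
  rw [log_exp] at a3
  refine le_trans (le_of_eq ?_) a3
  rw [← integral_const_mul, ← integral_neg]
  refine integral_congr_ae (Eventually.of_forall fun x => ?_)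
  dsimp only
  rw [Uq_two]
  ring

theorem cent (hV : Pot V 0) (ht : Tail (ms V)) (hs : 0 ≤ s) (hf : Tst f)
    (h0 : ∫ x, f x ∂ms V = 0) : (∫ x, f x * exp (-Uq (ms V) s x / 2) ∂ms V) ^ 2 ≤
      (∫ x, f x ^ 2 ∂ms V) * (exp (ph (ms V) s) - 1) := by
  have := hV.prob
  obtain ⟨M, -, hM⟩ := hf.bdd
  have e : ∀ x, -Uq (ms V) s x / 2 = -Uq (ms V) (s / 2) x := fun x => by
    rw [Uq, Uq]
    ring
  simp only [e]
  have i1 := Uq_int (μ := ms V) (s := s / 2) (by positivity)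
  have i2 : Integrable (fun x => f x * exp (-Uq (ms V) (s / 2) x)) (ms V) :=
    i1.bdd_mul hf.cont.aestronglyMeasurable (Eventually.of_forall fun x => (hM x).1)
  have e2 : ∀ x, (exp (-Uq (ms V) (s / 2) x) - 1) ^ 2 =
      exp (-Uq (ms V) s x) - 2 * exp (-Uq (ms V) (s / 2) x) + 1 := fun x => by
    rw [← e, sub_sq, ← exp_nat_mul]
    ring_nf
  have i3 : Integrable (fun x => exp (-Uq (ms V) s x) - 2 * exp (-Uq (ms V) (s / 2) x)) (ms V) :=
    (Uq_int hs).sub (i1.const_mul 2)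
  have a := cs (μ := ms V) (g := f) (h := fun x => exp (-Uq (ms V) (s / 2) x) - 1) hf.int_sq
    (by simp only [mul_sub, mul_one]; exact i2.sub hf.int)
    (by simp only [e2]; exact i3.add (integrable_const 1))
  simp only [e2, mul_sub, mul_one] at a
  rw [integral_sub i2 hf.int, h0, sub_zero, integral_add i3 (integrable_const 1),
    integral_sub (Uq_int hs) (i1.const_mul 2), integral_const_mul, ← exp_ph hs,
    ← exp_ph (by positivity), integral_const, probReal_univ, one_smul] at a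
  have b := one_le_exp (ph_nonneg ht (show 0 ≤ s / 2 by positivity))
  exact a.trans (mul_le_mul_of_nonneg_left (by linarith) (integral_nonneg fun x => sq_nonneg _))

end Trans

theorem def_lsi (hV : Pot V 0) (h : SG (ms V) 0 L 0) (hL : 0 < L) (hs : 0 ≤ s)
    (h1 : ph (ms V) (2 * s) ≤ 1) (hK : 0 ≤ K) (hI : LSI (ms (Vs V s)) K)
    (hsm : K * s ^ 2 * L * (Module.finrank ℝ E + 8) ≤ 1 / 100) (hf : ContDiff ℝ 2 f)
    (hf' : HasCompactSupport f) :
    Ent (ms V) (fun x => f x ^ 2) ≤ 8 * K * Dir (ms V) f + 4 * ∫ x, f x ^ 2 ∂ms V := by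
  have := hV.prob
  have ht := Tst.of_supp hf hf'
  have a1 := (hI _ (tilt_tst (ms V) s hf hf').1).trans
    (mul_le_mul_of_nonneg_left (Trans.dir_le hV hs hf hf') hK)
  rw [Trans.ent_eq hV s hf hf', mul_left_comm] at a1
  have a2 := le_of_mul_le_mul_left a1 (exp_pos _)
  have a3 := Trans.gib hV hs hf hf'
  have a4 := mul_le_mul_of_nonneg_left (Trans.second hV h hL ht)
    (show 0 ≤ K * (s ^ 2 / 2) by positivity)
  have a5 := Ent_nonneg (μ := ms V) (fun x => sq_nonneg (f x)) ht.int_sq ht.int_log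
  have a6 : 0 ≤ ∫ x, f x ^ 2 ∂ms V := integral_nonneg fun x => sq_nonneg _
  have a7 := mul_nonneg (ph_nonneg (h.tail hL) hs) a6
  have a8 := mul_le_mul_of_nonneg_left h1 a6
  have a9 := mul_nonneg hK (Dir_nonneg (ms V) f)
  have b0 : 0 ≤ K * s ^ 2 * L := by positivity
  have b1 : 0 ≤ K * s ^ 2 * L * Module.finrank ℝ E := by positivity
  have b2 := mul_le_mul_of_nonneg_right (show K * s ^ 2 * L ≤ 1 / 800 by linarith) a5
  have b3 := mul_le_mul_of_nonneg_right
    (show K * s ^ 2 * L * Module.finrank ℝ E ≤ 1 / 100 by linarith) a6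
  linarith

theorem poin_tr (hV : Pot V 0) (h : SG (ms V) 0 L 0) (hL : 0 < L) (hs : 0 ≤ s) (hK : 0 ≤ K)
    (hI : PI (ms (Vs V s)) (K / 2)) (hf : ContDiff ℝ 2 f) (hf' : HasCompactSupport f) :
    ∫ x, f x ^ 2 ∂ms V - exp (-ph (ms V) s) * (∫ x, f x * exp (-Uq (ms V) s x / 2) ∂ms V) ^ 2 ≤
      K * Dir (ms V) f + K * s ^ 2 / 4 * ∫ x, f x ^ 2 * ‖x‖ ^ 2 ∂ms V := by
  have a1 := (hI _ (tilt_tst (ms V) s hf hf').1).trans
    (mul_le_mul_of_nonneg_left (Trans.dir_le hV hs hf hf') (by positivity))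
  have e1 : ∫ x, f x * exp (Uq (ms V) s x / 2) ∂ms (Vs V s) =
      exp (-ph (ms V) s) * ∫ x, f x * exp (-Uq (ms V) s x / 2) ∂ms V := by
    rw [integral_Vs hV, ← integral_const_mul]
    refine integral_congr_ae (Eventually.of_forall fun x => ?_)
    dsimp only
    rw [mul_assoc, mul_left_comm (exp _), ← exp_add, ← exp_add]
    ring_nf
  rw [Trans.sq_eq hV, e1] at a1
  refine le_of_mul_le_mul_left ?_ (exp_pos (-ph (ms V) s))
  linarith

theorem transfer (hV : Pot V 0) (h : SG (ms V) 0 L 0) (hL : 0 < L) (hs : 0 ≤ s)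
    (h1 : ph (ms V) (2 * s) ≤ 1) (hK : 0 ≤ K) (hI : LSI (ms (Vs V s)) K)
    (hsm : K * s ^ 2 * L * (Module.finrank ℝ E + 8) ≤ 1 / 100) : LSI (ms V) (41 * K) := by
  intro f hf
  have := hV.prob
  have := (pot_Vs hV hs).prob
  have ht := h.tail hL
  obtain ⟨M, -, hM⟩ := hf.bdd
  have r := rothaus (μ := ms V) hf.cont.measurable fun x => (hM x).1
  obtain ⟨tg, dg⟩ := hf.affine (-∫ y, f y ∂ms V) 1
  simp only [one_mul, neg_add_eq_sub, one_smul] at tg dg
  have eD : Dir (ms V) (fun x => f x - ∫ y, f y ∂ms V) = Dir (ms V) f := by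
    simp only [Dir, dg]
  have c0 := Trans.cent hV ht hs tg (by
    rw [integral_sub hf.int (integrable_const _), integral_const, probReal_univ, one_smul, sub_self])
  have i1 : Integrable (fun x : E => ‖x‖ ^ 2) (ms V) :=
    ht.int (by fun_prop) (XG.of_quad (C := 1) fun x => by simp)
  have i2 : Integrable (fun x => exp (-Uq (ms V) s x / 2)) (ms V) := by
    refine (Uq_int (μ := ms V) (s := s / 2) (by positivity)).congr
      (Eventually.of_forall fun x => congrArg exp ?_)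
    rw [Uq, Uq]
    ring
  have c1 := cut_ind i1 i2 (Φ := fun q => 8 * K * q.2.1 + 4 * q.2.2.1 - q.1) (by fun_prop)
    (fun f hf hf' => sub_nonneg.2 (def_lsi hV h hL hs h1 hK hI hsm hf hf')) tg
  have c2 := cut_ind i1 i2 (Φ := fun q => K * q.2.1 + K * s ^ 2 / 4 * q.2.2.2.1 -
    (q.2.2.1 - exp (-ph (ms V) s) * q.2.2.2.2 ^ 2)) (by fun_prop)
    (fun f hf hf' => sub_nonneg.2 (poin_tr hV h hL hs hK hI.pi hf hf')) tg
  have c3 := mul_le_mul_of_nonneg_left (Trans.second hV h hL tg)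
    (show 0 ≤ K * s ^ 2 / 4 by positivity)
  have c4 := mul_le_mul_of_nonneg_left c0 (exp_pos (-ph (ms V) s)).le
  have c5 : exp (-ph (ms V) s) * exp (ph (ms V) s) = 1 := by rw [← exp_add, neg_add_cancel, exp_zero]
  have c6 := add_one_le_exp (-ph (ms V) s)
  have c7 := ph_half (μ := ms V) hs
  have a6 : 0 ≤ ∫ x, (f x - ∫ y, f y ∂ms V) ^ 2 ∂ms V := integral_nonneg fun x => sq_nonneg _
  have a9 := mul_nonneg hK (Dir_nonneg (ms V) f)
  dsimp only at c1 c2
  rw [eD] at c1 c2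
  have b0 : 0 ≤ K * s ^ 2 * L := by positivity
  have b1 : 0 ≤ K * s ^ 2 * L * Module.finrank ℝ E := by positivity
  have b2 := mul_le_mul_of_nonneg_right (show K * s ^ 2 * L ≤ 1 / 800 by linarith) a9
  have b3 := mul_le_mul_of_nonneg_right hsm a6
  have b4 := mul_le_mul_of_nonneg_left (sub_nonneg.1 c1) b0
  have b5 := mul_le_mul_of_nonneg_right (show 1 / 2 ≤ exp (-ph (ms V) s) by linarith) a6
  have b6 := congrArg (· * ∫ x, (f x - ∫ y, f y ∂ms V) ^ 2 ∂ms V) c5
  linarith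

end Vale.Agent.P245B
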