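import Vale.Agent.P245B.Pert

/-! The free energy of the perturbation under a transport inequality. -/

open MeasureTheory Real Set Filter Topology
open scoped ENNReal RealInnerProductSpace

noncomputable section

namespace Vale.Agent.P245B

open Vale.Agent.P245 (Ent gibbs Ent_nonneg)

set_option linter.unusedSectionVars false

variable {E : Type} [NormedAddCommGroup E] [InnerProductSpace ℝ E] [FiniteDimensional ℝ E]
  [CompleteSpace E] [MeasurableSpace E] [BorelSpace E]

namespace Two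

theorem quad {p q : ℝ} (hp : 0 < p) (hq : 0 < q) (x y : E) :
    p * q / (p + q) * ‖y‖ ^ 2 ≤ p * ‖x‖ ^ 2 + q * ‖y - x‖ ^ 2 := by
  have h : ‖y‖ ≤ ‖x‖ + ‖y - x‖ := by
    simpa using norm_add_le x (y - x)
  have h2 : ‖y‖ ^ 2 ≤ (‖x‖ + ‖y - x‖) ^ 2 := by gcongr
  rw [div_mul_eq_mul_div, div_le_iff₀ (by positivity)]
  have h3 : p * q * ‖y‖ ^ 2 ≤ p * q * (‖x‖ + ‖y - x‖) ^ 2 := by gcongr
  nlinarith [sq_nonneg (p * ‖x‖ - q * ‖y - x‖)]

theorem xg_sq : XG fun x : E => ‖x‖ ^ 2 :=
  XG.of_quad (C := 1) fun x => by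
    rw [Real.norm_of_nonneg (by positivity)]
    linarith

theorem arith {s κ m n p p2 : ℝ} (hs : 0 < s) (hκ : 0 < κ) (hn : 0 ≤ n) (h0 : 0 ≤ p)
    (h1 : s / 2 * (n - m) ≤ -p) (h2 : s * κ / (s + κ) * m - p ≤ s * n)
    (h3 : p2 - p - s / 2 * m ≤ -(s / 2 * κ / (s / 2 + κ)) * n) : p2 ≤ 3 * s ^ 2 * m / κ := by
  have hnm : n ≤ m := by
    by_contra h
    have : 0 < s / 2 * (n - m) := mul_pos (by positivity) (sub_pos.2 (not_le.1 h))
    linarith
  have hm : 0 ≤ m := hn.trans hnm
  have e1 : s * κ / (s + κ) = s - s ^ 2 / (s + κ) := by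
    field_simp
    ring
  have e2 : s / 2 * κ / (s / 2 + κ) = s / 2 - s ^ 2 / (2 * (s + 2 * κ)) := by
    field_simp
    ring
  have a1 : s ^ 2 / (s + κ) * m ≤ s ^ 2 / κ * m := by
    gcongr
    linarith
  have a2 : s ^ 2 / (2 * (s + 2 * κ)) * n ≤ s ^ 2 / κ * m := by
    gcongr
    linarith
  rw [e1] at h2
  rw [e2] at h3
  have e3 : 3 * s ^ 2 * m / κ = 3 * (s ^ 2 / κ * m) := by ring
  rw [e3]
  nlinarith

end Two

theorem ph_two {V : E → ℝ} {L s κ : ℝ} (hV : Pot V 0) (h : SG (ms V) 0 L 0) (hL : 0 < L)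
    (hs : 0 < s) (hsL : 4 * L * s ≤ 1) (hκ : 0 < κ) (hI : IC (ms (Vs V s)) κ) :
    ph (ms V) (2 * s) ≤ 3 * s ^ 2 * (∫ x, ‖x‖ ^ 2 ∂ms V) / κ := by
  have := hV.prob
  have := (pot_Vs hV hs.le).prob
  have ht : Tail (ms V) := h.tail hL
  have hc : Continuous fun x : E => ‖x‖ ^ 2 := by fun_prop
  have hU := Uq_cont (ms V) s
  have hd : Continuous fun x => exp (-Uq (ms V) s x - ph (ms V) s) := by fun_prop
  have i1 : Integrable (fun x : E => ‖x‖ ^ 2) (ms V) := ht.int hc.aestronglyMeasurable Two.xg_sq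
  have i2 : Integrable (fun x : E => ‖x‖ ^ 2) (ms (Vs V s)) := by
    rw [integrable_Vs hV]
    refine ht.int (hc.mul hd).aestronglyMeasurable (Two.xg_sq.mul (XG.of_bdd
      (C := exp (s / 2 * ∫ y, ‖y‖ ^ 2 ∂ms V) * exp (-ph (ms V) s)) fun x => ?_))
    rw [Real.norm_of_nonneg (exp_pos _).le, sub_eq_add_neg, exp_add]
    exact mul_le_mul_of_nonneg_right (Uq_bdd _ hs.le x) (exp_pos _).le
  refine Two.arith (n := ∫ x, ‖x‖ ^ 2 ∂ms (Vs V s)) (p := ph (ms V) s) hs hκ
    (integral_nonneg fun x => by positivity) (ph_nonneg ht hs.le) ?_ ?_ ?_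
  · have e : ∀ x, exp (Uq (ms V) s x) * exp (-Uq (ms V) s x - ph (ms V) s)
        = exp (-ph (ms V) s) := fun x => by
      rw [← exp_add]
      congr 1
      ring
    have j1 : Integrable (Uq (ms V) s) (ms (Vs V s)) :=
      (i2.sub (integrable_const _)).const_mul _
    have j2 : Integrable (fun x => exp (Uq (ms V) s x)) (ms (Vs V s)) := by
      rw [integrable_Vs hV]
      simp only [e]
      exact integrable_const _
    have j := jensen_exp j1 j2
    rw [integral_Vs hV s fun x => exp (Uq (ms V) s x)] at j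
    simp only [e, integral_const, probReal_univ, one_smul, exp_le_exp] at j
    unfold Uq at j
    rw [integral_const_mul, integral_sub i2 (integrable_const _)] at j
    simpa using j
  · have hα : s * κ / (s + κ) ≤ s := by
      rw [div_le_iff₀ (by positivity)]
      nlinarith
    have e : ∀ x : E, exp (s * κ / (s + κ) * ‖x‖ ^ 2) * exp (-Uq (ms V) s x - ph (ms V) s)
        = exp (s * κ / (s + κ) * ‖x‖ ^ 2 - Uq (ms V) s x - ph (ms V) s) := fun x => by
      rw [← exp_add]
      congr 1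
      ring
    have j2 : Integrable
        (fun x : E => exp (s * κ / (s + κ) * ‖x‖ ^ 2 - Uq (ms V) s x - ph (ms V) s)) (ms V) := by
      refine ((h.sq hL).1.const_mul
        (exp (s / 2 * (∫ y, ‖y‖ ^ 2 ∂ms V) - ph (ms V) s))).mono' (by fun_prop)
        (Eventually.of_forall fun x => ?_)
      rw [Real.norm_of_nonneg (exp_pos _).le, ← exp_add, exp_le_exp, sub_zero]
      have a1 : s * κ / (s + κ) * ‖x‖ ^ 2 ≤ s * ‖x‖ ^ 2 := by gcongr
      have a2 : s / 2 * ‖x‖ ^ 2 ≤ ‖x‖ ^ 2 / (8 * L) := by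
        rw [le_div_iff₀ (by positivity)]
        nlinarith [sq_nonneg ‖x‖]
      unfold Uq
      linarith
    have j1 : Integrable
        (fun x : E => s * κ / (s + κ) * ‖x‖ ^ 2 - Uq (ms V) s x - ph (ms V) s) (ms V) :=
      ((i1.const_mul _).sub (Uq_mean ht s).1).sub (integrable_const _)
    have j := jensen_exp j1 j2
    have k := hI.ext hκ.le (a := fun y => s * κ / (s + κ) * ‖y‖ ^ 2) (b := fun x => s * ‖x‖ ^ 2)
      (by fun_prop) (by fun_prop) (by
        rw [integrable_Vs hV]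
        simp only [e]
        exact j2) (i2.const_mul _) fun x y => Two.quad hs hκ x y
    rw [integral_Vs hV s fun x => exp (s * κ / (s + κ) * ‖x‖ ^ 2)] at k
    simp only [e] at k
    have l := exp_le_exp.1 (j.trans k)
    have j0 : Integrable (fun x : E => s * κ / (s + κ) * ‖x‖ ^ 2 - Uq (ms V) s x) (ms V) :=
      (i1.const_mul _).sub (Uq_mean ht s).1
    rw [integral_sub j0 (integrable_const _),
      integral_sub (i1.const_mul _) (Uq_mean ht s).1, (Uq_mean ht s).2, integral_const_mul,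
      integral_const_mul] at l
    simpa using l
  · have e : ∀ x : E, exp (-(s / 2) * ‖x‖ ^ 2) * exp (-Uq (ms V) s x - ph (ms V) s)
        = exp (-ph (ms V) s - s / 2 * ∫ y, ‖y‖ ^ 2 ∂ms V) * exp (-Uq (ms V) (2 * s) x) :=
      fun x => by
        rw [← exp_add, ← exp_add]
        congr 1
        unfold Uq
        ring
    have k := hI.ext hκ.le (a := fun y => -(s / 2) * ‖y‖ ^ 2)
      (b := fun x => -(s / 2 * κ / (s / 2 + κ)) * ‖x‖ ^ 2) (by fun_prop) (by fun_prop) (by
        rw [integrable_Vs hV]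
        simp only [e]
        exact (Uq_int (by positivity)).const_mul _) (i2.const_mul _) fun x y => by
          have := Two.quad (half_pos hs) hκ y x
          rw [norm_sub_rev] at this
          linarith
    rw [integral_Vs hV s fun x => exp (-(s / 2) * ‖x‖ ^ 2)] at k
    simp only [e] at k
    rw [integral_const_mul, ← exp_ph (by positivity), ← exp_add, exp_le_exp,
      integral_const_mul] at k
    linarith

end Vale.Agent.P245B
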