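import Vale.Agent.P245B.ILich
import Vale.Agent.P245B.Chan
import Vale.Agent.P245B.Two
import Vale.Agent.P245B.Trans
import Vale.Agent.P245B.Cent

/-! The two bounds for smooth potentials. -/

open MeasureTheory Real Set Filter Topology
open scoped ENNReal RealInnerProductSpace

noncomputable section

namespace Vale.Agent.P245B

open Vale.Agent.P245 (Ent gibbs Ent_nonneg)

set_option linter.unusedSectionVars false

variable {E : Type} [NormedAddCommGroup E] [InnerProductSpace ℝ E] [FiniteDimensional ℝ E]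
  [CompleteSpace E] [MeasurableSpace E] [BorelSpace E]

variable {V : E → ℝ} {b : E} {ε L : ℝ}

theorem lsi_of_pot (hV : Pot V ε) (hε : 0 < ε) (hs : SG (ms V) b L 0) (hL : 0 < L) {κ : ℝ}
    (hκ : 0 < κ) (h : 756 * L * κ ^ 2 ≤ ε) : LSI (ms V) (8 / κ) := by
  have := hV.prob
  have h1 := lsi_of_exp (μ := ms V) (K := 2 / κ) (by positivity)
    fun g hg => chan_exp hV hε.le hκ (ic_of_pot hV hε hs hL hκ h) hg
  have e : 4 * (2 / κ) = 8 / κ := by ring
  rwa [e] at h1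

namespace Boot

/-- The perturbed measure is subgaussian around its mean. -/
theorem sg_pert (hV : Pot V 0) (hs : SG (ms V) 0 L 0) (hL : 0 < L) {s : ℝ} (h0 : 0 ≤ s)
    (h1 : ph (ms V) (2 * s) ≤ 1) :
    SG (ms (Vs V s)) (∫ x, x ∂ms (Vs V s)) (C1 * (2 * L)) 0 := by
  have := (pot_Vs hV h0).prob
  exact (sg_Vs hV hs hL h0 h1).center (by positivity)

theorem step (hV : Pot V 0) (hs : SG (ms V) 0 L 0) (hL : 0 < L) {k : ℝ} (hk : 1 ≤ k)
    (hn : (Module.finrank ℝ E : ℝ) ≤ k ^ 3) {κ : ℝ} (hκ : 0 < κ)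
    (hκ' : κ * (3000 * C1 * L * k) ≤ 1) (h1 : ph (ms V) (2 * (1512 * C1 * L * κ ^ 2)) ≤ 1) :
    ph (ms V) (2 * (1512 * C1 * L * κ ^ 2)) ≤ 1 / 2 := by
  have := hV.prob
  have hC := one_le_C1
  set s := 1512 * C1 * L * κ ^ 2 with hsd
  have hs0 : 0 < s := by positivity
  set y := κ * L with hy
  have hy0 : 0 < y := by positivity
  have hyk : 3000 * (C1 * (y * k)) ≤ 1 := by
    rw [hy]
    nlinarith
  have hz0 : 0 < C1 * (y * k) := by positivity
  have hy1 : C1 * y ≤ C1 * (y * k) := by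
    have : y ≤ y * k := le_mul_of_one_le_right hy0.le hk
    gcongr
  have hy2 : y ≤ C1 * y := le_mul_of_one_le_left hy0.le hC
  have hsL : 4 * L * s ≤ 1 := by
    have e : 4 * L * s = 6048 * ((C1 * y) * y) := by
      rw [hsd, hy]
      ring
    have h2 : C1 * y ≤ 1 / 3000 := by linarith
    have h3 : y ≤ 1 / 3000 := by linarith
    have h4 : (C1 * y) * y ≤ 1 / 3000 * (1 / 3000) := by gcongr
    rw [e]
    linarith
  have hI : IC (ms (Vs V s)) κ :=
    ic_of_pot (pot_Vs hV hs0.le) hs0 (sg_pert hV hs hL hs0.le h1) (by positivity) hκ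
      (le_of_eq (by rw [hsd]; ring))
  refine (ph_two hV hs hL hs0 hsL hκ hI).trans ?_
  have hm := sq_le hs hL
  have hm2 : ∫ x, ‖x‖ ^ 2 ∂ms V ≤ 4 * L * k ^ 3 := hm.trans (by gcongr)
  rw [div_le_iff₀ hκ]
  have h5 : 3 * s ^ 2 * ∫ x, ‖x‖ ^ 2 ∂ms V ≤ 3 * s ^ 2 * (4 * L * k ^ 3) := by gcongr
  refine h5.trans ?_
  have e : 3 * s ^ 2 * (4 * L * k ^ 3) = 12 * 1512 ^ 2 * ((C1 * (y * k)) ^ 2 * (y * k)) * κ := by
    rw [hsd, hy]
    ring
  rw [e]
  refine mul_le_mul_of_nonneg_right ?_ hκ.le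
  have h6 : C1 * (y * k) ≤ 1 / 3000 := by linarith
  have h7 : y * k ≤ 1 / 3000 := (le_mul_of_one_le_left (by positivity) hC).trans h6
  have h8 : (C1 * (y * k)) ^ 2 * (y * k) ≤ (1 / 3000) ^ 2 * (1 / 3000) := by gcongr
  linarith

theorem boot (hV : Pot V 0) (hs : SG (ms V) 0 L 0) (hL : 0 < L) {k : ℝ} (hk : 1 ≤ k)
    (hn : (Module.finrank ℝ E : ℝ) ≤ k ^ 3) {κ₀ : ℝ} (h0 : 0 < κ₀)
    (hκ' : κ₀ * (3000 * C1 * L * k) ≤ 1) : ph (ms V) (2 * (1512 * C1 * L * κ₀ ^ 2)) ≤ 1 := by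
  have := hV.prob
  have hC := one_le_C1
  by_contra hcon
  push Not at hcon
  have hc : ContinuousOn (fun κ : ℝ => ph (ms V) (2 * (1512 * C1 * L * κ ^ 2))) (Icc 0 κ₀) := by
    refine ContinuousOn.comp (g := ph (ms V)) ph_cont (by fun_prop) fun κ _ => ?_
    exact mem_Ici.2 (by positivity)
  have h1 : (1 : ℝ) ∈ Icc (ph (ms V) (2 * (1512 * C1 * L * (0 : ℝ) ^ 2)))
      (ph (ms V) (2 * (1512 * C1 * L * κ₀ ^ 2))) := by
    refine ⟨?_, hcon.le⟩
    simp [ph_zero]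
  obtain ⟨κ, hκ, e⟩ := intermediate_value_Icc h0.le hc h1
  have e' : ph (ms V) (2 * (1512 * C1 * L * κ ^ 2)) = 1 := e
  have hκ0 : 0 < κ := by
    rcases hκ.1.eq_or_lt with h | h
    · rw [← h] at e'
      simp [ph_zero] at e'
    · exact h
  have h2 := step hV hs hL hk hn hκ0
    (le_trans (mul_le_mul_of_nonneg_right hκ.2 (by positivity)) hκ') e'.le
  linarith

end Boot

theorem main_pot (hV : Pot V 0) (hs : SG (ms V) 0 L 0) (hL : 0 < L) {k : ℝ} (hk : 1 ≤ k)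
    (hn : (Module.finrank ℝ E : ℝ) ≤ k ^ 3) : LSI (ms V) (984000 * C1 * k * L) := by
  have := hV.prob
  have hC := one_le_C1
  have hk0 : 0 < k := by linarith
  set κ := (3000 * C1 * L * k)⁻¹ with hκd
  have hκ : 0 < κ := by positivity
  have hκ' : κ * (3000 * C1 * L * k) = 1 := inv_mul_cancel₀ (by positivity)
  have h1 := Boot.boot hV hs hL hk hn hκ hκ'.le
  set s := 1512 * C1 * L * κ ^ 2 with hsd
  have hs0 : 0 < s := by positivity
  have h2 : LSI (ms (Vs V s)) (8 / κ) :=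
    lsi_of_pot (pot_Vs hV hs0.le) hs0 (Boot.sg_pert hV hs hL hs0.le h1) (by positivity) hκ
      (le_of_eq (by rw [hsd]; ring))
  have h3 := transfer hV hs hL hs0.le h1 (by positivity) h2 (by
    have hk3 : 1 ≤ k ^ 3 := one_le_pow₀ hk
    have h4 : (Module.finrank ℝ E : ℝ) + 8 ≤ 9 * k ^ 3 := by linarith
    have h5 : 8 / κ * s ^ 2 * L * ((Module.finrank ℝ E : ℝ) + 8) ≤
        8 / κ * s ^ 2 * L * (9 * k ^ 3) := by gcongr
    refine h5.trans ?_
    have e : 8 / κ * s ^ 2 * L * (9 * k ^ 3) = 72 * 1512 ^ 2 / 3000 ^ 3 / C1 := by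
      rw [hsd, hκd]
      field_simp
      ring
    rw [e, div_le_iff₀ (by positivity)]
    nlinarith)
  have e : 41 * (8 / κ) = 984000 * C1 * k * L := by
    rw [hκd]
    field_simp
    ring
  rwa [e] at h3

end Vale.Agent.P245B
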