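import Vale.Agent.P245B.TOp

/-! The truncated quadratic cost. -/

open MeasureTheory Real Set Filter Topology
open scoped ENNReal RealInnerProductSpace

noncomputable section

namespace Vale.Agent.P245B

open Vale.Agent.P245 (Ent gibbs Ent_nonneg)

set_option linter.unusedSectionVars false

variable {E : Type} [NormedAddCommGroup E] [InnerProductSpace ℝ E] [FiniteDimensional ℝ E]
  [CompleteSpace E] [MeasurableSpace E] [BorelSpace E]

variable {R : ℝ}

namespace CostL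

theorem sq_s (hR : 0 < R) (z : E) :
    (√(1 + ‖z‖ ^ 2 / R ^ 2)) ^ 2 = 1 + ‖z‖ ^ 2 / R ^ 2 :=
  Real.sq_sqrt (by positivity)

theorem one_le_s (R : ℝ) (z : E) : 1 ≤ √(1 + ‖z‖ ^ 2 / R ^ 2) := by
  rw [Real.le_sqrt (by norm_num) (by positivity)]
  have : 0 ≤ ‖z‖ ^ 2 / R ^ 2 := by positivity
  linarith

theorem norm_sq (hR : 0 < R) (z : E) :
    ‖z‖ ^ 2 = R ^ 2 * ((√(1 + ‖z‖ ^ 2 / R ^ 2)) ^ 2 - 1) := by
  rw [sq_s hR]
  field_simp
  ring

theorem norm_le (hR : 0 < R) (z : E) : ‖z‖ ≤ R * √(1 + ‖z‖ ^ 2 / R ^ 2) := by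
  have h1 := norm_sq hR z
  have h2 := one_le_s R z
  refine abs_le_of_sq_le_sq' ?_ (by positivity) |>.2
  rw [mul_pow]
  nlinarith [sq_nonneg R]

end CostL

theorem cR_grad (hR : 0 < R) (z : E) :
    HasGradientAt (cR R) ((√(1 + ‖z‖ ^ 2 / R ^ 2))⁻¹ • z) z := by
  have hs := CostL.one_le_s R z
  have h0 : HasFDerivAt (fun w : E => ‖w‖ ^ 2) ((2 : ℝ) • innerSL ℝ z) z := by
    have := (hasStrictFDerivAt_norm_sq z).hasFDerivAt
    refine this.congr_fderiv ?_
    ext v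
    simp
  have h1 : HasFDerivAt (fun w : E => 1 + ‖w‖ ^ 2 / R ^ 2)
      ((R ^ 2)⁻¹ • ((2 : ℝ) • innerSL ℝ z)) z := by
    have := (h0.const_mul (R ^ 2)⁻¹).const_add 1
    refine this.congr_of_eventuallyEq (Eventually.of_forall fun w => ?_)
    simp only [div_eq_inv_mul]
  have hne : (1 + ‖z‖ ^ 2 / R ^ 2) ≠ 0 := by positivity
  have h2 := ((h1.sqrt hne).sub_const 1).const_mul (R ^ 2)
  rw [hasGradientAt_iff_hasFDerivAt]
  refine h2.congr_fderiv ?_
  ext v
  have hs0 : √(1 + ‖z‖ ^ 2 / R ^ 2) ≠ 0 := by positivity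
  simp only [ContinuousLinearMap.smul_apply, innerSL_apply_apply, smul_eq_mul,
    InnerProductSpace.toDual_apply_apply, real_inner_smul_left]
  field_simp

theorem cR_cost (hR : 0 < R) : Cost (cR R : E → ℝ) R := by
  refine ⟨fun z => (cR_grad hR z).differentiableAt, fun z => ?_, fun z => ?_, fun z => ?_⟩
  · have := CostL.one_le_s R z
    unfold cR
    exact mul_nonneg (sq_nonneg R) (by linarith)
  · unfold cR
    rw [norm_neg]
  · have h1 := CostL.one_le_s R z
    have h2 := CostL.norm_le hR z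
    rw [(cR_grad hR z).gradient, norm_smul, Real.norm_eq_abs, abs_of_pos (by positivity),
      inv_mul_le_iff₀ (by positivity)]
    linarith

theorem cR_le (hR : 0 < R) (z : E) : cR R z ≤ R * ‖z‖ := by
  have h1 : √(1 + ‖z‖ ^ 2 / R ^ 2) ≤ 1 + ‖z‖ / R := by
    rw [Real.sqrt_le_left (by positivity), ← div_pow]
    have : 0 ≤ ‖z‖ / R := by positivity
    nlinarith
  unfold cR
  calc R ^ 2 * (√(1 + ‖z‖ ^ 2 / R ^ 2) - 1) ≤ R ^ 2 * (‖z‖ / R) :=
        mul_le_mul_of_nonneg_left (by linarith) (sq_nonneg R)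
    _ = R * ‖z‖ := by field_simp

theorem cR_ge (hR : 0 < R) (z : E) : min (‖z‖ ^ 2 / 3) (R ^ 2) ≤ cR R z := by
  have h1 := CostL.one_le_s R z
  have h2 := CostL.norm_sq hR z
  have hR2 : 0 ≤ R ^ 2 := sq_nonneg R
  unfold cR
  generalize √(1 + ‖z‖ ^ 2 / R ^ 2) = s at h1 h2
  rcases le_total 2 s with h | h
  · refine (min_le_right _ _).trans ?_
    nlinarith
  · refine (min_le_left _ _).trans ?_
    rw [h2]
    have : 0 ≤ R ^ 2 * ((s - 1) * (2 - s)) :=
      mul_nonneg hR2 (mul_nonneg (by linarith) (by linarith))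
    nlinarith

theorem cR_rem (hR : 0 < R) (z : E) : ‖z - gradient (cR R) z‖ ≤ cR R z / R := by
  have h1 := CostL.one_le_s R z
  have h2 := CostL.norm_le hR z
  rw [(cR_grad hR z).gradient]
  unfold cR
  generalize √(1 + ‖z‖ ^ 2 / R ^ 2) = s at h1 h2
  have hs : 0 < s := by linarith
  have h3 : z - s⁻¹ • z = ((s - 1) / s) • z := by
    rw [sub_div, div_self hs.ne', one_div, sub_smul, one_smul]
  have h4 : 0 ≤ (s - 1) / s := div_nonneg (by linarith) hs.le
  rw [h3, norm_smul, Real.norm_eq_abs, abs_of_nonneg h4]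
  calc (s - 1) / s * ‖z‖ ≤ (s - 1) / s * (R * s) := mul_le_mul_of_nonneg_left h2 h4
    _ = R ^ 2 * (s - 1) / R := by field_simp

theorem cR_mono (hR : 0 < R) {ε : ℝ} (hε : 0 ≤ ε) {z v : E} (h : ε * ‖z‖ ^ 2 ≤ ⟪z, v⟫) :
    ε * cR R z ≤ ⟪gradient (cR R) z, v⟫ := by
  have h1 := CostL.one_le_s R z
  have h2 := CostL.norm_sq hR z
  rw [(cR_grad hR z).gradient, real_inner_smul_left]
  unfold cR
  generalize √(1 + ‖z‖ ^ 2 / R ^ 2) = s at h1 h2
  have hs : 0 < s := by linarith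
  rw [inv_mul_eq_div, le_div_iff₀ hs]
  refine le_trans ?_ h
  rw [h2]
  have : 0 ≤ ε * (R ^ 2 * (s - 1)) := mul_nonneg hε (mul_nonneg (sq_nonneg R) (by linarith))
  nlinarith

theorem Cost.const_mul {c : E → ℝ} (hc : Cost c R) {k : ℝ} (hk : 0 ≤ k) :
    Cost (fun z => k * c z) (k * R) ∧
      ∀ z, gradient (fun z => k * c z) z = k • gradient c z := by
  have hg : ∀ z, gradient (fun z => k * c z) z = k • gradient c z := by
    intro z
    refine HasGradientAt.gradient ?_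
    have h1 := (hc.diff z).hasGradientAt
    rw [hasGradientAt_iff_hasFDerivAt] at h1 ⊢
    refine (h1.const_mul k).congr_fderiv ?_
    ext v
    simp only [ContinuousLinearMap.smul_apply, smul_eq_mul,
      InnerProductSpace.toDual_apply_apply, real_inner_smul_left]
  refine ⟨⟨hc.diff.const_mul k, fun z => mul_nonneg hk (hc.nonneg z), fun z => by rw [hc.even],
    fun z => ?_⟩, hg⟩
  rw [hg, norm_smul, Real.norm_eq_abs, abs_of_nonneg hk]
  exact mul_le_mul_of_nonneg_left (hc.bdd z) hk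

end Vale.Agent.P245B
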