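import Vale.Agent.P245B.TOp

/-! The coupling attached to a maximiser. -/

open MeasureTheory Real Set Filter Topology
open scoped ENNReal RealInnerProductSpace

noncomputable section

namespace Vale.Agent.P245B

open Vale.Agent.P245 (Ent gibbs Ent_nonneg)

set_option linter.unusedSectionVars false

variable {E : Type} [NormedAddCommGroup E] [InnerProductSpace ℝ E] [FiniteDimensional ℝ E]
  [CompleteSpace E] [MeasurableSpace E] [BorelSpace E]

variable {μ : Measure E} [IsProbabilityMeasure μ] {c u : E → ℝ} {R τ : ℝ}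

namespace Cpl

theorem meas (ht : Tail μ) (hc : Cost c R) (h : Opt μ c τ u) :
    Measurable fun p : E × E => ENNReal.ofReal (exp (u p.1 - c (p.2 - p.1) + Wf μ c τ u p.2)) := by
  have h1 : Measurable u := h.lg.1
  have h2 : Measurable c := hc.cont.measurable
  have h3 : Measurable (Wf μ c τ u) := (Wf_lg ht hc h.lg τ).1
  exact ((((h1.comp measurable_fst).sub (h2.comp (measurable_snd.sub measurable_fst))).add
    (h3.comp measurable_snd)).exp).ennreal_ofReal

theorem inner_y (ht : Tail μ) (hc : Cost c R) (h : Opt μ c τ u) (x : E) :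
    ∫⁻ y, ENNReal.ofReal (exp (u x - c (y - x) + Wf μ c τ u y)) ∂μ = 1 := by
  have hW := Wf_lg ht hc h.lg τ
  have e1 : (fun y => exp (u x - c (y - x) + Wf μ c τ u y))
      = fun y => exp (u x) * exp (Wf μ c τ u y - c (x - y)) := by
    funext y
    rw [← exp_add, hc.swap x y]
    ring_nf
  have hi : Integrable (fun y => exp (u x - c (y - x) + Wf μ c τ u y)) μ := by
    rw [e1]
    exact (Tr_int ht hc hW x).const_mul _
  rw [← ofReal_integral_eq_lintegral_ofReal hi (ae_of_all _ fun y => (exp_pos _).le), e1,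
    integral_const_mul, ← exp_Tr ht hc hW x, ← exp_add]
  have e2 : u x + Tr μ c (Wf μ c τ u) x = 0 := by
    have := h.fix x
    linarith
  rw [e2, exp_zero, ENNReal.ofReal_one]

theorem inner_x (ht : Tail μ) (hc : Cost c R) (h : Opt μ c τ u) (y : E) :
    ∫⁻ x, ENNReal.ofReal (exp (u x - c (y - x) + Wf μ c τ u y)) ∂μ
      = ENNReal.ofReal (rh μ c τ u y) := by
  have e1 : (fun x => exp (u x - c (y - x) + Wf μ c τ u y))
      = fun x => exp (u x - c (y - x)) * exp (Wf μ c τ u y) := by
    funext x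
    rw [← exp_add]
  have hi : Integrable (fun x => exp (u x - c (y - x) + Wf μ c τ u y)) μ := by
    rw [e1]
    exact (Tr_int ht hc h.lg y).mul_const _
  rw [← ofReal_integral_eq_lintegral_ofReal hi (ae_of_all _ fun x => (exp_pos _).le), e1,
    integral_mul_const, ← exp_Tr ht hc h.lg y, ← exp_add]
  have e2 : Tr μ c u y + Wf μ c τ u y = -τ * Tr μ c u y - log (Zf μ c τ u) := by
    unfold Wf
    ring
  rw [e2]
  rfl

theorem exp_add_le (a b : ℝ) : exp (a + b) ≤ exp (2 * a) + exp (2 * b) := by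
  rcases le_total a b with h | h
  · have h1 : exp (a + b) ≤ exp (2 * b) := exp_le_exp.2 (by linarith)
    linarith [exp_pos (2 * a)]
  · have h1 : exp (a + b) ≤ exp (2 * a) := exp_le_exp.2 (by linarith)
    linarith [exp_pos (2 * b)]

theorem u_lip (ht : Tail μ) (hc : Cost c R) (h : Opt μ c τ u) (x x' : E) :
    |u x - u x'| ≤ R * ‖x - x'‖ := by
  have h1 := Tr_lip ht hc (Wf_lg ht hc h.lg τ) x x'
  have e : u x - u x' = -(Tr μ c (Wf μ c τ u) x - Tr μ c (Wf μ c τ u) x') := by
    have h2 := h.fix x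
    have h3 := h.fix x'
    linarith
  rw [e, abs_neg]
  exact h1

theorem point (ht : Tail μ) (hc : Cost c R) (h : Opt μ c τ u) {r : ℝ} {G : E → ℝ}
    (hb : ∀ x, exp (-G x) ≤ μ.real (Metric.ball x r)) (x y : E) :
    u x - Tr μ c u y ≤ c (y - x) + 2 * R * r + G x := by
  have hR := hc.R_nonneg
  have hi := Tr_int ht hc h.lg y
  have h1 : ∫ x' in Metric.ball x r, exp (u x' - c (y - x')) ∂μ ≤ exp (Tr μ c u y) := by
    rw [exp_Tr ht hc h.lg y]
    exact setIntegral_le_integral hi (ae_of_all _ fun x' => (exp_pos _).le)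
  have h2 : ∫ _ in Metric.ball x r, exp (u x - c (y - x) - 2 * R * r) ∂μ
      ≤ ∫ x' in Metric.ball x r, exp (u x' - c (y - x')) ∂μ := by
    refine setIntegral_mono_on (integrable_const _) hi.integrableOn
      Metric.isOpen_ball.measurableSet fun x' hx' => exp_le_exp.2 ?_
    have hd : ‖x - x'‖ ≤ r := by
      rw [norm_sub_rev]
      exact (mem_ball_iff_norm.1 hx').le
    have hd' : R * ‖x - x'‖ ≤ R * r := mul_le_mul_of_nonneg_left hd hR
    have h3 := (abs_le.1 (u_lip ht hc h x x')).2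
    have h4 := (abs_le.1 (hc.lip (y - x') (y - x))).2
    have e : y - x' - (y - x) = x - x' := by abel
    rw [e] at h4
    linarith
  rw [setIntegral_const, smul_eq_mul] at h2
  have h5 : exp (-G x) * exp (u x - c (y - x) - 2 * R * r)
      ≤ μ.real (Metric.ball x r) * exp (u x - c (y - x) - 2 * R * r) :=
    mul_le_mul_of_nonneg_right (hb x) (exp_pos _).le
  rw [← exp_add] at h5
  have h6 := exp_le_exp.1 (h5.trans (h2.trans h1))
  linarith

end Cpl

theorem cpl_fst (ht : Tail μ) (hc : Cost c R) (h : Opt μ c τ u) :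
    (cpl μ c τ u).map Prod.fst = μ := by
  refine Measure.ext_of_lintegral _ fun f hf => ?_
  have hf' : Measurable fun p : E × E => f p.1 := hf.comp measurable_fst
  rw [lintegral_map hf measurable_fst, cpl,
    lintegral_withDensity_eq_lintegral_mul _ (Cpl.meas ht hc h) hf',
    lintegral_prod _ ((Cpl.meas ht hc h).mul hf').aemeasurable]
  refine lintegral_congr fun x => ?_
  have hm : Measurable fun y => ENNReal.ofReal (exp (u x - c (y - x) + Wf μ c τ u y)) :=
    (Cpl.meas ht hc h).comp measurable_prodMk_left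
  have e := lintegral_mul_const (μ := μ) (f x) hm
  rw [Cpl.inner_y ht hc h x, one_mul] at e
  exact e

theorem cpl_snd (ht : Tail μ) (hc : Cost c R) (h : Opt μ c τ u) :
    (cpl μ c τ u).map Prod.snd = μ.withDensity fun y => ENNReal.ofReal (rh μ c τ u y) := by
  refine Measure.ext_of_lintegral _ fun f hf => ?_
  have hf' : Measurable fun p : E × E => f p.2 := hf.comp measurable_snd
  rw [lintegral_map hf measurable_snd, cpl,
    lintegral_withDensity_eq_lintegral_mul _ (Cpl.meas ht hc h) hf',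
    lintegral_prod_symm _ ((Cpl.meas ht hc h).mul hf').aemeasurable,
    lintegral_withDensity_eq_lintegral_mul _ (rh_meas ht hc h.lg τ).ennreal_ofReal hf]
  refine lintegral_congr fun y => ?_
  have hm : Measurable fun x => ENNReal.ofReal (exp (u x - c (y - x) + Wf μ c τ u y)) :=
    (Cpl.meas ht hc h).comp measurable_prodMk_right
  have e := lintegral_mul_const (μ := μ) (f y) hm
  rw [Cpl.inner_x ht hc h y] at e
  exact e

theorem cpl_prob (ht : Tail μ) (hc : Cost c R) (h : Opt μ c τ u) :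
    IsProbabilityMeasure (cpl μ c τ u) := by
  constructor
  have e := Measure.map_apply (μ := cpl μ c τ u) measurable_fst (MeasurableSet.univ (α := E))
  rw [cpl_fst ht hc h, preimage_univ, measure_univ] at e
  exact e.symm

theorem cpl_int {F : Type} [NormedAddCommGroup F] (ht : Tail μ) (hc : Cost c R)
    (h : Opt μ c τ u) {G : E × E → F} (hG : AEStronglyMeasurable G (cpl μ c τ u)) {C : ℝ}
    (hb : ∀ p, ‖G p‖ ≤ exp (C * (1 + ‖p.1‖ + ‖p.2‖))) : Integrable G (cpl μ c τ u) := by
  have h1 : Integrable (fun x : E => exp (2 * C * (1 + ‖x‖))) ((cpl μ c τ u).map Prod.fst) := by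
    rw [cpl_fst ht hc h]
    exact ht.int_exp _
  have h2 : Integrable (fun x : E => exp (2 * C * ‖x‖)) ((cpl μ c τ u).map Prod.snd) := by
    rw [cpl_snd ht hc h]
    exact ht.withDensity (rh_meas ht hc h.lg τ) (rh_xg ht hc h.lg τ) _
  refine Integrable.mono' ((h1.comp_measurable measurable_fst).add
    (h2.comp_measurable measurable_snd)) hG (ae_of_all _ fun p => (hb p).trans ?_)
  have h3 := Cpl.exp_add_le (C * (1 + ‖p.1‖)) (C * ‖p.2‖)
  rw [← mul_add, ← mul_assoc, ← mul_assoc] at h3
  exact h3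

theorem cpl_int_fst {F : Type} [NormedAddCommGroup F] [NormedSpace ℝ F] (ht : Tail μ)
    (hc : Cost c R) (h : Opt μ c τ u) {G : E → F} (hG : StronglyMeasurable G) :
    ∫ p, G p.1 ∂cpl μ c τ u = ∫ x, G x ∂μ := by
  rw [← integral_map measurable_fst.aemeasurable hG.aestronglyMeasurable, cpl_fst ht hc h]

theorem cpl_int_snd {F : Type} [NormedAddCommGroup F] [NormedSpace ℝ F] (ht : Tail μ)
    (hc : Cost c R) (h : Opt μ c τ u) {G : E → F} (hG : StronglyMeasurable G) :
    ∫ p, G p.2 ∂cpl μ c τ u = ∫ y, rh μ c τ u y • G y ∂μ := by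
  rw [← integral_map measurable_snd.aemeasurable hG.aestronglyMeasurable, cpl_snd ht hc h,
    integral_withDensity_eq_integral_toReal_smul (rh_meas ht hc h.lg τ).ennreal_ofReal
      (ae_of_all _ fun y => ENNReal.ofReal_lt_top)]
  refine integral_congr_ae (ae_of_all _ fun y => ?_)
  have h0 : 0 ≤ rh μ c τ u y := (exp_pos _).le
  show (ENNReal.ofReal (rh μ c τ u y)).toReal • G y = rh μ c τ u y • G y
  rw [ENNReal.toReal_ofReal h0]

theorem cpl_bound (ht : Tail μ) (hc : Cost c R) (h : Opt μ c τ u) (hτ : 0 < τ) {r : ℝ}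
    (hr : 0 < r) {G : E → ℝ} (hm : Measurable G) (hG : XG G)
    (hb : ∀ x, exp (-G x) ≤ μ.real (Metric.ball x r)) :
    Psi μ c τ u + τ⁻¹ * ∫ y, rh μ c τ u y * log (rh μ c τ u y) ∂μ ≤
      ∫ p, c (p.2 - p.1) ∂cpl μ c τ u + 2 * R * r + ∫ x, G x ∂μ := by
  have := cpl_prob ht hc h
  have hT := Tr_lg ht hc h.lg
  have hrm := rh_meas ht hc h.lg τ
  have hrx := rh_xg ht hc h.lg τ
  have iR : Integrable (rh μ c τ u) μ := ht.int hrm.aestronglyMeasurable hrx
  have iRT : Integrable (fun y => rh μ c τ u y * Tr μ c u y) μ :=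
    ht.int (hrm.mul hT.1).aestronglyMeasurable (hrx.mul hT.xg)
  have e1 : ∫ y, rh μ c τ u y * log (rh μ c τ u y) ∂μ
      = -τ * ∫ y, rh μ c τ u y * Tr μ c u y ∂μ - log (Zf μ c τ u) := by
    have e : (fun y => rh μ c τ u y * log (rh μ c τ u y))
        = fun y => -τ * (rh μ c τ u y * Tr μ c u y) - rh μ c τ u y * log (Zf μ c τ u) := by
      funext y
      have e' : log (rh μ c τ u y) = -τ * Tr μ c u y - log (Zf μ c τ u) := log_exp _
      rw [e']
      ring
    rw [e, integral_sub (iRT.const_mul _) (iR.mul_const _), integral_const_mul, integral_mul_const,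
      rh_one ht hc h.lg τ, one_mul]
  have e2 : Psi μ c τ u + τ⁻¹ * ∫ y, rh μ c τ u y * log (rh μ c τ u y) ∂μ
      = ∫ x, u x ∂μ - ∫ y, rh μ c τ u y * Tr μ c u y ∂μ := by
    rw [e1, Psi]
    field_simp
    ring
  have i1 : ∀ f : E → ℝ, Measurable f → XG f → Integrable (fun p : E × E => f p.1) (cpl μ c τ u) := by
    intro f hf hx
    have h1 : Integrable f ((cpl μ c τ u).map Prod.fst) := by
      rw [cpl_fst ht hc h]
      exact ht.int hf.aestronglyMeasurable hx
    exact h1.comp_measurable measurable_fst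
  have i2 : Integrable (fun p : E × E => Tr μ c u p.2) (cpl μ c τ u) := by
    have h1 : Integrable (Tr μ c u) ((cpl μ c τ u).map Prod.snd) := by
      rw [cpl_snd ht hc h]
      exact (ht.withDensity hrm hrx).int hT.1.aestronglyMeasurable hT.xg
    exact h1.comp_measurable measurable_snd
  have i3 : Integrable (fun p : E × E => c (p.2 - p.1)) (cpl μ c τ u) := by
    refine cpl_int ht hc h (C := c 0 + R)
      (hc.cont.comp (continuous_snd.sub continuous_fst)).aestronglyMeasurable fun p => ?_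
    have h1 := (abs_le.1 (hc.lip (p.2 - p.1) 0)).2
    rw [sub_zero] at h1
    have h2 : ‖p.2 - p.1‖ ≤ ‖p.2‖ + ‖p.1‖ := norm_sub_le _ _
    have h3 := hc.R_nonneg
    have h4 := hc.nonneg 0
    have h5 := mul_le_mul_of_nonneg_left h2 h3
    have h6 := add_one_le_exp ((c 0 + R) * (1 + ‖p.1‖ + ‖p.2‖))
    have h7 := mul_nonneg h4 (add_nonneg (norm_nonneg p.1) (norm_nonneg p.2))
    rw [Real.norm_of_nonneg (hc.nonneg _)]
    nlinarith
  have iu := i1 u h.lg.1 h.lg.xg
  have iG := i1 G hm hG
  have e3 : ∫ p, (u p.1 - Tr μ c u p.2) ∂cpl μ c τ u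
      = ∫ x, u x ∂μ - ∫ y, rh μ c τ u y * Tr μ c u y ∂μ := by
    rw [integral_sub iu i2, cpl_int_fst ht hc h h.lg.1.stronglyMeasurable,
      cpl_int_snd ht hc h hT.1.stronglyMeasurable]
    rfl
  have e4 : ∫ p, (c (p.2 - p.1) + 2 * R * r + G p.1) ∂cpl μ c τ u
      = ∫ p, c (p.2 - p.1) ∂cpl μ c τ u + 2 * R * r + ∫ x, G x ∂μ := by
    have i4 : Integrable (fun p : E × E => c (p.2 - p.1) + 2 * R * r) (cpl μ c τ u) :=
      i3.add (integrable_const _)
    rw [integral_add i4 iG, integral_add i3 (integrable_const _), integral_const,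
      cpl_int_fst ht hc h hm.stronglyMeasurable]
    simp
  rw [e2, ← e3, ← e4]
  exact integral_mono (iu.sub i2) ((i3.add (integrable_const _)).add iG)
    fun p => Cpl.point ht hc h hb p.1 p.2

end Vale.Agent.P245B
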