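import Vale.Agent.P245B.Cpl

/-! Gradients of the potentials as conditional means. -/

open MeasureTheory Real Set Filter Topology
open scoped ENNReal RealInnerProductSpace

noncomputable section

namespace Vale.Agent.P245B

open Vale.Agent.P245 (Ent gibbs Ent_nonneg)

set_option linter.unusedSectionVars false

variable {E : Type} [NormedAddCommGroup E] [InnerProductSpace ℝ E] [FiniteDimensional ℝ E]
  [CompleteSpace E] [MeasurableSpace E] [BorelSpace E]

variable {μ : Measure E} [IsProbabilityMeasure μ] {c u : E → ℝ} {R τ : ℝ}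

namespace CplG

theorem grad (ht : Tail μ) (hc : Cost c R) (h : Opt μ c τ u) (x : E) :
    HasGradientAt u (-gradient (Tr μ c (Wf μ c τ u)) x) x := by
  have h1 := (Tr_grad ht hc (Wf_lg ht hc h.lg τ) x).differentiableAt.hasGradientAt
  rw [hasGradientAt_iff_hasFDerivAt] at h1 ⊢
  rw [map_neg]
  exact h1.neg.congr_of_eventuallyEq (Eventually.of_forall h.fix)

theorem dens (ht : Tail μ) (hc : Cost c R) (h : Opt μ c τ u) (F : E × E → ℝ) :
    ∫ p, F p ∂cpl μ c τ u =
      ∫ p, exp (u p.1 - c (p.2 - p.1) + Wf μ c τ u p.2) * F p ∂μ.prod μ := by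
  have m1 := h.lg.1
  have m2 := (Wf_lg ht hc h.lg τ).1
  have m3 := hc.cont.measurable
  rw [cpl, integral_withDensity_eq_integral_toReal_smul (by fun_prop)
    (Eventually.of_forall fun _ => ENNReal.ofReal_lt_top)]
  simp only [ENNReal.toReal_ofReal (exp_pos _).le, smul_eq_mul]

theorem key (ht : Tail μ) (hc : Cost c R) {a b : E → ℝ} (ha : LG a) (hb : LG b) {G : E → E}
    (hm : Measurable G) (hG : XG G) :
    ∫ p : E × E, exp (a p.1 - c (p.2 - p.1) + b p.2) * ⟪gradient c (p.2 - p.1), G p.2⟫ ∂μ.prod μ =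
      -∫ y, exp (b y + Tr μ c a y) * ⟪gradient (Tr μ c a) y, G y⟫ ∂μ := by
  have m1 := ha.1
  have m2 := hb.1
  have m3 := hc.cont.measurable
  have m4 := measurable_grad c
  have i1 : Integrable (fun x => exp (a x)) μ := ht.int m1.exp.aestronglyMeasurable ha.exp_xg
  have i2 : Integrable (fun y => exp (b y) • G y) μ :=
    ht.int (m2.exp.smul hm).aestronglyMeasurable (hb.exp_xg.smul hG)
  have i3 : Integrable (fun p : E × E =>
      exp (a p.1 - c (p.2 - p.1) + b p.2) * ⟪gradient c (p.2 - p.1), G p.2⟫) (μ.prod μ) := by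
    refine ((i1.const_mul R).mul_prod i2.norm).mono' (Measurable.aestronglyMeasurable
      (by fun_prop)) (Eventually.of_forall fun p => ?_)
    rw [norm_mul, norm_smul, norm_of_nonneg (exp_pos _).le, norm_of_nonneg (exp_pos _).le]
    refine (mul_le_mul (exp_le_exp.2 (show _ ≤ a p.1 + b p.2 by linarith [hc.nonneg (p.2 - p.1)]))
      ((norm_inner_le_norm _ _).trans (mul_le_mul_of_nonneg_right (hc.bdd _) (norm_nonneg _)))
      (norm_nonneg _) (exp_pos _).le).trans_eq ?_
    rw [exp_add]
    ring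
  rw [integral_prod_symm _ i3, ← integral_neg]
  refine integral_congr_ae (Eventually.of_forall fun y => ?_)
  have i4 : Integrable (fun x => exp (a x - c (y - x) - Tr μ c a y) • gradient c (y - x)) μ := by
    refine ((Tr_int ht hc ha y).mul_const (exp (-Tr μ c a y) * R)).mono'
      (Measurable.aestronglyMeasurable (by fun_prop)) (Eventually.of_forall fun x => ?_)
    rw [norm_smul, norm_of_nonneg (exp_pos _).le, ← mul_assoc, ← exp_add, ← sub_eq_add_neg]
    exact mul_le_mul_of_nonneg_left (hc.bdd _) (exp_pos _).le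
  simp only [(Tr_grad ht hc ha y).gradient, inner_neg_left, mul_neg, neg_neg]
  rw [real_inner_comm, ← integral_inner i4, ← integral_const_mul]
  refine integral_congr_ae (Eventually.of_forall fun x => ?_)
  simp only [real_inner_smul_right, real_inner_comm (G y)]
  rw [← mul_assoc, ← exp_add]
  congr 2
  ring

end CplG

theorem Opt.diff (ht : Tail μ) (hc : Cost c R) (h : Opt μ c τ u) :
    Differentiable ℝ u ∧ ∀ x, ‖gradient u x‖ ≤ R := by
  refine ⟨fun x => (CplG.grad ht hc h x).differentiableAt, fun x => ?_⟩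
  rw [(CplG.grad ht hc h x).gradient, norm_neg]
  exact Tr_grad_le ht hc (Wf_lg ht hc h.lg τ) x

theorem cpl_grad_fst (ht : Tail μ) (hc : Cost c R) (h : Opt μ c τ u) {G : E → E}
    (hm : Measurable G) (hG : XG G) :
    ∫ p, ⟪gradient c (p.2 - p.1), G p.1⟫ ∂cpl μ c τ u = -∫ x, ⟪gradient u x, G x⟫ ∂μ := by
  have h1 := CplG.key ht hc (Wf_lg ht hc h.lg τ) h.lg hm hG
  rw [CplG.dens ht hc h, ← integral_prod_swap, ← neg_inj, ← integral_neg, neg_neg]
  refine Eq.trans (integral_congr_ae (Eventually.of_forall fun p => ?_)) (h1.trans ?_)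
  · simp only [Prod.fst_swap, Prod.snd_swap]
    rw [← neg_sub p.2 p.1, hc.grad_neg, hc.even, inner_neg_left, mul_neg, neg_neg]
    congr 2
    ring
  · rw [← integral_neg]
    refine integral_congr_ae (Eventually.of_forall fun x => ?_)
    simp only [(CplG.grad ht hc h x).gradient, inner_neg_left]
    rw [h.fix x, neg_add_cancel, exp_zero, one_mul]

theorem cpl_grad_snd (ht : Tail μ) (hc : Cost c R) (h : Opt μ c τ u) {G : E → E}
    (hm : Measurable G) (hG : XG G) :
    ∫ p, ⟪gradient c (p.2 - p.1), G p.2⟫ ∂cpl μ c τ u =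
      -∫ y, rh μ c τ u y * ⟪gradient (Tr μ c u) y, G y⟫ ∂μ := by
  rw [CplG.dens ht hc h, CplG.key ht hc h.lg (Wf_lg ht hc h.lg τ) hm hG]
  refine congrArg _ (integral_congr_ae (Eventually.of_forall fun y => ?_))
  simp only [rh, Wf]
  congr 2
  ring

end Vale.Agent.P245B
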