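import Vale.Agent.P245.PLOrth

/-! Definitions for the cube root bound on the logarithmic Sobolev constant. -/

open MeasureTheory Real Set Filter Topology
open scoped ENNReal RealInnerProductSpace

noncomputable section

namespace Vale.Agent.P245B

open Vale.Agent.P245 (Ent gibbs Ent_nonneg)

set_option linter.unusedSectionVars false

variable {E : Type} [NormedAddCommGroup E] [InnerProductSpace ℝ E] [FiniteDimensional ℝ E]
  [CompleteSpace E] [MeasurableSpace E] [BorelSpace E]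

/-- The measure with density `exp (-V)`. -/
def ms (V : E → ℝ) : Measure E := volume.withDensity fun x => ENNReal.ofReal (exp (-V x))

/-- Differentiable `ε`-convex potentials of probability measures. -/
structure Pot (V : E → ℝ) (ε : ℝ) : Prop where
  diff : Differentiable ℝ V
  cvx : ConvexOn ℝ univ fun x => V x - ε / 2 * ‖x‖ ^ 2
  grow : ∃ C : ℝ, ∀ x, ‖gradient V x‖ ≤ C * (1 + ‖x‖)
  prob : IsProbabilityMeasure (ms V)

/-- Subgaussian Laplace transform around `b`, with defect `D`. -/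
def SG (μ : Measure E) (b : E) (L D : ℝ) : Prop :=
  ∀ θ : E, ∫⁻ x, ENNReal.ofReal (exp ⟪θ, x - b⟫) ∂μ ≤ ENNReal.ofReal (exp (L * ‖θ‖ ^ 2 + D))

/-- All exponential moments are finite. -/
def Tail (μ : Measure E) : Prop := ∀ C : ℝ, Integrable (fun x => exp (C * ‖x‖)) μ

/-- At most exponential growth. -/
def XG {F : Type} [NormedAddCommGroup F] (u : E → F) : Prop :=
  ∃ C : ℝ, ∀ x, ‖u x‖ ≤ exp (C * (1 + ‖x‖))

/-- Measurable functions of at most linear growth. -/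
def LG (u : E → ℝ) : Prop := Measurable u ∧ ∃ C : ℝ, ∀ x, |u x| ≤ C * (1 + ‖x‖)

/-- The dual form of the quadratic transport inequality. -/
def IC (μ : Measure E) (κ : ℝ) : Prop :=
  ∀ a b : E → ℝ, Measurable a → Measurable b → (∃ M : ℝ, ∀ x, |a x| ≤ M ∧ |b x| ≤ M) →
    (∀ x y, a y ≤ b x + κ * ‖y - x‖ ^ 2) → ∫ y, exp (a y) ∂μ ≤ exp (∫ x, b x ∂μ)

/-- Test functions: twice differentiable and constant outside a compact set. -/
def Tst (f : E → ℝ) : Prop := ContDiff ℝ 2 f ∧ ∃ c : ℝ, HasCompactSupport fun x => f x - c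

/-- Dirichlet energy. -/
def Dir (μ : Measure E) (f : E → ℝ) : ℝ := ∫ x, ‖gradient f x‖ ^ 2 ∂μ

/-- Logarithmic Sobolev inequality. -/
def LSI (μ : Measure E) (K : ℝ) : Prop :=
  ∀ f : E → ℝ, Tst f → Ent μ (fun x => f x ^ 2) ≤ K * Dir μ f

/-- Poincare inequality. -/
def PI (μ : Measure E) (K : ℝ) : Prop :=
  ∀ f : E → ℝ, Tst f → ∫ x, f x ^ 2 ∂μ - (∫ x, f x ∂μ) ^ 2 ≤ K * Dir μ f

/-- Even costs with bounded gradient. -/
structure Cost (c : E → ℝ) (R : ℝ) : Prop where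
  diff : Differentiable ℝ c
  nonneg : ∀ z, 0 ≤ c z
  even : ∀ z, c (-z) = c z
  bdd : ∀ z, ‖gradient c z‖ ≤ R

/-- The soft transform. -/
def Tr (μ : Measure E) (c u : E → ℝ) (y : E) : ℝ := log (∫ x, exp (u x - c (y - x)) ∂μ)

/-- The partition function. -/
def Zf (μ : Measure E) (c : E → ℝ) (τ : ℝ) (u : E → ℝ) : ℝ := ∫ y, exp (-τ * Tr μ c u y) ∂μ

/-- The functional that is maximised. -/
def Psi (μ : Measure E) (c : E → ℝ) (τ : ℝ) (u : E → ℝ) : ℝ :=
  ∫ x, u x ∂μ + τ⁻¹ * log (Zf μ c τ u)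

/-- The second potential. -/
def Wf (μ : Measure E) (c : E → ℝ) (τ : ℝ) (u : E → ℝ) (y : E) : ℝ :=
  -(1 + τ) * Tr μ c u y - log (Zf μ c τ u)

/-- The density of the second marginal. -/
def rh (μ : Measure E) (c : E → ℝ) (τ : ℝ) (u : E → ℝ) (y : E) : ℝ :=
  exp (-τ * Tr μ c u y - log (Zf μ c τ u))

/-- The coupling. -/
def cpl (μ : Measure E) (c : E → ℝ) (τ : ℝ) (u : E → ℝ) : Measure (E × E) :=
  (μ.prod μ).withDensity fun p => ENNReal.ofReal (exp (u p.1 - c (p.2 - p.1) + Wf μ c τ u p.2))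

/-- A maximiser. -/
structure Opt (μ : Measure E) (c : E → ℝ) (τ : ℝ) (u : E → ℝ) : Prop where
  lg : LG u
  max : ∀ u', LG u' → Psi μ c τ u' ≤ Psi μ c τ u
  fix : ∀ x, u x = -Tr μ c (Wf μ c τ u) x

/-- The smooth truncation of the quadratic cost. -/
def cR (R : ℝ) (z : E) : ℝ := R ^ 2 * (√(1 + ‖z‖ ^ 2 / R ^ 2) - 1)

/-- The unnormalised Gaussian density. -/
def gs (σ : ℝ) (z : E) : ℝ := exp (-(‖z‖ ^ 2 / (2 * σ)))

/-- The normalised Gaussian density. -/
def ga (σ : ℝ) (z : E) : ℝ := gs σ z / ∫ w : E, gs σ w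

/-- The centred quadratic perturbation. -/
def Uq (μ : Measure E) (s : ℝ) (x : E) : ℝ := s / 2 * (‖x‖ ^ 2 - ∫ y, ‖y‖ ^ 2 ∂μ)

/-- Its free energy. -/
def ph (μ : Measure E) (s : ℝ) : ℝ := log (∫ x, exp (-Uq μ s x) ∂μ)

/-- The perturbed potential. -/
def Vs (V : E → ℝ) (s : ℝ) (x : E) : ℝ := V x + Uq (ms V) s x + ph (ms V) s

/-- The potential of the Gaussian convolution. -/
def Vt (μ : Measure E) (t : ℝ) (y : E) : ℝ := -log (∫ x, ga t (y - x) ∂μ)

/-- The constant of the centring lemma. -/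
def C1 : ℝ := 4 * exp 9

end Vale.Agent.P245B
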