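import Vale.Agent.P245B.Bas

/-! Maximisers on normalised Lipschitz functions. -/

open MeasureTheory Real Set Filter Topology
open scoped ENNReal RealInnerProductSpace

noncomputable section

namespace Vale.Agent.P245B

open Vale.Agent.P245 (Ent gibbs Ent_nonneg)

set_option linter.unusedSectionVars false

variable {E : Type} [NormedAddCommGroup E] [InnerProductSpace ℝ E] [FiniteDimensional ℝ E]
  [CompleteSpace E] [MeasurableSpace E] [BorelSpace E]

/-- Normalised Lipschitz functions. -/
def Lp0 (R : ℝ) : Set (E → ℝ) := {u | u 0 = 0 ∧ ∀ x y, |u x - u y| ≤ R * ‖x - y‖}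

namespace MaxL

theorem cont {R : ℝ} (hR : 0 ≤ R) {u : E → ℝ} (hu : u ∈ Lp0 R) : Continuous u := by
  have h : LipschitzWith (Real.toNNReal R) u := by
    refine LipschitzWith.of_dist_le_mul fun x y => ?_
    rw [Real.coe_toNNReal _ hR, Real.dist_eq, dist_eq_norm]
    exact hu.2 x y
  exact h.continuous

theorem closed (R : ℝ) : IsClosed (Lp0 (E := E) R) := by
  have h1 : IsClosed {u : E → ℝ | u 0 = 0} :=
    isClosed_eq (continuous_apply 0) continuous_const
  have h2 : IsClosed {u : E → ℝ | ∀ x y, |u x - u y| ≤ R * ‖x - y‖} := by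
    simp only [setOf_forall]
    refine isClosed_iInter fun x => isClosed_iInter fun y => ?_
    exact isClosed_le ((continuous_apply x).sub (continuous_apply y)).abs continuous_const
  exact h1.inter h2

theorem compact (R : ℝ) : IsCompact (Lp0 (E := E) R) := by
  have hK : IsCompact (Set.pi univ fun x : E => Icc (-(R * ‖x‖)) (R * ‖x‖)) :=
    isCompact_univ_pi fun x => isCompact_Icc
  refine hK.of_isClosed_subset (closed R) fun u hu x _ => ?_
  have h := hu.2 x 0
  rw [hu.1, sub_zero, sub_zero] at h
  exact abs_le.1 h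

theorem firstCountable {R : ℝ} (hR : 0 ≤ R) : FirstCountableTopology (Lp0 (E := E) R) := by
  haveI : CompactSpace (Lp0 (E := E) R) := isCompact_iff_compactSpace.1 (compact R)
  haveI : Nonempty E := ⟨0⟩
  let d : ℕ → E := TopologicalSpace.denseSeq E
  have hd : DenseRange d := TopologicalSpace.denseRange_denseSeq E
  let ρ : Lp0 (E := E) R → (ℕ → ℝ) := fun u n => u.1 (d n)
  have hc : Continuous ρ :=
    continuous_pi fun n => (continuous_apply (d n)).comp continuous_subtype_val
  have hi : Function.Injective ρ := by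
    intro u v h
    apply Subtype.ext
    refine hd.equalizer (cont hR u.2) (cont hR v.2) ?_
    funext n
    exact congrFun h n
  exact (hc.isClosedEmbedding hi).isEmbedding.firstCountableTopology

end MaxL

theorem exists_max_lip {R : ℝ} (hR : 0 ≤ R) (Φ : (E → ℝ) → ℝ)
    (hΦ : ∀ (u : ℕ → E → ℝ) (v : E → ℝ), (∀ k, u k ∈ Lp0 R) → v ∈ Lp0 R →
      (∀ x, Tendsto (fun k => u k x) atTop (𝓝 (v x))) →
      Tendsto (fun k => Φ (u k)) atTop (𝓝 (Φ v))) :
    ∃ u ∈ Lp0 R, ∀ v ∈ Lp0 R, Φ v ≤ Φ u := by
  haveI := MaxL.firstCountable (E := E) hR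
  have hc : Continuous fun u : Lp0 (E := E) R => Φ u.1 := by
    rw [continuous_iff_seqContinuous]
    intro u v huv
    refine hΦ (fun k => (u k).1) v.1 (fun k => (u k).2) v.2 fun x => ?_
    exact (((continuous_apply x).comp continuous_subtype_val).tendsto v).comp huv
  have hne : (Lp0 (E := E) R).Nonempty := by
    refine ⟨fun _ => 0, rfl, fun x y => ?_⟩
    simp only [sub_self, abs_zero]
    positivity
  obtain ⟨u, hu, hmax⟩ := (MaxL.compact (E := E) R).exists_isMaxOn hne
    (continuousOn_iff_continuous_restrict.2 hc)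
  exact ⟨u, hu, fun v hv => hmax hv⟩

end Vale.Agent.P245B
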