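import Vale.Agent.P245B.TOp
import Vale.Agent.P245B.MaxL

/-! Existence of a maximiser. -/

open MeasureTheory Real Set Filter Topology
open scoped ENNReal RealInnerProductSpace

noncomputable section

namespace Vale.Agent.P245B

open Vale.Agent.P245 (Ent gibbs Ent_nonneg)

set_option linter.unusedSectionVars false

variable {E : Type} [NormedAddCommGroup E] [InnerProductSpace ℝ E] [FiniteDimensional ℝ E]
  [CompleteSpace E] [MeasurableSpace E] [BorelSpace E]

variable {μ : Measure E} [IsProbabilityMeasure μ] {c u : E → ℝ} {R τ : ℝ}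

/-- Fubini for two soft transforms. -/
theorem Tr_swap (ht : Tail μ) (hc : Cost c R) (hu : LG u) {w : E → ℝ} (hw : LG w) :
    ∫ x, exp (u x + Tr μ c w x) ∂μ = ∫ y, exp (w y + Tr μ c u y) ∂μ := by
  have ie : ∀ {v : E → ℝ}, LG v → Integrable (fun x => exp (v x)) μ := fun hv =>
    ht.int hv.1.exp.aestronglyMeasurable hv.exp_xg
  have h1 : Integrable (Function.uncurry fun x y => exp (u x) * exp (w y - c (x - y)))
      (μ.prod μ) := by
    refine ((ie hu).mul_prod (ie hw)).mono' (((hu.1.comp measurable_fst).exp.mul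
      ((hw.1.comp measurable_snd).sub (hc.cont.measurable.comp
        (measurable_fst.sub measurable_snd))).exp).aestronglyMeasurable) (.of_forall fun p => ?_)
    rw [Function.uncurry, Real.norm_of_nonneg (by positivity)]
    exact mul_le_mul_of_nonneg_left (exp_le_exp.2 (sub_le_self _ (hc.nonneg _))) (exp_pos _).le
  simp only [exp_add, exp_Tr ht hc hu, exp_Tr ht hc hw, ← integral_const_mul]
  rw [integral_integral_swap h1]
  refine integral_congr_ae (.of_forall fun y => integral_congr_ae (.of_forall fun x => ?_))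
  simp only [← exp_add, hc.swap x y]
  congr 1
  ring

theorem improve_one (ht : Tail μ) (hc : Cost c R) (hu : LG u) (τ : ℝ) :
    ∫ x, exp (u x + Tr μ c (Wf μ c τ u) x) ∂μ = 1 := by
  rw [Tr_swap ht hc hu (Wf_lg ht hc hu τ), ← rh_one ht hc hu τ]
  refine integral_congr_ae (.of_forall fun y => congrArg exp ?_)
  rw [Wf]
  ring

theorem improve (ht : Tail μ) (hc : Cost c R) (hu : LG u) (hτ : 0 < τ) :
    Psi μ c τ u - ∫ x, (u x + Tr μ c (Wf μ c τ u) x) ∂μ ≤
      Psi μ c τ fun x => -Tr μ c (Wf μ c τ u) x := by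
  have hW := Wf_lg ht hc hu τ
  have hT := Tr_lg ht hc hW
  have hu' : LG fun x => -Tr μ c (Wf μ c τ u) x := by simpa using hT.const_mul (-1)
  have hS := hW.add (Tr_lg ht hc hu')
  have h1 := Tr_swap ht hc hu' hW
  simp only [neg_add_cancel, exp_zero, integral_const, probReal_univ, one_smul] at h1
  have i1 := ht.int hS.1.exp.aestronglyMeasurable hS.exp_xg
  have i2 := ht.int (rh_meas ht hc hu τ).aestronglyMeasurable (rh_xg ht hc hu τ)
  have hZ := Zf_pos ht hc hu τ
  have h2 : Zf μ c τ u ≤ Zf μ c τ fun x => -Tr μ c (Wf μ c τ u) x := by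
    have h3 := integral_mono (((i2.const_mul (1 + τ)).sub (i1.const_mul τ)).const_mul
      (Zf μ c τ u)) (Zf_int ht hc hu' τ) fun y => ?_
    · simp only [Pi.sub_apply] at h3
      rw [integral_const_mul, integral_sub (i2.const_mul _) (i1.const_mul _), integral_const_mul,
        integral_const_mul, rh_one ht hc hu, ← h1] at h3
      exact le_of_eq_of_le (by ring) h3
    · simp only [Pi.sub_apply, rh, Wf]
      generalize Tr μ c u y = a
      generalize Tr μ c _ y = b
      have e1 : exp (-τ * b) = Zf μ c τ u * (exp (-τ * a - log (Zf μ c τ u)) *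
          exp (-τ * (b - a))) := by
        nth_rw 1 [← exp_log hZ]
        rw [← exp_add, ← exp_add]
        congr 1
        ring
      have e2 : exp (-(1 + τ) * a - log (Zf μ c τ u) + b) =
          exp (-τ * a - log (Zf μ c τ u)) * exp (b - a) := by
        rw [← exp_add]
        congr 1
        ring
      rw [e1, e2, mul_left_comm τ, mul_comm (1 + τ), ← mul_sub]
      refine mul_le_mul_of_nonneg_left (mul_le_mul_of_nonneg_left ?_ (exp_pos _).le) hZ.le
      nlinarith [add_one_le_exp (b - a), add_one_le_exp (-τ * (b - a))]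
  have h3 := mul_le_mul_of_nonneg_left (log_le_log hZ h2) (inv_pos.2 hτ).le
  rw [Psi, Psi, integral_add (ht.int hu.1.aestronglyMeasurable hu.xg)
    (ht.int hT.1.aestronglyMeasurable hT.xg), integral_neg]
  linarith

theorem exists_opt [μ.IsOpenPosMeasure] (ht : Tail μ) (hc : Cost c R) (hτ : 0 < τ) :
    ∃ u, Opt μ c τ u := by
  have hR := hc.R_nonneg
  have lg : ∀ v ∈ Lp0 (E := E) R, LG v := fun v hv => LG.of_lip hv.2
  obtain ⟨u, hu, hm⟩ := exists_max_lip hR (Psi μ c τ) fun w v hw _ hl =>
    Psi_seq ht hc τ (C := R) (fun k => (lg _ (hw k)).1) (fun k x => by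
      have := (hw k).2 x 0
      rw [(hw k).1, sub_zero, sub_zero] at this
      nlinarith) hl
  have h1 : ∀ v, LG v → Psi μ c τ v - ∫ x, (v x + Tr μ c (Wf μ c τ v) x) ∂μ ≤ Psi μ c τ u :=
    fun v hv => by
      have hW := Wf_lg ht hc hv τ
      have hv' : LG fun x => -Tr μ c (Wf μ c τ v) x := by
        simpa using (Tr_lg ht hc hW).const_mul (-1)
      refine (improve ht hc hv hτ).trans ((Psi_const ht hc hv' hτ
        (Tr μ c (Wf μ c τ v) 0)).symm.trans_le (hm _ ⟨neg_add_cancel _, fun x y => ?_⟩))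
      rw [add_sub_add_right_eq_sub, neg_sub_neg, abs_sub_comm]
      exact Tr_lip ht hc hW x y
  have h2 : ∀ v, LG v → (Integrable (fun x => exp (v x + Tr μ c (Wf μ c τ v) x) - 1 -
      (v x + Tr μ c (Wf μ c τ v) x)) μ) ∧ ∫ x, (exp (v x + Tr μ c (Wf μ c τ v) x) - 1 -
      (v x + Tr μ c (Wf μ c τ v) x)) ∂μ = -∫ x, (v x + Tr μ c (Wf μ c τ v) x) ∂μ := fun v hv => by
    have hS := hv.add (Tr_lg ht hc (Wf_lg ht hc hv τ))
    have i1 := ht.int hS.1.exp.aestronglyMeasurable hS.exp_xg
    have i2 := ht.int hS.1.aestronglyMeasurable hS.xg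
    have i3 : Integrable (fun x => exp (v x + Tr μ c (Wf μ c τ v) x) - 1) μ :=
      i1.sub (integrable_const 1)
    refine ⟨i3.sub i2, ?_⟩
    rw [integral_sub i3 i2, integral_sub i1 (integrable_const 1), improve_one ht hc hv]
    simp
  have h3 : ∀ d : ℝ, 0 ≤ exp d - 1 - d := fun d => by linarith [add_one_le_exp d]
  have hl := lg u hu
  refine ⟨u, hl, fun v hv => ?_, fun x => ?_⟩
  · linarith [h1 v hv, (h2 v hv).2.le.trans' (integral_nonneg fun x => h3 _)]
  · have cl : ∀ {v : E → ℝ}, (∀ x y, |v x - v y| ≤ R * ‖x - y‖) → Continuous v := fun hv =>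
      (LipschitzWith.of_dist_le' fun x y => by rw [Real.dist_eq, dist_eq_norm]; exact hv x y)
        |>.continuous
    have h4 := (cl hu.2).add (cl (Tr_lip ht hc (Wf_lg ht hc hl τ)))
    have h5 := (integral_eq_zero_iff_of_nonneg (fun x => h3 _) (h2 u hl).1).1
      (le_antisymm (by linarith [h1 u hl, (h2 u hl).2]) (integral_nonneg fun x => h3 _))
    have h6 := congrFun ((Continuous.ae_eq_iff_eq μ ((h4.rexp.sub continuous_const).sub h4)
      continuous_zero).1 h5) x
    by_contra h7
    have h8 := add_one_lt_exp (x := u x + Tr μ c (Wf μ c τ u) x) fun h => h7 (by linarith)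
    simp only [Pi.zero_apply, Pi.sub_apply, Pi.add_apply] at h6
    linarith

end Vale.Agent.P245B
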