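import Vale.Agent.P245B.Gau

/-! Consequences of a subgaussian Laplace transform. -/

open MeasureTheory Real Set Filter Topology
open scoped ENNReal RealInnerProductSpace

noncomputable section

namespace Vale.Agent.P245B

open Vale.Agent.P245 (Ent gibbs Ent_nonneg)

set_option linter.unusedSectionVars false

variable {E : Type} [NormedAddCommGroup E] [InnerProductSpace ℝ E] [FiniteDimensional ℝ E]
  [CompleteSpace E] [MeasurableSpace E] [BorelSpace E]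

variable {μ : Measure E} {b : E} {L D : ℝ}

namespace TailL

theorem of_lint {f : E → ℝ} (hm : Continuous f) (h0 : ∀ x, 0 ≤ f x) {A : ℝ} (hA : 0 ≤ A)
    (h : ∫⁻ x, ENNReal.ofReal (f x) ∂μ ≤ ENNReal.ofReal A) : Integrable f μ ∧ ∫ x, f x ∂μ ≤ A := by
  refine ⟨⟨hm.aestronglyMeasurable, (hasFiniteIntegral_iff_ofReal (ae_of_all _ h0)).2
    (h.trans_lt ENNReal.ofReal_lt_top)⟩, ?_⟩
  rw [integral_eq_lintegral_of_nonneg_ae (ae_of_all _ h0) hm.aestronglyMeasurable]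
  exact ENNReal.toReal_le_of_le_ofReal hA h

theorem ratio (hL : 0 < L) (D : ℝ) :
    ∫⁻ θ : E, ENNReal.ofReal (exp (L * ‖θ‖ ^ 2 + D)) * ENNReal.ofReal (ga (1 / (4 * L)) θ) ≤
      ENNReal.ofReal (exp ((Module.finrank ℝ E : ℝ) / 2 + D)) := by
  have h1 : 0 < 1 / (4 * L) := by positivity
  have h2 : 0 < 1 / (2 * L) := by positivity
  have e : ∀ θ : E, ENNReal.ofReal (exp (L * ‖θ‖ ^ 2 + D)) * ENNReal.ofReal (ga (1 / (4 * L)) θ) =
      ENNReal.ofReal (gs (1 / (2 * L)) θ * (exp D / ∫ w : E, gs (1 / (4 * L)) w)) := fun θ => by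
    rw [← ENNReal.ofReal_mul (exp_pos _).le, ga, ← mul_div_assoc, ← mul_div_assoc, gs, gs,
      ← exp_add, ← exp_add]
    congr 3
    field_simp
    ring
  simp only [e]
  have h3 := gs_pos (E := E) h1
  rw [← ofReal_integral_eq_lintegral_ofReal ((gs_int h2).mul_const _)
    (ae_of_all _ fun θ => mul_nonneg (exp_pos _).le (div_pos (exp_pos _) h3).le),
    integral_mul_const, gs_val h1, gs_val h2]
  refine ENNReal.ofReal_le_ofReal ?_
  have e2 : 2 * π * (1 / (2 * L)) = 2 * (2 * π * (1 / (4 * L))) := by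
    field_simp
    ring
  have h4 : 0 < 2 * π * (1 / (4 * L)) := by positivity
  rw [e2, mul_rpow zero_le_two h4.le, mul_assoc, mul_div_cancel₀ _ (rpow_pos_of_pos h4 _).ne',
    exp_add, ← exp_one_rpow (_ / 2)]
  have h5 : (2 : ℝ) ≤ exp 1 := by linarith [add_one_le_exp (1 : ℝ)]
  gcongr

theorem xg_sub (b : E) : XG fun x : E => x - b :=
  XG.of_lin (C := 1 + ‖b‖) fun x => (norm_sub_le _ _).trans (by
    nlinarith [mul_nonneg (norm_nonneg x) (norm_nonneg b)])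

end TailL

theorem SG.mono (h : SG μ b L D) {L' D' : ℝ} (hL : L ≤ L') (hD : D ≤ D') : SG μ b L' D' :=
  fun θ => (h θ).trans (ENNReal.ofReal_le_ofReal (by gcongr))

theorem SG.int (h : SG μ b L D) (θ : E) : Integrable (fun x => exp ⟪θ, x - b⟫) μ ∧
    ∫ x, exp ⟪θ, x - b⟫ ∂μ ≤ exp (L * ‖θ‖ ^ 2 + D) :=
  TailL.of_lint (by fun_prop) (fun _ => (exp_pos _).le) (exp_pos _).le (h θ)

theorem SG.sq [IsProbabilityMeasure μ] (h : SG μ b L D) (hL : 0 < L) :
    Integrable (fun x => exp (‖x - b‖ ^ 2 / (8 * L))) μ ∧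
      ∫ x, exp (‖x - b‖ ^ 2 / (8 * L)) ∂μ ≤ exp ((Module.finrank ℝ E : ℝ) / 2 + D) := by
  refine TailL.of_lint (by fun_prop) (fun _ => (exp_pos _).le) (exp_pos _).le ?_
  have h1 : 0 < 1 / (4 * L) := by positivity
  have e : ∀ x : E, ENNReal.ofReal (exp (‖x - b‖ ^ 2 / (8 * L))) =
      ∫⁻ θ : E, ENNReal.ofReal (exp ⟪θ, x - b⟫) * ENNReal.ofReal (ga (1 / (4 * L)) θ) := fun x => by
    obtain ⟨i1, i2⟩ := ga_mgf h1 (x - b)
    have e1 : ‖x - b‖ ^ 2 / (8 * L) = 1 / (4 * L) / 2 * ‖x - b‖ ^ 2 := by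
      field_simp
      ring
    rw [e1, ← i2, ofReal_integral_eq_lintegral_ofReal i1
      (ae_of_all _ fun θ => mul_nonneg (exp_pos _).le (ga_pos h1 θ).le)]
    simp only [ENNReal.ofReal_mul (exp_pos _).le, real_inner_comm]
  simp only [e]
  have hc := ga_cont (E := E) (1 / (4 * L))
  rw [lintegral_lintegral_swap (Measurable.aemeasurable (by fun_prop))]
  refine le_trans (lintegral_mono fun θ => ?_) (TailL.ratio hL D)
  rw [lintegral_mul_const' _ _ ENNReal.ofReal_ne_top]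
  gcongr
  exact h θ

theorem SG.tail [IsProbabilityMeasure μ] (h : SG μ b L D) (hL : 0 < L) : Tail μ := by
  intro C
  refine ((h.sq hL).1.const_mul (exp (|C| * ‖b‖ + 2 * L * C ^ 2))).mono'
    (Continuous.aestronglyMeasurable (by fun_prop)) (ae_of_all _ fun x => ?_)
  rw [norm_of_nonneg (exp_pos _).le, ← exp_add]
  refine exp_le_exp.2 ?_
  have h1 : C * ‖x‖ ≤ |C| * (‖b‖ + ‖x - b‖) :=
    mul_le_mul (le_abs_self C) (norm_le_insert' x b) (norm_nonneg _) (abs_nonneg _)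
  have h2 : |C| * ‖x - b‖ - 2 * L * C ^ 2 ≤ ‖x - b‖ ^ 2 / (8 * L) := by
    rw [le_div_iff₀ (by positivity), ← sq_abs C]
    nlinarith [sq_nonneg (‖x - b‖ - 4 * L * |C|)]
  linarith

theorem SG.second [IsProbabilityMeasure μ] (h : SG μ b L D) (hL : 0 < L) {w : E → ℝ}
    (hm : Measurable w) (h0 : ∀ x, 0 ≤ w x) (hw : XG w) :
    ∫ x, w x * ‖x - b‖ ^ 2 ∂μ ≤
      8 * L * (Ent μ w + (∫ x, w x ∂μ) * ((Module.finrank ℝ E : ℝ) / 2 + D)) := by
  have ht := h.tail hL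
  have hz := TailL.xg_sub b
  have hq : XG fun x => w x * ‖x - b‖ ^ 2 := by
    simpa only [real_inner_self_eq_norm_sq] using hw.mul (hz.inner hz)
  have i1 := ht.int (Measurable.aestronglyMeasurable (by fun_prop)) hq
  have g := gibbs (G := fun x => ‖x - b‖ ^ 2 / (8 * L)) h0 (ht.int hm.aestronglyMeasurable hw)
    (ht.int (Measurable.aestronglyMeasurable (by fun_prop)) (hw.mul_log h0))
    (by simpa only [mul_div_assoc] using i1.div_const (8 * L)) (h.sq hL).1 (exp_pos _) (h.sq hL).2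
  simp only [← mul_div_assoc] at g
  rwa [integral_div, log_exp, div_le_iff₀' (by positivity)] at g

theorem SG.mean [IsProbabilityMeasure μ] (h : SG μ b L 0) (hL : 0 < L) {w : E → ℝ}
    (hm : Measurable w) (h0 : ∀ x, 0 ≤ w x) (hw : XG w) (h1 : ∫ x, w x ∂μ = 1) :
    ‖∫ x, w x • (x - b) ∂μ‖ ^ 2 ≤ 4 * L * ∫ x, w x * log (w x) ∂μ := by
  have ht := h.tail hL
  have i1 : Integrable (fun x => w x • (x - b)) μ :=
    ht.int (Measurable.aestronglyMeasurable (by fun_prop)) (hw.smul (TailL.xg_sub b))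
  set v := ∫ x, w x • (x - b) ∂μ with hv
  have e : ∀ x, w x * ⟪(1 / (2 * L)) • v, x - b⟫ = ⟪(1 / (2 * L)) • v, w x • (x - b)⟫ := fun x =>
    (real_inner_smul_right _ _ _).symm
  have g := gibbs (G := fun x => ⟪(1 / (2 * L)) • v, x - b⟫) h0 (ht.int hm.aestronglyMeasurable hw)
    (ht.int (Measurable.aestronglyMeasurable (by fun_prop)) (hw.mul_log h0))
    (by simpa only [e] using i1.const_inner _) (h.int _).1 (exp_pos _) (h.int _).2
  simp only [e] at g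
  rw [integral_inner i1, ← hv, log_exp, Ent, h1, log_one, real_inner_smul_left,
    real_inner_self_eq_norm_sq, norm_smul, mul_pow, Real.norm_eq_abs, sq_abs] at g
  have e2 : 1 / (2 * L) * ‖v‖ ^ 2 - L * ((1 / (2 * L)) ^ 2 * ‖v‖ ^ 2) = ‖v‖ ^ 2 / (4 * L) := by
    field_simp
    ring
  rw [← div_le_iff₀' (by positivity), ← e2]
  linarith

theorem sg_of_psi [IsProbabilityMeasure μ] {a : ℝ} (ha : 0 < a)
    (h : ∀ θ : E, ‖θ‖ = 1 → ∫⁻ x, ENNReal.ofReal (exp (⟪x, θ⟫ ^ 2 / a ^ 2)) ∂μ ≤ 2) :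
    SG μ 0 (a ^ 2 / 4) 1 := by
  intro θ
  rcases eq_or_ne θ 0 with rfl | hθ
  · simp
  have hn := norm_pos_iff.2 hθ
  have h1 := h (‖θ‖⁻¹ • θ) (norm_smul_inv_norm hθ)
  have h2 : ∀ x : E, ENNReal.ofReal (exp ⟪θ, x - 0⟫) ≤
      ENNReal.ofReal (exp (a ^ 2 / 4 * ‖θ‖ ^ 2)) *
        ENNReal.ofReal (exp (⟪x, ‖θ‖⁻¹ • θ⟫ ^ 2 / a ^ 2)) := fun x => by
    rw [← ENNReal.ofReal_mul (exp_pos _).le, ← exp_add]
    refine ENNReal.ofReal_le_ofReal (exp_le_exp.2 ?_)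
    have e : ⟪θ, x - 0⟫ = ‖θ‖ * ⟪x, ‖θ‖⁻¹ • θ⟫ := by
      rw [sub_zero, real_inner_smul_right, mul_inv_cancel_left₀ hn.ne', real_inner_comm]
    rw [e, ← sub_le_iff_le_add', le_div_iff₀ (by positivity)]
    nlinarith [sq_nonneg (⟪x, ‖θ‖⁻¹ • θ⟫ - a ^ 2 * ‖θ‖ / 2)]
  refine (lintegral_mono h2).trans ?_
  rw [lintegral_const_mul' _ _ ENNReal.ofReal_ne_top, exp_add, ENNReal.ofReal_mul (exp_pos _).le]
  gcongr
  refine h1.trans ?_
  rw [← ENNReal.ofReal_ofNat]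
  exact ENNReal.ofReal_le_ofReal (by linarith [add_one_le_exp (1 : ℝ)])

end Vale.Agent.P245B
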