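import Vale.Agent.P245B.Sec
import Vale.Agent.P245B.CostL
import Vale.Agent.P245B.Impr
import Vale.Agent.P245B.TailL

/-! The improved Lichnerowicz bound for the transport inequality. -/

open MeasureTheory Real Set Filter Topology
open scoped ENNReal RealInnerProductSpace

noncomputable section

namespace Vale.Agent.P245B

open Vale.Agent.P245 (Ent gibbs Ent_nonneg)

set_option linter.unusedSectionVars false

variable {E : Type} [NormedAddCommGroup E] [InnerProductSpace ℝ E] [FiniteDimensional ℝ E]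
  [CompleteSpace E] [MeasurableSpace E] [BorelSpace E]

variable {V : E → ℝ} {b : E} {ε L : ℝ}

theorem ilich_num {ε L l n R β e w H m p : ℝ} (hε : 0 < ε) (hL : 0 < L) (hl : 0 < l)
    (h84 : 84 * L * l ^ 2 ≤ ε) (hn : 0 ≤ n) (hR : 0 < R)
    (hR2 : 16 * L * (l + n) ≤ 17 * L ^ 2 * l ^ 2 * R ^ 2) (hβ0 : 0 ≤ β) (hβ1 : β ≤ 1)
    (he : 0 ≤ e) (hw : 0 ≤ w) (hH0 : 0 ≤ H) (hH : H ≤ l * (w + β)) (hm0 : 0 ≤ m)
    (hm : m ^ 2 ≤ 4 * L * H) (hp0 : 0 ≤ p) (hp : p ≤ m + w / R)
    (hw2 : w ^ 2 ≤ R ^ 2 * (16 * L * (H + n))) (h : ε * w ≤ l * p ^ 2 + e) :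
    w ≤ β + 2 * e / ε := by
  have hR' : 0 < R ^ 2 := by positivity
  obtain ⟨q, rfl⟩ : ∃ q, w = q * R ^ 2 := ⟨w / R ^ 2, by field_simp⟩
  have hq0 : 0 ≤ q := nonneg_of_mul_nonneg_left hw hR'
  have hA0 : 0 < L * l := by positivity
  have h1 : q ^ 2 * R ^ 2 ≤ 16 * L * (H + n) := by
    refine le_of_mul_le_mul_left ?_ hR'
    linarith
  have h2 : l * β ≤ l := mul_le_of_le_one_right hl.le hβ1
  have h3 : 16 * L * (H + n) ≤ 16 * L * (l * (q * R ^ 2) + (l + n)) :=
    mul_le_mul_of_nonneg_left (by linarith) (by positivity)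
  have h4 : q ^ 2 ≤ 16 * (L * l) * q + 17 * (L * l) ^ 2 := by
    refine le_of_mul_le_mul_right ?_ hR'
    linarith
  have h5 : q ≤ 17 * (L * l) := by
    by_contra hc
    push Not at hc
    have := mul_pos (sub_pos.2 hc) (add_pos_of_nonneg_of_pos hq0 hA0)
    linarith
  have e1 : q * R ^ 2 / R = q * R := by field_simp
  rw [e1] at hp
  have h6 : p ^ 2 ≤ 2 * m ^ 2 + 2 * (q * (q * R ^ 2)) := by
    have := pow_le_pow_left₀ hp0 hp 2
    linarith [sq_nonneg (m - q * R)]
  generalize q * R ^ 2 = w at *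
  have h7 : q * w ≤ 17 * (L * l) * w := mul_le_mul_of_nonneg_right h5 hw
  have h8 : L * H ≤ L * (l * (w + β)) := mul_le_mul_of_nonneg_left hH hL.le
  have h9 : p ^ 2 ≤ 8 * (L * l) * (w + β) + 34 * (L * l) * w := by linarith
  have h10 := mul_le_mul_of_nonneg_left h9 hl.le
  have h12 := mul_le_mul_of_nonneg_right h84 hw
  have h13 := mul_le_mul_of_nonneg_right h84 hβ0
  have h14 : 0 ≤ ε * β := by positivity
  have h15 : (w - β) * ε ≤ 2 * e := by linarith
  have h16 : w - β ≤ 2 * e / ε := (le_div_iff₀ hε).2 h15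
  linarith

namespace ILich

variable {μ : Measure E} [IsProbabilityMeasure μ] {c u : E → ℝ} {R τ : ℝ}

theorem int_lin {F : Type} [NormedAddCommGroup F] (ht : Tail μ) (hc : Cost c R)
    (h : Opt μ c τ u) {G : E × E → F} (hG : AEStronglyMeasurable G (cpl μ c τ u)) {C : ℝ}
    (hb : ∀ p, ‖G p‖ ≤ C * (1 + ‖p.1‖ + ‖p.2‖)) : Integrable G (cpl μ c τ u) :=
  cpl_int ht hc h hG (C := C) fun p => (hb p).trans (by
    linarith [add_one_le_exp (C * (1 + ‖p.1‖ + ‖p.2‖))])

theorem int_sq (ht : Tail μ) (hc : Cost c R) (h : Opt μ c τ u) {G : E × E → ℝ}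
    (hG : Continuous G) {C : ℝ} (hb : ∀ p, |G p| ≤ C * (1 + ‖p.1‖ + ‖p.2‖)) :
    Integrable (fun p => G p ^ 2) (cpl μ c τ u) :=
  cpl_int ht hc h (hG.pow 2).aestronglyMeasurable (C := 2 * C) fun p => by
    have h1 : |G p| ≤ exp (C * (1 + ‖p.1‖ + ‖p.2‖)) := (hb p).trans (by
      linarith [add_one_le_exp (C * (1 + ‖p.1‖ + ‖p.2‖))])
    have h2 := pow_le_pow_left₀ (abs_nonneg _) h1 2
    rw [← exp_nat_mul] at h2
    rw [Real.norm_eq_abs, abs_pow]
    refine h2.trans (le_of_eq ?_)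
    congr 1
    push_cast
    ring

theorem sq_mean_le {α : Type} [MeasurableSpace α] {ν : Measure α} [IsProbabilityMeasure ν]
    {g : α → ℝ} (h1 : Integrable g ν) (h2 : Integrable (fun x => g x ^ 2) ν) :
    (∫ x, g x ∂ν) ^ 2 ≤ ∫ x, g x ^ 2 ∂ν := by
  set m := ∫ x, g x ∂ν with hm
  have h3 : ∫ x, (2 * m * g x - m ^ 2) ∂ν ≤ ∫ x, g x ^ 2 ∂ν :=
    integral_mono ((h1.const_mul _).sub (integrable_const _)) h2 fun x => by
      nlinarith [sq_nonneg (g x - m)]
  rw [integral_sub (h1.const_mul _) (integrable_const _), integral_const_mul, ← hm] at h3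
  simp only [integral_const, probReal_univ, smul_eq_mul, one_mul] at h3
  nlinarith

/-- First and second moments of the displacement. -/
theorem moments (hs : SG μ b L 0) (hL : 0 < L) (hc : Cost c R) (h : Opt μ c τ u) :
    ‖∫ p, (p.2 - p.1) ∂cpl μ c τ u‖ ^ 2 ≤
        4 * L * ∫ y, rh μ c τ u y * log (rh μ c τ u y) ∂μ ∧
      ∫ p, ‖p.2 - p.1‖ ^ 2 ∂cpl μ c τ u ≤
        16 * L * (∫ y, rh μ c τ u y * log (rh μ c τ u y) ∂μ + Module.finrank ℝ E) := by
  have ht := hs.tail hL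
  have hm := rh_meas ht hc h.lg τ
  have hx := rh_xg ht hc h.lg τ
  have h1 := rh_one ht hc h.lg τ
  have h0 : ∀ y, 0 ≤ rh μ c τ u y := fun y => (exp_pos _).le
  have hb1 : ∀ p : E × E, ‖p.1 - b‖ ≤ (1 + ‖b‖) * (1 + ‖p.1‖ + ‖p.2‖) := fun p => by
    nlinarith [norm_sub_le p.1 b, norm_nonneg p.1, norm_nonneg p.2, norm_nonneg b,
      mul_nonneg (norm_nonneg b) (norm_nonneg p.1), mul_nonneg (norm_nonneg b) (norm_nonneg p.2)]
  have hb2 : ∀ p : E × E, ‖p.2 - b‖ ≤ (1 + ‖b‖) * (1 + ‖p.1‖ + ‖p.2‖) := fun p => by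
    nlinarith [norm_sub_le p.2 b, norm_nonneg p.1, norm_nonneg p.2, norm_nonneg b,
      mul_nonneg (norm_nonneg b) (norm_nonneg p.1), mul_nonneg (norm_nonneg b) (norm_nonneg p.2)]
  have sm : StronglyMeasurable fun x : E => x - b :=
    (continuous_id.sub continuous_const).stronglyMeasurable
  have sm2 : StronglyMeasurable fun x : E => ‖x - b‖ ^ 2 :=
    (by fun_prop : Continuous fun x : E => ‖x - b‖ ^ 2).stronglyMeasurable
  have xg1 : XG fun _ : E => (1 : ℝ) := XG.of_bdd (C := 1) fun _ => by simp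
  constructor
  · have i1 : Integrable (fun p : E × E => p.1 - b) (cpl μ c τ u) :=
      int_lin ht hc h (by fun_prop : Continuous _).aestronglyMeasurable hb1
    have i2 : Integrable (fun p : E × E => p.2 - b) (cpl μ c τ u) :=
      int_lin ht hc h (by fun_prop : Continuous _).aestronglyMeasurable hb2
    have e : ∫ p, (p.2 - p.1) ∂cpl μ c τ u =
        ∫ p, (p.2 - b) ∂cpl μ c τ u - ∫ p, (p.1 - b) ∂cpl μ c τ u := by
      rw [← integral_sub i2 i1]
      simp
    have z := hs.mean hL (w := fun _ => 1) measurable_const (fun _ => zero_le_one) xg1 (by simp)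
    simp only [one_smul, log_one, mul_zero, integral_zero] at z
    have z' : ∫ x, (x - b) ∂μ = 0 := by
      rw [← norm_eq_zero]
      nlinarith [norm_nonneg (∫ x, (x - b) ∂μ)]
    rw [e, cpl_int_fst ht hc h sm, cpl_int_snd ht hc h sm, z', sub_zero]
    exact hs.mean hL hm h0 hx h1
  · have i1 := int_sq ht hc h (G := fun p => ‖p.1 - b‖) (by fun_prop)
      fun p => by simpa only [abs_norm] using hb1 p
    have i2 := int_sq ht hc h (G := fun p => ‖p.2 - b‖) (by fun_prop)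
      fun p => by simpa only [abs_norm] using hb2 p
    have h2 : ∫ p, ‖p.2 - p.1‖ ^ 2 ∂cpl μ c τ u ≤
        ∫ p, (2 * ‖p.2 - b‖ ^ 2 + 2 * ‖p.1 - b‖ ^ 2) ∂cpl μ c τ u := by
      refine integral_mono_of_nonneg (Eventually.of_forall fun p => sq_nonneg _)
        ((i2.const_mul 2).add (i1.const_mul 2)) (Eventually.of_forall fun p => ?_)
      have h3 : ‖p.2 - p.1‖ ≤ ‖p.2 - b‖ + ‖p.1 - b‖ := by
        have := norm_sub_le (p.2 - b) (p.1 - b)
        rwa [sub_sub_sub_cancel_right] at this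
      have h4 := pow_le_pow_left₀ (norm_nonneg _) h3 2
      change ‖p.2 - p.1‖ ^ 2 ≤ 2 * ‖p.2 - b‖ ^ 2 + 2 * ‖p.1 - b‖ ^ 2
      nlinarith [sq_nonneg (‖p.2 - b‖ - ‖p.1 - b‖)]
    rw [integral_add (i2.const_mul 2) (i1.const_mul 2), integral_const_mul, integral_const_mul,
      cpl_int_fst ht hc h sm2, cpl_int_snd ht hc h sm2] at h2
    have s1 := hs.second hL hm h0 hx
    have s2 := hs.second hL (w := fun _ => 1) measurable_const (fun _ => zero_le_one) xg1
    simp only [Ent, h1, log_one, mul_zero, sub_zero, one_mul, add_zero, integral_const,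
      probReal_univ, smul_eq_mul, zero_add] at s1 s2 h2
    nlinarith

end ILich

/-- The maximal value is small. -/
theorem psi_small (hV : Pot V ε) (hε : 0 < ε) (hs : SG (ms V) b L 0) (hL : 0 < L) {l : ℝ}
    (hl : 0 < l) (h84 : 84 * L * l ^ 2 ≤ ε) {R : ℝ} (hR : 0 < R)
    (hR2 : 16 * L * (l + Module.finrank ℝ E) ≤ 17 * L ^ 2 * l ^ 2 * R ^ 2) {d : ℝ} (hd : 0 < d) :
    ∃ η : ℝ, 0 < η ∧ ∀ u, LG u →
      l * η * Psi (ms V) (fun z => η⁻¹ * cR R z) (l * η) u ≤ d := by
  have := hV.prob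
  have := hV.openPos
  have ht := hs.tail hL
  set μ := ms V with hμ
  set d' := min 1 (d / (4 * l)) with hd'
  have hd0 : 0 < d' := lt_min one_pos (by positivity)
  have hd1 : d' ≤ 1 := min_le_left _ _
  have hd2 : 4 * l * d' ≤ d := by
    have := min_le_right 1 (d / (4 * l))
    rw [← hd', le_div_iff₀ (by positivity)] at this
    linarith
  have hr : 0 < d' / (4 * R) := by positivity
  obtain ⟨C, hC⟩ := hV.ball hr
  obtain ⟨Cg, hCg⟩ := hV.grow
  have hC0 : 0 ≤ C := by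
    have h1 := (hC 0).trans measureReal_le_one
    rw [exp_le_one_iff] at h1
    simpa using h1
  set Γ := ∫ x, C * (1 + ‖x‖ ^ 2) ∂μ with hΓ
  set J := ∫ x, ‖gradient V x‖ ^ 2 ∂μ with hJ
  have hΓ0 : 0 ≤ Γ := integral_nonneg fun x => by positivity
  have hJ0 : 0 ≤ J := integral_nonneg fun x => by positivity
  set η := min (d' / (2 * (Γ + 1))) (d' * ε / (J + 1)) with hηd
  have hη : 0 < η := lt_min (by positivity) (by positivity)
  have hη1 : η * Γ ≤ d' / 2 := by
    have := min_le_left (d' / (2 * (Γ + 1))) (d' * ε / (J + 1))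
    rw [← hηd, le_div_iff₀ (by positivity)] at this
    nlinarith
  have hη2 : η * J ≤ d' * ε := by
    have := min_le_right (d' / (2 * (Γ + 1))) (d' * ε / (J + 1))
    rw [← hηd, le_div_iff₀ (by positivity)] at this
    nlinarith
  refine ⟨η, hη, fun u' hu' => ?_⟩
  have hcR := cR_cost (E := E) hR
  obtain ⟨hc, hcg⟩ := hcR.const_mul (inv_nonneg.2 hη.le)
  set c : E → ℝ := fun z => η⁻¹ * cR R z with hcd
  have hτ : 0 < l * η := by positivity
  obtain ⟨u, hu⟩ := exists_opt ht hc hτ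
  refine (mul_le_mul_of_nonneg_left (hu.max u' hu') hτ.le).trans ?_
  by_cases hP : l * η * Psi μ c (l * η) u ≤ 0
  · linarith
  push Not at hP
  have := cpl_prob ht hc hu
  set ν := cpl μ c (l * η) u with hν
  set H := ∫ y, rh μ c (l * η) u y * log (rh μ c (l * η) u y) ∂μ with hH
  set w := ∫ p, cR R (p.2 - p.1) ∂ν with hw
  have hH0 : 0 ≤ H := by
    have hx := rh_xg ht hc hu.lg (l * η)
    have hm := rh_meas ht hc hu.lg (l * η)
    have h0 : ∀ y, 0 ≤ rh μ c (l * η) u y := fun y => (exp_pos _).le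
    have h1 := Ent_nonneg (μ := μ) h0 (ht.int hm.aestronglyMeasurable hx)
      (ht.int (hm.mul hm.log).aestronglyMeasurable (hx.mul_log h0))
    simpa only [Ent, rh_one ht hc hu.lg (l * η), log_one, mul_zero, sub_zero] using h1
  have hb := cpl_bound ht hc hu hτ hr (G := fun x => C * (1 + ‖x‖ ^ 2)) (by fun_prop)
    (XG.of_quad (C := C) fun x => le_of_eq (by rw [Real.norm_eq_abs, abs_of_nonneg (by positivity)]))
    hC
  have e1 : ∫ p, c (p.2 - p.1) ∂ν = η⁻¹ * w := integral_const_mul _ _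
  rw [← hν, ← hH, ← hΓ, e1] at hb
  have hb' : l * η * Psi μ c (l * η) u + H ≤ l * (w + (d' / 2 + η * Γ)) := by
    have h1 := mul_le_mul_of_nonneg_left hb hτ.le
    have e2 : l * η * (Psi μ c (l * η) u + (l * η)⁻¹ * H) = l * η * Psi μ c (l * η) u + H := by
      field_simp
    have e3 : l * η * (η⁻¹ * w + 2 * (η⁻¹ * R) * (d' / (4 * R)) + Γ) =
        l * (w + (d' / 2 + η * Γ)) := by
      field_simp
      ring
    rwa [e2, e3] at h1
  have dl : ∀ p : E × E, ‖p.2 - p.1‖ ≤ 1 * (1 + ‖p.1‖ + ‖p.2‖) := fun p => by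
    linarith [norm_sub_le p.2 p.1]
  have iδ : Integrable (fun p : E × E => p.2 - p.1) ν :=
    ILich.int_lin ht hc hu (by fun_prop : Continuous _).aestronglyMeasurable dl
  have iδ2 : Integrable (fun p : E × E => ‖p.2 - p.1‖ ^ 2) ν :=
    ILich.int_sq ht hc hu (G := fun p => ‖p.2 - p.1‖) (by fun_prop)
      fun p => by simpa only [abs_norm] using dl p
  have mδ : Measurable fun p : E × E => p.2 - p.1 := by fun_prop
  have iw : Integrable (fun p : E × E => cR R (p.2 - p.1)) ν :=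
    (iδ.norm.const_mul R).mono' (hcR.cont.measurable.comp mδ).aestronglyMeasurable
      (Eventually.of_forall fun p => by
        rw [Real.norm_eq_abs, abs_of_nonneg (hcR.nonneg _)]
        exact cR_le hR _)
  have mp : Measurable fun p : E × E => gradient (cR R) (p.2 - p.1) :=
    (measurable_grad _).comp mδ
  have ip : Integrable (fun p : E × E => gradient (cR R) (p.2 - p.1)) ν :=
    Integrable.of_bound mp.aestronglyMeasurable R (Eventually.of_forall fun p => hcR.bdd _)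
  have mV : Measurable fun p : E × E => gradient V p.2 - gradient V p.1 :=
    ((measurable_grad V).comp measurable_snd).sub ((measurable_grad V).comp measurable_fst)
  have hCg0 : 0 ≤ Cg := by simpa using (norm_nonneg _).trans (hCg 0)
  have iV : Integrable (fun p : E × E =>
      ⟪gradient (cR R) (p.2 - p.1), gradient V p.2 - gradient V p.1⟫) ν := by
    refine ILich.int_lin ht hc hu (mp.inner mV).aestronglyMeasurable (C := R * (2 * Cg))
      fun p => (norm_inner_le_norm _ _).trans ?_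
    rw [mul_assoc]
    refine mul_le_mul (hcR.bdd _) ((norm_sub_le _ _).trans ?_) (norm_nonneg _) hR.le
    nlinarith [hCg p.1, hCg p.2, mul_nonneg hCg0 (norm_nonneg p.1),
      mul_nonneg hCg0 (norm_nonneg p.2)]
  obtain ⟨m1, m2⟩ := ILich.moments hs hL hc hu
  rw [← hν, ← hH] at m1 m2
  have hw0 : 0 ≤ w := integral_nonneg fun p => hcR.nonneg _
  have hw2 : w ^ 2 ≤ R ^ 2 * (16 * L * (H + Module.finrank ℝ E)) := by
    have h1 : w ≤ R * ∫ p, ‖p.2 - p.1‖ ∂ν := by
      rw [← integral_const_mul]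
      exact integral_mono iw (iδ.norm.const_mul R) fun p => cR_le hR _
    have h2 := pow_le_pow_left₀ hw0 h1 2
    rw [mul_pow] at h2
    exact h2.trans (mul_le_mul_of_nonneg_left ((ILich.sq_mean_le iδ.norm iδ2).trans m2)
      (sq_nonneg R))
  have hp : ‖∫ p, gradient (cR R) (p.2 - p.1) ∂ν‖ ≤ ‖∫ p, (p.2 - p.1) ∂ν‖ + w / R := by
    have h1 : ‖∫ p, ((p.2 - p.1) - gradient (cR R) (p.2 - p.1)) ∂ν‖ ≤ w / R := by
      rw [hw, ← integral_div]
      exact norm_integral_le_of_norm_le (iw.div_const R)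
        (Eventually.of_forall fun p => cR_rem hR _)
    rw [integral_sub iδ ip] at h1
    linarith [norm_sub_norm_le (∫ p, gradient (cR R) (p.2 - p.1) ∂ν) (∫ p, (p.2 - p.1) ∂ν),
      norm_sub_rev (∫ p, gradient (cR R) (p.2 - p.1) ∂ν) (∫ p, (p.2 - p.1) ∂ν)]
  have h2 := second_order hV ht hc hτ hu
  rw [← hμ, ← hν, ← hJ] at h2
  simp only [hcg, real_inner_smul_left, integral_const_mul, integral_smul, norm_smul,
    Real.norm_eq_abs, abs_of_pos (inv_pos.2 hη)] at h2
  have h3 : ε * w ≤ l * ‖∫ p, gradient (cR R) (p.2 - p.1) ∂ν‖ ^ 2 + η * J := by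
    have h4 : ε * w ≤ ∫ p, ⟪gradient (cR R) (p.2 - p.1), gradient V p.2 - gradient V p.1⟫ ∂ν := by
      rw [hw, ← integral_const_mul]
      exact integral_mono (iw.const_mul ε) iV fun p => cR_mono hR hε.le (hV.mono p.1 p.2)
    have h5 := mul_le_mul_of_nonneg_left h2 hη.le
    have e2 : η * (l * η * (η⁻¹ * ‖∫ p, gradient (cR R) (p.2 - p.1) ∂ν‖) ^ 2 + J) =
        l * ‖∫ p, gradient (cR R) (p.2 - p.1) ∂ν‖ ^ 2 + η * J := by
      field_simp
    rw [e2, ← mul_assoc, mul_inv_cancel₀ hη.ne', one_mul] at h5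
    exact h4.trans h5
  have hβ0 : 0 ≤ d' / 2 + η * Γ := by positivity
  have h4 := ilich_num hε hL hl h84 (Nat.cast_nonneg _) hR hR2 hβ0 (by linarith)
    (by positivity) hw0 hH0 (by linarith) (norm_nonneg _) m1 (norm_nonneg _) hp hw2 h3
  have h5 : 2 * (η * J) / ε ≤ 2 * d' := by
    rw [div_le_iff₀ hε]
    linarith
  have h6 : l * (w + (d' / 2 + η * Γ)) ≤ l * (4 * d') :=
    mul_le_mul_of_nonneg_left (by linarith) hl.le
  linarith

theorem ic_of_pot (hV : Pot V ε) (hε : 0 < ε) (hs : SG (ms V) b L 0) (hL : 0 < L) {κ : ℝ}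
    (hκ : 0 < κ) (h : 756 * L * κ ^ 2 ≤ ε) : IC (ms V) κ := by
  rintro a g ha hg ⟨M, hM⟩ hab
  have := hV.prob
  have ht := hs.tail hL
  set μ := ms V with hμ
  have hM0 : 0 ≤ M := (abs_nonneg _).trans (hM 0).1
  have hl : 0 < 3 * κ := by positivity
  set l := 3 * κ with hld
  set n : ℝ := ((Module.finrank ℝ E : ℕ) : ℝ) with hn
  have hn0 : 0 ≤ n := Nat.cast_nonneg _
  set R := 1 + 2 * M / l + 16 * L * (l + n) / (17 * L ^ 2 * l ^ 2) with hRd
  have q1 : 0 ≤ 2 * M / l := by positivity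
  have q2 : 0 ≤ 16 * L * (l + n) / (17 * L ^ 2 * l ^ 2) := by positivity
  have hR1 : 1 ≤ R := by linarith
  have hR : 0 < R := by linarith
  have hRR : R ≤ R ^ 2 := by nlinarith
  have hR2 : 16 * L * (l + n) ≤ 17 * L ^ 2 * l ^ 2 * R ^ 2 := by
    have h1 : 16 * L * (l + n) / (17 * L ^ 2 * l ^ 2) ≤ R ^ 2 := by linarith
    rw [div_le_iff₀ (by positivity)] at h1
    linarith
  have hR3 : 2 * M ≤ l * R ^ 2 := by
    have h1 : 2 * M / l ≤ R ^ 2 := by linarith
    rw [div_le_iff₀ hl] at h1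
    linarith
  have hcR := cR_cost (E := E) hR
  have hab' : ∀ x y, a y ≤ g x + l * cR R (y - x) := fun x y => by
    have h1 := mul_le_mul_of_nonneg_left (cR_ge hR (y - x)) hl.le
    rcases min_cases (‖y - x‖ ^ 2 / 3) (R ^ 2) with ⟨e, -⟩ | ⟨e, -⟩
    · rw [e, hld] at h1
      rw [hld]
      linarith [hab x y]
    · rw [e] at h1
      linarith [(abs_le.1 (hM y).1).2, (abs_le.1 (hM x).2).1]
  have ia : Integrable (fun y => exp (a y)) μ :=
    Integrable.of_bound ha.exp.aestronglyMeasurable (exp M) (Eventually.of_forall fun y => by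
      rw [Real.norm_eq_abs, abs_of_pos (exp_pos _)]
      exact exp_le_exp.2 (abs_le.1 (hM y).1).2)
  have hpos := integral_exp_pos ia
  rw [← log_le_iff_le_exp hpos]
  refine le_of_forall_pos_le_add fun d hd => ?_
  obtain ⟨η, hη, hP⟩ := psi_small hV hε hs hL hl (by rw [hld]; linarith) hR hR2 hd
  obtain ⟨hc, -⟩ := hcR.const_mul (inv_nonneg.2 hη.le)
  set c : E → ℝ := fun z => η⁻¹ * cR R z with hcd
  have hτ : 0 < l * η := by positivity
  have hg' : LG g := ⟨hg, M, fun x => (hM x).2.trans (by nlinarith [norm_nonneg x])⟩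
  have hu := hg'.const_mul (-(l * η)⁻¹)
  have h1 := hP _ hu
  have h2 : ∀ y, a y ≤ -(l * η) * Tr μ c (fun x => -(l * η)⁻¹ * g x) y := fun y => by
    have h3 : exp (Tr μ c (fun x => -(l * η)⁻¹ * g x) y) ≤ exp (-(l * η)⁻¹ * a y) := by
      rw [exp_Tr ht hc hu]
      have h4 := integral_mono (Tr_int ht hc hu y) (integrable_const (exp (-(l * η)⁻¹ * a y)))
        fun x => exp_le_exp.2 (by
          have h5 := mul_le_mul_of_nonneg_left (hab' x y) (inv_pos.2 hτ).le
          have e : (l * η)⁻¹ * (g x + l * cR R (y - x)) =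
              (l * η)⁻¹ * g x + η⁻¹ * cR R (y - x) := by field_simp
          rw [e] at h5
          change -(l * η)⁻¹ * g x - η⁻¹ * cR R (y - x) ≤ _
          linarith)
      simpa using h4
    have h6 := mul_le_mul_of_nonneg_left (exp_le_exp.1 h3) hτ.le
    have e : l * η * (-(l * η)⁻¹ * a y) = -a y := by field_simp
    rw [e] at h6
    linarith
  have h3 : ∫ y, exp (a y) ∂μ ≤ Zf μ c (l * η) fun x => -(l * η)⁻¹ * g x :=
    integral_mono ia (Zf_int ht hc hu _) fun y => exp_le_exp.2 (h2 y)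
  have h4 := log_le_log hpos h3
  unfold Psi at h1
  rw [integral_const_mul] at h1
  have e : l * η * (-(l * η)⁻¹ * ∫ x, g x ∂μ +
      (l * η)⁻¹ * log (Zf μ c (l * η) fun x => -(l * η)⁻¹ * g x)) =
      -∫ x, g x ∂μ + log (Zf μ c (l * η) fun x => -(l * η)⁻¹ * g x) := by field_simp
  rw [e] at h1
  linarith

end Vale.Agent.P245B
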