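import Vale.Agent.P245B.Smo

/-! Removing the smoothing. -/

open MeasureTheory Real Set Filter Topology
open scoped ENNReal RealInnerProductSpace

noncomputable section

namespace Vale.Agent.P245B

open Vale.Agent.P245 (Ent gibbs Ent_nonneg)

set_option linter.unusedSectionVars false

variable {E : Type} [NormedAddCommGroup E] [InnerProductSpace ℝ E] [FiniteDimensional ℝ E]
  [CompleteSpace E] [MeasurableSpace E] [BorelSpace E]

variable {μ : Measure E} [IsProbabilityMeasure μ]

namespace Lim

theorem rep {F : E → ℝ} (hF : Continuous F) {M : ℝ} (hM : ∀ x, |F x| ≤ M) {t : ℝ} (ht : 0 < t) :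
    ∫ y, F y ∂ms (Vt μ t) = ∫ x, (∫ z : E, F (x + √t • z) * ga 1 z) ∂μ := by
  have hg : Continuous fun p : E × E => ga t (p.1 - p.2) :=
    (ga_cont t).comp (continuous_fst.sub continuous_snd)
  have h1 : Integrable (fun p : E × E => ga t (p.1 - p.2)) ((volume : Measure E).prod μ) := by
    refine (integrable_prod_iff' hg.aestronglyMeasurable).2 ⟨ae_of_all _ fun x =>
      (ga_int ht).comp_sub_right x, ?_⟩
    have e : (fun x : E => ∫ y : E, ‖ga t (y - x)‖) = fun _ => 1 := funext fun x => by
      rw [integral_sub_right_eq_self (fun y : E => ‖ga t y‖) x, ← ga_one (E := E) ht]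
      exact integral_congr_ae (ae_of_all _ fun y => Real.norm_of_nonneg (ga_pos ht y).le)
    rw [e]
    exact integrable_const _
  have h2 : Integrable (Function.uncurry fun y x : E => F y * ga t (y - x))
      ((volume : Measure E).prod μ) :=
    h1.bdd_mul (c := M) (hF.comp continuous_fst).aestronglyMeasurable (ae_of_all _ fun p => hM p.1)
  rw [integral_ms (Vt_diff ht).continuous.measurable]
  simp only [exp_Vt ht, ← integral_const_mul]
  rw [integral_integral_swap h2]
  refine integral_congr_ae (ae_of_all _ fun x => ?_)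
  have e := integral_add_left_eq_self (μ := (volume : Measure E)) (fun y => F y * ga t (y - x)) x
  simp only [add_sub_cancel_left] at e
  exact e.symm.trans (ga_scale ht fun z => F (x + z))

end Lim

theorem Vt_lim {F : E → ℝ} (hF : Continuous F) {M : ℝ} (hM : ∀ x, |F x| ≤ M) :
    Tendsto (fun k : ℕ => ∫ y, F y ∂ms (Vt μ (1 / ((k : ℝ) + 1)))) atTop (𝓝 (∫ x, F x ∂μ)) := by
  have hp : ∀ k : ℕ, 0 < 1 / ((k : ℝ) + 1) := fun k => by positivity
  simp only [fun k => Lim.rep (μ := μ) hF hM (hp k)]
  have hb : ∀ (s : ℝ) (x z : E), ‖F (x + s • z) * ga 1 z‖ ≤ M * ga 1 z := fun s x z => by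
    rw [norm_mul, Real.norm_of_nonneg (ga_pos one_pos z).le]
    exact mul_le_mul_of_nonneg_right (hM _) (ga_pos one_pos z).le
  have hc : ∀ s : ℝ, Continuous fun p : E × E => F (p.1 + s • p.2) * ga 1 p.2 := fun s =>
    (hF.comp (by fun_prop)).mul ((ga_cont 1).comp continuous_snd)
  refine tendsto_integral_of_dominated_convergence (fun _ => M) (fun k => ?_) (integrable_const _)
    (fun k => ae_of_all _ fun x => ?_) (ae_of_all _ fun x => ?_)
  · exact ((hc _).stronglyMeasurable.integral_prod_right' (ν := volume)).aestronglyMeasurable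
  · refine (norm_integral_le_of_norm_le ((ga_int one_pos).const_mul M)
      (ae_of_all _ (hb _ x))).trans_eq ?_
    rw [integral_const_mul, ga_one one_pos, mul_one]
  · have e : F x = ∫ z : E, F x * ga 1 z := by rw [integral_const_mul, ga_one one_pos, mul_one]
    rw [e]
    refine tendsto_integral_of_dominated_convergence (fun z => M * ga 1 z)
      (fun k => ((hc _).comp (Continuous.prodMk_right x)).aestronglyMeasurable)
      ((ga_int one_pos).const_mul M) (fun k => ae_of_all _ (hb _ x)) (ae_of_all _ fun z => ?_)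
    have h1 : Tendsto (fun k : ℕ => √(1 / ((k : ℝ) + 1))) atTop (𝓝 0) := by
      simpa using (tendsto_one_div_add_atTop_nhds_zero_nat (𝕜 := ℝ)).sqrt
    have h2 : Tendsto (fun k : ℕ => x + √(1 / ((k : ℝ) + 1)) • z) atTop (𝓝 x) := by
      simpa using (h1.smul_const z).const_add x
    exact ((hF.tendsto x).comp h2).mul_const _

theorem lsi_lim {K : ℕ → ℝ} {K₀ : ℝ} (hK : Tendsto K atTop (𝓝 K₀))
    (h : ∀ᶠ k : ℕ in atTop, LSI (ms (Vt μ (1 / ((k : ℝ) + 1)))) (K k)) : LSI μ K₀ := by
  intro f hf
  obtain ⟨M, hM, hb⟩ := hf.bdd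
  have h2 : ∀ x, |f x ^ 2| ≤ M ^ 2 := fun x => by
    rw [abs_pow]
    exact pow_le_pow_left₀ (abs_nonneg _) (hb x).1 2
  obtain ⟨C, hC⟩ := (isCompact_Icc (a := -M ^ 2) (b := M ^ 2)).exists_bound_of_continuousOn
    continuous_mul_log.continuousOn
  have t1 := Vt_lim (μ := μ) (hf.cont.pow 2) h2
  have t2 := Vt_lim (μ := μ) (continuous_mul_log.comp (hf.cont.pow 2)) fun x =>
    hC _ (abs_le.1 (h2 x))
  have t3 := Vt_lim (μ := μ) (M := M ^ 2) (hf.grad_cont.norm.pow 2) fun x => by
    rw [Pi.pow_apply, abs_pow, abs_norm]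
    exact pow_le_pow_left₀ (norm_nonneg _) (hb x).2 2
  exact le_of_tendsto_of_tendsto (t2.sub ((continuous_mul_log.tendsto _).comp t1)) (hK.mul t3)
    (h.mono fun k hk => hk f hf)

end Vale.Agent.P245B
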