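import Vale.Agent.P245B.Smo

/-! Gaussian smoothing keeps uniform log-concavity. -/

open MeasureTheory Real Set Filter Topology
open scoped ENNReal RealInnerProductSpace

noncomputable section

namespace Vale.Agent.P245B

open Vale.Agent.P245 (Ent gibbs Ent_nonneg)

set_option linter.unusedSectionVars false

variable {E : Type} [NormedAddCommGroup E] [InnerProductSpace ℝ E] [FiniteDimensional ℝ E]
  [CompleteSpace E] [MeasurableSpace E] [BorelSpace E]

namespace SmoC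

theorem norm_comb (u v : E) {a b : ℝ} (hab : a + b = 1) :
    ‖a • u + b • v‖ ^ 2 = a * ‖u‖ ^ 2 + b * ‖v‖ ^ 2 - a * b * ‖u - v‖ ^ 2 := by
  have hb : b = 1 - a := by linarith
  subst hb
  rw [norm_add_sq_real, norm_sub_sq_real, norm_smul, norm_smul, inner_smul_left,
    inner_smul_right, mul_pow, mul_pow, Real.norm_eq_abs, Real.norm_eq_abs, sq_abs, sq_abs]
  simp only [conj_trivial]
  ring

theorem quad_nonneg {ε t : ℝ} (hε : 0 ≤ ε) (ht : 0 < t) (x y : E) :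
    ε / (1 + ε * t) / 2 * ‖y‖ ^ 2 ≤ ε / 2 * ‖x‖ ^ 2 + ‖y - x‖ ^ 2 / (2 * t) := by
  have h1 : ‖y‖ ≤ ‖x‖ + ‖y - x‖ := by
    have := norm_add_le x (y - x)
    rwa [add_sub_cancel] at this
  have h2 : ‖y‖ ^ 2 ≤ (‖x‖ + ‖y - x‖) ^ 2 := pow_le_pow_left₀ (norm_nonneg _) h1 2
  have hd : 0 < 1 + ε * t := by positivity
  generalize ‖x‖ = p at *
  generalize ‖y - x‖ = q at *
  calc ε / (1 + ε * t) / 2 * ‖y‖ ^ 2 ≤ ε / (1 + ε * t) / 2 * (p + q) ^ 2 :=
        mul_le_mul_of_nonneg_left h2 (by positivity)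
    _ = ε / 2 * p ^ 2 + q ^ 2 / (2 * t) - (ε * t * p - q) ^ 2 / (2 * t * (1 + ε * t)) := by
        field_simp
        ring
    _ ≤ ε / 2 * p ^ 2 + q ^ 2 / (2 * t) := by
        have : 0 ≤ (ε * t * p - q) ^ 2 / (2 * t * (1 + ε * t)) := by positivity
        linarith

/-- The integrand. -/
def G (ρ : E → ℝ) (e t : ℝ) (y x : E) : ℝ≥0∞ :=
  ENNReal.ofReal (ρ x * ga t (y - x) * exp (e / 2 * ‖y‖ ^ 2))

theorem G_meas {ρ : E → ℝ} (h : Measurable ρ) (e t : ℝ) (y : E) : Measurable (G ρ e t y) := by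
  unfold G
  have h1 : Measurable fun x : E => ga t (y - x) :=
    ((ga_cont t).comp (continuous_const.sub continuous_id)).measurable
  exact ((h.mul h1).mul_const _).ennreal_ofReal

theorem G_int {ρ : E → ℝ} {ε t : ℝ} (h : LCd ρ ε) (ht : 0 < t) {μ : Measure E}
    [IsProbabilityMeasure μ] (hμ : μ = volume.withDensity fun x => ENNReal.ofReal (ρ x))
    (e : ℝ) (y : E) :
    ∫⁻ x, G ρ e t y x = ENNReal.ofReal (exp (-(Vt μ t y - e / 2 * ‖y‖ ^ 2))) := by
  have hc : Continuous fun x : E => ga t (y - x) :=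
    (ga_cont t).comp (continuous_const.sub continuous_id)
  have hi : Integrable (fun x : E => ga t (y - x)) μ := by
    refine Integrable.of_bound hc.aestronglyMeasurable ((∫ w : E, gs t w)⁻¹) ?_
    refine Eventually.of_forall fun x => ?_
    rw [Real.norm_eq_abs, abs_of_pos (ga_pos ht _)]
    exact ga_le ht _
  have h1 : ENNReal.ofReal (exp (-Vt μ t y)) =
      ∫⁻ x, ENNReal.ofReal (ρ x) * ENNReal.ofReal (ga t (y - x)) := by
    rw [exp_Vt ht, ofReal_integral_eq_lintegral_ofReal hi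
      (Eventually.of_forall fun x => (ga_pos ht _).le)]
    conv_lhs => rw [hμ]
    rw [lintegral_withDensity_eq_lintegral_mul _ h.meas.ennreal_ofReal
      hc.measurable.ennreal_ofReal]
    rfl
  have h2 : -(Vt μ t y - e / 2 * ‖y‖ ^ 2) = -Vt μ t y + e / 2 * ‖y‖ ^ 2 := by ring
  have hm : Measurable fun x : E => ENNReal.ofReal (ρ x) * ENNReal.ofReal (ga t (y - x)) :=
    h.meas.ennreal_ofReal.mul hc.measurable.ennreal_ofReal
  rw [h2, exp_add, ENNReal.ofReal_mul (exp_pos _).le, h1, ← lintegral_mul_const _ hm]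
  refine lintegral_congr fun x => ?_
  unfold G
  rw [ENNReal.ofReal_mul (mul_nonneg (h.nonneg x) (ga_pos ht _).le),
    ENNReal.ofReal_mul (h.nonneg x)]

theorem G_exp {ρ : E → ℝ} {t : ℝ} (ht : 0 < t) (e : ℝ) (y x : E) (hx : 0 < ρ x) :
    G ρ e t y x = ENNReal.ofReal (exp (log (ρ x) - ‖y - x‖ ^ 2 / (2 * t) + e / 2 * ‖y‖ ^ 2 -
      log (∫ w : E, gs t w))) := by
  unfold G ga
  congr 1
  rw [exp_sub, exp_add, exp_sub, exp_log hx, exp_log (gs_pos ht), gs, exp_neg]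
  ring

theorem exp_comb (u v : ℝ) {a b : ℝ} (ha : 0 < a) (hb : 0 < b) :
    ENNReal.ofReal (exp u) ^ a * ENNReal.ofReal (exp v) ^ b =
      ENNReal.ofReal (exp (a * u + b * v)) := by
  rw [ENNReal.ofReal_rpow_of_nonneg (exp_pos _).le ha.le,
    ENNReal.ofReal_rpow_of_nonneg (exp_pos _).le hb.le, ← exp_mul, ← exp_mul,
    ← ENNReal.ofReal_mul (exp_pos _).le, ← exp_add, mul_comm u, mul_comm v]

theorem G_comb {ρ : E → ℝ} {ε t : ℝ} (h : LCd ρ ε) (hε : 0 ≤ ε) (ht : 0 < t) {a b : ℝ}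
    (ha : 0 < a) (hb : 0 < b) (hab : a + b = 1) (y y' x x' : E) :
    G ρ (ε / (1 + ε * t)) t y x ^ a * G ρ (ε / (1 + ε * t)) t y' x' ^ b ≤
      G ρ (ε / (1 + ε * t)) t (a • y + b • y') (a • x + b • x') := by
  rcases (h.nonneg x).eq_or_lt with hx | hx
  · have : G ρ (ε / (1 + ε * t)) t y x = 0 := by
      unfold G
      rw [← hx, zero_mul, zero_mul, ENNReal.ofReal_zero]
    rw [this, ENNReal.zero_rpow_of_pos ha, zero_mul]
    exact bot_le
  rcases (h.nonneg x').eq_or_lt with hx' | hx'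
  · have : G ρ (ε / (1 + ε * t)) t y' x' = 0 := by
      unfold G
      rw [← hx', zero_mul, zero_mul, ENNReal.ofReal_zero]
    rw [this, ENNReal.zero_rpow_of_pos hb, mul_zero]
    exact bot_le
  have hm : 0 < ρ (a • x + b • x') := h.convex hx hx' ha.le hb.le hab
  have hc := h.concave.2 (show x ∈ {x | 0 < ρ x} from hx) (show x' ∈ {x | 0 < ρ x} from hx')
    ha.le hb.le hab
  simp only [smul_eq_mul] at hc
  rw [G_exp ht _ _ _ hx, G_exp ht _ _ _ hx', G_exp ht _ _ _ hm, exp_comb _ _ ha hb]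
  refine ENNReal.ofReal_le_ofReal (exp_le_exp.2 ?_)
  have e1 : a • y + b • y' - (a • x + b • x') = a • (y - x) + b • (y' - x') := by
    rw [smul_sub, smul_sub]; abel
  have e2 : y - x - (y' - x') = y - y' - (x - x') := by abel
  have hq := quad_nonneg hε ht (x - x') (y - y')
  have hq' := mul_le_mul_of_nonneg_left hq (mul_pos ha hb).le
  rw [norm_comb _ _ hab] at hc
  rw [e1, norm_comb _ _ hab, norm_comb _ _ hab, e2]
  generalize log (∫ w : E, gs t w) = Z
  have hZ : Z = a * Z + b * Z := by rw [← add_mul, hab, one_mul]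
  generalize ε / (1 + ε * t) / 2 = e at *
  have k1 : ∀ p q r : ℝ, (a * p + b * q - a * b * r) / (2 * t) =
      a * (p / (2 * t)) + b * (q / (2 * t)) - a * b * (r / (2 * t)) := fun p q r => by ring
  rw [k1]
  nlinarith [hc, hq', hZ]

end SmoC

theorem Vt_cvx {ρ : E → ℝ} {ε t : ℝ} (h : LCd ρ ε) (hε : 0 ≤ ε) (ht : 0 < t) {μ : Measure E}
    [IsProbabilityMeasure μ] (hμ : μ = volume.withDensity fun x => ENNReal.ofReal (ρ x)) :
    ConvexOn ℝ univ fun y => Vt μ t y - ε / (1 + ε * t) / 2 * ‖y‖ ^ 2 := by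
  refine convexOn_iff_forall_pos.2 ⟨convex_univ, fun y _ y' _ a b ha hb hab => ?_⟩
  have hp := Vale.Agent.Lib.PL.prekopa_leindler (volume : Measure E) ha hb hab
    (SmoC.G_meas h.meas (ε / (1 + ε * t)) t y) (SmoC.G_meas h.meas (ε / (1 + ε * t)) t y')
    (SmoC.G_meas h.meas (ε / (1 + ε * t)) t (a • y + b • y'))
    (fun x x' => SmoC.G_comb h hε ht ha hb hab y y' x x')
  rw [SmoC.G_int h ht hμ, SmoC.G_int h ht hμ, SmoC.G_int h ht hμ, SmoC.exp_comb _ _ ha hb,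
    ENNReal.ofReal_le_ofReal_iff (exp_pos _).le, exp_le_exp] at hp
  simp only [smul_eq_mul]
  linarith

theorem pot_Vt {ρ : E → ℝ} {ε t : ℝ} (h : LCd ρ ε) (hε : 0 ≤ ε) (ht : 0 < t) {μ : Measure E}
    [IsProbabilityMeasure μ] (hμ : μ = volume.withDensity fun x => ENNReal.ofReal (ρ x))
    (hT : Tail μ) : Pot (Vt μ t) (ε / (1 + ε * t)) := by
  have hc := Vt_cvx h hε ht hμ
  have hc' : ConvexOn ℝ univ (Vt μ t) := by
    refine convexOn_iff_forall_pos.2 ⟨convex_univ, fun y _ y' _ a b ha hb hab => ?_⟩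
    have h1 := hc.2 (mem_univ y) (mem_univ y') ha.le hb.le hab
    simp only [smul_eq_mul] at h1 ⊢
    rw [SmoC.norm_comb _ _ hab] at h1
    have h2 : 0 ≤ ε / (1 + ε * t) / 2 * (a * b * ‖y - y'‖ ^ 2) := by positivity
    generalize ε / (1 + ε * t) / 2 = e at *
    nlinarith [h1, h2]
  obtain ⟨C, hC⟩ := Vt_bound hT ht
  exact ⟨Vt_diff ht, hc, grow_of_cvx (Vt_diff ht) hc' hC, Vt_prob ht⟩

end Vale.Agent.P245B
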