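import Vale.Agent.P245B.Boot
import Vale.Agent.P245B.SmoC
import Vale.Agent.P245B.Lim

/-! The two bounds for log-concave densities. -/

open MeasureTheory Real Set Filter Topology
open scoped ENNReal RealInnerProductSpace

noncomputable section

namespace Vale.Agent.P245B

open Vale.Agent.P245 (Ent gibbs Ent_nonneg)

set_option linter.unusedSectionVars false

variable {E : Type} [NormedAddCommGroup E] [InnerProductSpace ℝ E] [FiniteDimensional ℝ E]
  [CompleteSpace E] [MeasurableSpace E] [BorelSpace E]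

variable {ρ : E → ℝ} {μ : Measure E} [IsProbabilityMeasure μ] {a : ℝ}

theorem main_cube (h : LCd ρ 0) (hμ : μ = volume.withDensity fun x => ENNReal.ofReal (ρ x))
    (ha : 0 < a)
    (hs : ∀ θ : E, ‖θ‖ = 1 → ∫⁻ x, ENNReal.ofReal (exp (⟪x, θ⟫ ^ 2 / a ^ 2)) ∂μ ≤ 2)
    (h0 : ∫ x, x ∂μ = 0) {k : ℝ} (hk : 1 ≤ k) (hn : (Module.finrank ℝ E : ℝ) ≤ k ^ 3) :
    LSI μ (246000 * C1 ^ 2 * k * a ^ 2) := by
  have hC := one_le_C1
  have h1 := sg_of_psi ha hs
  have h2 := h1.center (by positivity)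
  rw [h0] at h2
  have hT : Tail μ := h1.tail (by positivity)
  refine lsi_lim (K := fun j : ℕ => 984000 * C1 * k * (C1 * (a ^ 2 / 4) + 1 / ((j : ℝ) + 1) / 2))
    ?_ (Eventually.of_forall fun j => ?_)
  · have t1 := ((tendsto_one_div_add_atTop_nhds_zero_nat (𝕜 := ℝ)).div_const 2).const_add
      (C1 * (a ^ 2 / 4))
    have t2 := t1.const_mul (984000 * C1 * k)
    have e : 984000 * C1 * k * (C1 * (a ^ 2 / 4) + 0 / 2) = 246000 * C1 ^ 2 * k * a ^ 2 := by ring
    rwa [e] at t2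
  · have ht : (0 : ℝ) < 1 / ((j : ℝ) + 1) := by positivity
    have hP := pot_Vt h le_rfl ht hμ hT
    rw [zero_div] at hP
    exact main_pot hP (sg_Vt ht h2) (by positivity) hk hn

theorem main_strong {ε : ℝ} (hε : 0 < ε) (h : LCd ρ ε)
    (hμ : μ = volume.withDensity fun x => ENNReal.ofReal (ρ x)) (ha : 0 < a)
    (hs : ∀ θ : E, ‖θ‖ = 1 → ∫⁻ x, ENNReal.ofReal (exp (⟪x, θ⟫ ^ 2 / a ^ 2)) ∂μ ≤ 2) :
    LSI μ (112 * C1 * a / √ε) := by
  have hC := one_le_C1
  have h1 := sg_of_psi ha hs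
  have h2 := h1.center (by positivity)
  have hT : Tail μ := h1.tail (by positivity)
  have hq : 0 < √ε := sqrt_pos.2 hε
  set κ := √ε / (14 * C1 * a) with hκd
  have hκ : 0 < κ := by positivity
  have e : 8 / κ = 112 * C1 * a / √ε := by
    rw [hκd]
    field_simp
    ring
  have e2 : κ ^ 2 = ε / (196 * C1 ^ 2 * a ^ 2) := by
    rw [hκd, div_pow, sq_sqrt hε.le]
    ring
  have hlt : 756 * (C1 * (a ^ 2 / 4) + 0 / 2) * κ ^ 2 < ε / (1 + ε * 0) := by
    have e3 : 756 * (C1 * (a ^ 2 / 4) + 0 / 2) * κ ^ 2 = 189 / (196 * C1) * ε := by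
      rw [e2]
      field_simp
      ring
    have h3 : 189 / (196 * C1) < 1 := by
      rw [div_lt_one (by positivity)]
      linarith
    rw [e3, mul_zero, add_zero, div_one]
    exact mul_lt_of_lt_one_left hε h3
  have t0 := tendsto_one_div_add_atTop_nhds_zero_nat (𝕜 := ℝ)
  have t1 := (((t0.div_const 2).const_add (C1 * (a ^ 2 / 4))).const_mul 756).mul_const (κ ^ 2)
  have t2 : Tendsto (fun j : ℕ => ε / (1 + ε * (1 / ((j : ℝ) + 1)))) atTop
      (𝓝 (ε / (1 + ε * 0))) :=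
    tendsto_const_nhds.div ((t0.const_mul ε).const_add 1) (by simp)
  refine lsi_lim (K := fun _ => 112 * C1 * a / √ε) tendsto_const_nhds ?_
  filter_upwards [t1.eventually_lt t2 hlt] with j hj
  have ht : (0 : ℝ) < 1 / ((j : ℝ) + 1) := by positivity
  rw [← e]
  exact lsi_of_pot (pot_Vt h hε.le ht hμ hT) (by positivity) (sg_Vt ht h2) (by positivity) hκ hj.le

end Vale.Agent.P245B
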