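import Vale.Agent.P245B.PotL
import Vale.Agent.P245B.TailL

/-! The quadratic perturbation. -/

open MeasureTheory Real Set Filter Topology
open scoped ENNReal RealInnerProductSpace

noncomputable section

namespace Vale.Agent.P245B

open Vale.Agent.P245 (Ent gibbs Ent_nonneg)

set_option linter.unusedSectionVars false

variable {E : Type} [NormedAddCommGroup E] [InnerProductSpace ℝ E] [FiniteDimensional ℝ E]
  [CompleteSpace E] [MeasurableSpace E] [BorelSpace E]

variable {μ : Measure E} {V : E → ℝ} {L s : ℝ}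

theorem Uq_cont (μ : Measure E) (s : ℝ) : Continuous (Uq μ s) := by
  unfold Uq
  fun_prop

theorem Uq_two (μ : Measure E) (s : ℝ) (x : E) : Uq μ (2 * s) x = 2 * Uq μ s x := by
  unfold Uq
  ring

theorem Uq_bdd (μ : Measure E) (hs : 0 ≤ s) (x : E) :
    exp (-Uq μ s x) ≤ exp (s / 2 * ∫ y, ‖y‖ ^ 2 ∂μ) := by
  rw [exp_le_exp, Uq]
  nlinarith [sq_nonneg ‖x‖]

theorem Uq_int [IsProbabilityMeasure μ] (hs : 0 ≤ s) :
    Integrable (fun x => exp (-Uq μ s x)) μ := by
  refine (integrable_const (exp (s / 2 * ∫ y, ‖y‖ ^ 2 ∂μ))).mono'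
    (Uq_cont μ s).neg.rexp.aestronglyMeasurable (Eventually.of_forall fun x => ?_)
  rw [Real.norm_of_nonneg (exp_pos _).le]
  exact Uq_bdd μ hs x

theorem exp_ph [IsProbabilityMeasure μ] (hs : 0 ≤ s) :
    exp (ph μ s) = ∫ x, exp (-Uq μ s x) ∂μ := by
  exact exp_log (integral_exp_pos (Uq_int hs))

theorem Uq_mean [IsProbabilityMeasure μ] (ht : Tail μ) (s : ℝ) :
    Integrable (Uq μ s) μ ∧ ∫ x, Uq μ s x ∂μ = 0 := by
  have h2 : Integrable (fun x : E => ‖x‖ ^ 2) μ := by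
    refine ht.int (by fun_prop) (XG.of_quad (C := 1) fun x => ?_)
    rw [Real.norm_of_nonneg (sq_nonneg _)]
    linarith
  have h3 := h2.sub (integrable_const (∫ y, ‖y‖ ^ 2 ∂μ))
  refine ⟨h3.const_mul (s / 2), ?_⟩
  unfold Uq
  rw [integral_const_mul, integral_sub h2 (integrable_const _)]
  simp

theorem ph_nonneg [IsProbabilityMeasure μ] (ht : Tail μ) (hs : 0 ≤ s) : 0 ≤ ph μ s := by
  have h1 := jensen_exp (Uq_mean ht s).1.neg (Uq_int hs)
  simp only [Pi.neg_apply] at h1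
  rw [integral_neg, (Uq_mean ht s).2, neg_zero, ← exp_ph hs] at h1
  exact exp_le_exp.1 h1

theorem ph_half [IsProbabilityMeasure μ] (hs : 0 ≤ s) : 2 * ph μ s ≤ ph μ (2 * s) := by
  have hs2 : 0 ≤ 2 * s := by linarith
  have hm : 0 < exp (ph μ s) := exp_pos _
  have h1 : ∫ x, 2 * exp (ph μ s) * exp (-Uq μ s x) ∂μ ≤
      ∫ x, (exp (-Uq μ (2 * s) x) + exp (ph μ s) ^ 2) ∂μ := by
    refine integral_mono ((Uq_int hs).const_mul _) ((Uq_int hs2).add (integrable_const _))
      fun x => ?_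
    have e : exp (-Uq μ (2 * s) x) = exp (-Uq μ s x) ^ 2 := by
      rw [Uq_two, sq, ← exp_add]
      congr 1
      ring
    simp only [e]
    nlinarith [sq_nonneg (exp (-Uq μ s x) - exp (ph μ s))]
  rw [integral_const_mul, integral_add (Uq_int hs2) (integrable_const _), ← exp_ph hs,
    ← exp_ph hs2] at h1
  simp only [integral_const, probReal_univ, smul_eq_mul, one_mul] at h1
  rw [← exp_le_exp]
  have e : exp (2 * ph μ s) = exp (ph μ s) ^ 2 := by
    rw [sq, ← exp_add]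
    congr 1
    ring
  rw [e]
  nlinarith

theorem ph_zero [IsProbabilityMeasure μ] : ph μ 0 = 0 := by
  simp [ph, Uq]

theorem ph_cont [IsProbabilityMeasure μ] : ContinuousOn (ph μ) (Ici 0) := by
  have e : ∀ s : ℝ, ∫ x, exp (-Uq μ s x) ∂μ =
      exp (s / 2 * ∫ y, ‖y‖ ^ 2 ∂μ) * ∫ x, exp (-(s / 2 * ‖x‖ ^ 2)) ∂μ := by
    intro s
    rw [← integral_const_mul]
    refine integral_congr_ae (Eventually.of_forall fun x => ?_)
    simp only [Uq]
    rw [← exp_add]
    congr 1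
    ring
  have h1 : ContinuousOn (fun s : ℝ => ∫ x, exp (-(s / 2 * ‖x‖ ^ 2)) ∂μ) (Ici 0) := by
    refine continuousOn_of_dominated (bound := fun _ => 1) (fun s _ => ?_) (fun s hs => ?_)
      (integrable_const _) (Eventually.of_forall fun x => ?_)
    · exact Continuous.aestronglyMeasurable (by fun_prop)
    · refine Eventually.of_forall fun x => ?_
      rw [Real.norm_of_nonneg (exp_pos _).le, exp_le_one_iff]
      have hs' : 0 ≤ s := hs
      have : 0 ≤ s / 2 * ‖x‖ ^ 2 := by positivity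
      linarith
    · exact Continuous.continuousOn (by fun_prop)
  have h2 : ContinuousOn (fun s : ℝ => ∫ x, exp (-Uq μ s x) ∂μ) (Ici 0) := by
    simp only [e]
    exact (Continuous.continuousOn (by fun_prop)).mul h1
  exact h2.log fun s hs => (integral_exp_pos (Uq_int hs)).ne'

namespace Pert

theorem meas_Vs (hV : Pot V 0) (s : ℝ) : Measurable (Vs V s) :=
  (hV.meas.add (Uq_cont (ms V) s).measurable).add_const _

theorem exp_Vs (V : E → ℝ) (s : ℝ) (F : E → ℝ) (x : E) :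
    F x * exp (-Vs V s x) = F x * exp (-Uq (ms V) s x - ph (ms V) s) * exp (-V x) := by
  rw [mul_assoc, ← exp_add, Vs]
  congr 2
  ring

theorem exp_split (μ : Measure E) (s : ℝ) (x : E) :
    exp (-Uq μ s x - ph μ s) = exp (-ph μ s) * exp (-Uq μ s x) := by
  rw [← exp_add]
  congr 1
  ring

end Pert

theorem integral_Vs (hV : Pot V 0) (s : ℝ) (F : E → ℝ) :
    ∫ x, F x ∂ms (Vs V s) = ∫ x, F x * exp (-Uq (ms V) s x - ph (ms V) s) ∂ms V := by
  rw [integral_ms (Pert.meas_Vs hV s), integral_ms hV.meas]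
  simp only [Pert.exp_Vs]

theorem integrable_Vs (hV : Pot V 0) (s : ℝ) (F : E → ℝ) :
    Integrable F (ms (Vs V s)) ↔
      Integrable (fun x => F x * exp (-Uq (ms V) s x - ph (ms V) s)) (ms V) := by
  rw [integrable_ms (Pert.meas_Vs hV s), integrable_ms hV.meas]
  simp only [Pert.exp_Vs]

theorem pot_Vs (hV : Pot V 0) (hs : 0 ≤ s) : Pot (Vs V s) s := by
  have := hV.prob
  have hq : ∀ x : E, HasFDerivAt (fun x : E => ‖x‖ ^ 2) (2 • innerSL ℝ x) x := fun x =>
    (hasStrictFDerivAt_norm_sq x).hasFDerivAt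
  have hd : ∀ x : E, HasFDerivAt (Vs V s)
      (fderiv ℝ V x + (s / 2) • (2 • innerSL ℝ x)) x := fun x =>
    ((hV.diff x).hasFDerivAt.add (((hq x).sub_const _).const_mul (s / 2))).add_const _
  refine ⟨fun x => (hd x).differentiableAt, ?_, ?_, ?_⟩
  · have h1 := hV.cvx.add_const (-(s / 2 * ∫ y, ‖y‖ ^ 2 ∂ms V) + ph (ms V) s)
    have e : (fun x => Vs V s x - s / 2 * ‖x‖ ^ 2) = (fun x => V x - 0 / 2 * ‖x‖ ^ 2) +
        fun _ => -(s / 2 * ∫ y, ‖y‖ ^ 2 ∂ms V) + ph (ms V) s := by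
      funext x
      simp only [Vs, Uq, Pi.add_apply]
      ring
    rw [e]
    exact h1
  · obtain ⟨C, hC⟩ := hV.grow
    refine ⟨C + s, fun x => ?_⟩
    have h1 := hC x
    rw [norm_grad] at h1
    rw [norm_grad, (hd x).fderiv]
    refine (norm_add_le _ _).trans ?_
    have h2 : ‖(s / 2) • (2 • innerSL ℝ x)‖ ≤ s * ‖x‖ := by
      rw [norm_smul, Real.norm_of_nonneg (by linarith), two_smul]
      have h3 := norm_add_le (innerSL ℝ x) (innerSL ℝ x)
      rw [innerSL_apply_norm] at h3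
      nlinarith
    nlinarith
  · rw [isProbabilityMeasure_iff_real]
    have h1 := integral_Vs hV s fun _ => 1
    simp only [integral_const, smul_eq_mul, mul_one, one_mul, Pert.exp_split] at h1
    rw [h1, integral_const_mul, ← exp_ph hs, ← exp_add]
    simp

theorem sg_Vs (hV : Pot V 0) (h : SG (ms V) 0 L 0) (hL : 0 < L) (hs : 0 ≤ s)
    (h1 : ph (ms V) (2 * s) ≤ 1) : SG (ms (Vs V s)) 0 (2 * L) 1 := by
  have := hV.prob
  intro θ
  have hs2 : 0 ≤ 2 * s := by linarith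
  have h0 := ph_nonneg (h.tail hL) hs
  obtain ⟨i1, i2⟩ := h.int ((2 : ℝ) • θ)
  set r := exp (2 * L * ‖θ‖ ^ 2) with hr
  have hr0 : 0 < r := exp_pos _
  have e1 : exp (L * ‖(2 : ℝ) • θ‖ ^ 2 + 0) = r ^ 2 := by
    rw [hr, norm_smul, sq (exp _), ← exp_add, Real.norm_of_nonneg (by norm_num)]
    congr 1
    ring
  rw [e1] at i2
  have hpt : ∀ x : E, exp ⟪θ, x - 0⟫ * exp (-Uq (ms V) s x - ph (ms V) s) ≤
      (2 * r)⁻¹ * exp ⟪(2 : ℝ) • θ, x - 0⟫ + r / 2 * exp (-Uq (ms V) (2 * s) x) := by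
    intro x
    have a1 : exp ⟪(2 : ℝ) • θ, x - 0⟫ = exp ⟪θ, x - 0⟫ ^ 2 := by
      rw [real_inner_smul_left, sq, ← exp_add]
      congr 1
      ring
    have a2 : exp (-Uq (ms V) (2 * s) x) = exp (-Uq (ms V) s x) ^ 2 := by
      rw [Uq_two, sq, ← exp_add]
      congr 1
      ring
    have a3 : exp (-Uq (ms V) s x - ph (ms V) s) ≤ exp (-Uq (ms V) s x) :=
      exp_le_exp.2 (by linarith)
    rw [a1, a2]
    set a := exp ⟪θ, x - 0⟫
    set b := exp (-Uq (ms V) s x)
    have ha : 0 < a := exp_pos _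
    refine (mul_le_mul_of_nonneg_left a3 ha.le).trans ?_
    have a4 : (2 * r)⁻¹ * a ^ 2 + r / 2 * b ^ 2 - a * b = (2 * r)⁻¹ * (a - r * b) ^ 2 := by
      field_simp
      ring
    have a5 : 0 ≤ (2 * r)⁻¹ * (a - r * b) ^ 2 := by positivity
    linarith
  have ib : Integrable (fun x => (2 * r)⁻¹ * exp ⟪(2 : ℝ) • θ, x - 0⟫ +
      r / 2 * exp (-Uq (ms V) (2 * s) x)) (ms V) :=
    (i1.const_mul _).add ((Uq_int hs2).const_mul _)
  have ia : Integrable (fun x => exp ⟪θ, x - 0⟫ * exp (-Uq (ms V) s x - ph (ms V) s)) (ms V) := by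
    refine ib.mono' (Continuous.aestronglyMeasurable ?_) (Eventually.of_forall fun x => ?_)
    · have := Uq_cont (ms V) s
      fun_prop
    · rw [Real.norm_of_nonneg (by positivity)]
      exact hpt x
  have ic : Integrable (fun x => exp ⟪θ, x - 0⟫) (ms (Vs V s)) := (integrable_Vs hV s _).2 ia
  rw [← ofReal_integral_eq_lintegral_ofReal ic (Eventually.of_forall fun x => (exp_pos _).le)]
  refine ENNReal.ofReal_le_ofReal ?_
  rw [integral_Vs hV]
  refine (integral_mono ia ib hpt).trans ?_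
  rw [integral_add (i1.const_mul _) ((Uq_int hs2).const_mul _), integral_const_mul,
    integral_const_mul, ← exp_ph hs2, exp_add, ← hr]
  have b1 : exp (ph (ms V) (2 * s)) ≤ exp 1 := exp_le_exp.2 h1
  have b2 : 1 ≤ exp 1 := one_le_exp (by norm_num)
  have b3 : (2 * r)⁻¹ * ∫ x, exp ⟪(2 : ℝ) • θ, x - 0⟫ ∂ms V ≤ r / 2 := by
    refine (mul_le_mul_of_nonneg_left i2 (by positivity)).trans (le_of_eq ?_)
    field_simp
  nlinarith

theorem sq_le [IsProbabilityMeasure μ] (h : SG μ 0 L 0) (hL : 0 < L) :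
    ∫ x, ‖x‖ ^ 2 ∂μ ≤ 4 * L * Module.finrank ℝ E := by
  have h1 := h.second hL (w := fun _ => 1) measurable_const (fun _ => zero_le_one)
    (XG.of_bdd (C := 1) fun _ => by simp)
  simp only [one_mul, sub_zero, Ent, log_one, mul_zero, integral_const, probReal_univ, smul_eq_mul,
    mul_one, zero_add, add_zero] at h1
  linarith

end Vale.Agent.P245B
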