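import Vale.Agent.P245B.Bas

/-! Potentials and test functions. -/

open MeasureTheory Real Set Filter Topology
open scoped ENNReal RealInnerProductSpace

noncomputable section

namespace Vale.Agent.P245B

open Vale.Agent.P245 (Ent gibbs Ent_nonneg)

set_option linter.unusedSectionVars false

variable {E : Type} [NormedAddCommGroup E] [InnerProductSpace ℝ E] [FiniteDimensional ℝ E]
  [CompleteSpace E] [MeasurableSpace E] [BorelSpace E]

variable {V f : E → ℝ} {ε : ℝ}

namespace PotL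

theorem first (hc : ConvexOn ℝ univ V) {x : E} {L : E →L[ℝ] ℝ} (hd : HasFDerivAt V L x) (y : E) :
    V x + L (y - x) ≤ V y := by
  have h1 := hc.comp_affineMap (AffineMap.lineMap x y : ℝ →ᵃ[ℝ] E)
  have h2 : HasDerivAt (V ∘ (AffineMap.lineMap x y : ℝ →ᵃ[ℝ] E)) (L (y - x)) 0 :=
    hd.comp_hasDerivAt_of_eq 0 AffineMap.hasDerivAt_lineMap (by simp)
  have h3 := h1.le_slope_of_hasDerivAt (mem_univ _) (mem_univ _) zero_lt_one h2
  simp [slope_def_field] at h3
  rw [map_sub]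
  linarith

theorem inc (hV : Pot V ε) :
    ∃ C : ℝ, 0 ≤ C ∧ ∀ x z : E, |V (x + z) - V x| ≤ C * (1 + ‖x‖ + ‖z‖) * ‖z‖ := by
  obtain ⟨C, hC⟩ := hV.grow
  have h0 : 0 ≤ C := by simpa using (norm_nonneg _).trans (hC 0)
  refine ⟨C, h0, fun x z => ?_⟩
  have h1 := (convex_closedBall x ‖z‖).norm_image_sub_le_of_norm_fderiv_le (𝕜 := ℝ) (f := V)
    (C := C * (1 + ‖x‖ + ‖z‖)) (x := x) (y := x + z) (fun y _ => hV.diff y) (fun y hy => by
      rw [← norm_grad]
      refine (hC y).trans (mul_le_mul_of_nonneg_left ?_ h0)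
      have h2 := norm_le_norm_add_norm_sub' y x
      rw [mem_closedBall_iff_norm] at hy
      linarith) (Metric.mem_closedBall_self (norm_nonneg _)) (by simp)
  rwa [add_sub_cancel_left, Real.norm_eq_abs] at h1

theorem supp (hf : Tst f) (φ : ℝ → ℝ) : ∃ c : ℝ, HasCompactSupport fun x => φ (f x) - c := by
  obtain ⟨c, hc⟩ := hf.2
  refine ⟨φ c, hc.mono fun x hx h => hx ?_⟩
  exact sub_eq_zero.2 (congrArg φ (sub_eq_zero.1 h))

theorem grad (hf : Tst f) {φ : ℝ → ℝ} {a : ℝ} {x : E} (h : HasDerivAt φ a (f x)) :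
    gradient (fun x => φ (f x)) x = a • gradient f x := by
  refine ext_inner_right ℝ fun v => ?_
  have h1 : HasFDerivAt (fun x => φ (f x)) (a • fderiv ℝ f x) x :=
    h.comp_hasFDerivAt x (hf.1.differentiable (by norm_num) x).hasFDerivAt
  rw [real_inner_smul_left, inner_grad, inner_grad, h1.fderiv]
  simp

theorem fsupp (hf : Tst f) : HasCompactSupport (fderiv ℝ f) := by
  obtain ⟨c, hc⟩ := hf.2
  have h := hc.fderiv ℝ
  have e : fderiv ℝ (fun x => f x - c) = fderiv ℝ f := funext fun x => fderiv_sub_const c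
  rwa [e] at h

theorem int {μ : Measure E} [IsFiniteMeasure μ] {g : E → ℝ} (hg : Continuous g) {M : ℝ}
    (h : ∀ x, |g x| ≤ M) : Integrable g μ :=
  Integrable.of_bound hg.aestronglyMeasurable M (Eventually.of_forall h)

end PotL

theorem first_of_cvx (hd : Differentiable ℝ V) (hc : ConvexOn ℝ univ V) (x y : E) :
    V x + ⟪gradient V x, y - x⟫ ≤ V y := by
  rw [inner_grad]
  exact PotL.first hc (hd x).hasFDerivAt y

theorem grow_of_cvx (hd : Differentiable ℝ V) (hc : ConvexOn ℝ univ V) {C : ℝ}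
    (h : ∀ x, -C ≤ V x ∧ V x ≤ C * (1 + ‖x‖ ^ 2)) :
    ∃ C' : ℝ, ∀ x, ‖gradient V x‖ ≤ C' * (1 + ‖x‖) := by
  have h0 : 0 ≤ C := by
    have h1 := h 0
    simp only [norm_zero, ne_eq, OfNat.ofNat_ne_zero, not_false_eq_true, zero_pow, add_zero,
      mul_one] at h1
    linarith [h1.1, h1.2]
  refine ⟨6 * C, fun x => ?_⟩
  rcases eq_or_ne (gradient V x) 0 with h1 | h1
  · rw [h1, norm_zero]
    positivity
  have h2 : 0 < ‖gradient V x‖ := norm_pos_iff.2 h1
  have h3 : 0 < 1 + ‖x‖ := by positivity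
  have h4 := first_of_cvx hd hc x (x + ((1 + ‖x‖) / ‖gradient V x‖) • gradient V x)
  rw [add_sub_cancel_left, real_inner_smul_right, real_inner_self_eq_norm_sq] at h4
  have h5 : (1 + ‖x‖) / ‖gradient V x‖ * ‖gradient V x‖ ^ 2 = (1 + ‖x‖) * ‖gradient V x‖ := by
    field_simp
  have h6 : ‖x + ((1 + ‖x‖) / ‖gradient V x‖) • gradient V x‖ ≤ 2 * (1 + ‖x‖) := by
    refine (norm_add_le _ _).trans ?_
    rw [norm_smul, Real.norm_of_nonneg (by positivity), div_mul_cancel₀ _ h2.ne']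
    linarith
  have h7 := pow_le_pow_left₀ (norm_nonneg _) h6 2
  have h8 := (h (x + ((1 + ‖x‖) / ‖gradient V x‖) • gradient V x)).2
  have h9 := mul_le_mul_of_nonneg_left h7 h0
  have h10 : 1 ≤ (1 + ‖x‖) ^ 2 := one_le_pow₀ (by linarith [norm_nonneg x])
  have h11 := mul_le_mul_of_nonneg_left h10 h0
  refine le_of_mul_le_mul_left ?_ h3
  linarith [(h x).1]

theorem Pot.meas (hV : Pot V ε) : Measurable V := hV.diff.continuous.measurable

theorem Pot.mono (hV : Pot V ε) (x y : E) :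
    ε * ‖y - x‖ ^ 2 ≤ ⟪y - x, gradient V y - gradient V x⟫ := by
  have h1 : ∀ x y : E, V x - ε / 2 * ‖x‖ ^ 2 + (⟪gradient V x, y - x⟫ - ε * ⟪x, y - x⟫) ≤
      V y - ε / 2 * ‖y‖ ^ 2 := by
    intro x y
    have h2 := PotL.first hV.cvx ((hV.diff x).hasFDerivAt.sub
      ((hasStrictFDerivAt_norm_sq x).hasFDerivAt.const_mul (ε / 2))) y
    rw [inner_grad]
    refine le_trans (le_of_eq ?_) h2
    simp only [sub_apply, smul_apply, innerSL_apply_apply, smul_eq_mul, nsmul_eq_mul]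
    ring
  have h3 := h1 x y
  have h4 := h1 y x
  rw [← neg_sub y x, inner_neg_right, inner_neg_right] at h4
  rw [← real_inner_self_eq_norm_sq, inner_sub_right, inner_sub_right,
    real_inner_comm (gradient V y), real_inner_comm (gradient V x), real_inner_comm y,
    real_inner_comm x]
  linarith

theorem Pot.quad (hV : Pot V ε) : ∃ C : ℝ, ∀ x, |V x| ≤ C * (1 + ‖x‖ ^ 2) := by
  obtain ⟨C, h0, hC⟩ := PotL.inc hV
  refine ⟨|V 0| + 2 * C, fun x => ?_⟩
  have h1 := hC 0 x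
  rw [zero_add, norm_zero, add_zero] at h1
  have h2 := abs_sub_abs_le_abs_sub (V x) (V 0)
  have h3 : (1 + ‖x‖) * ‖x‖ ≤ 2 * (1 + ‖x‖ ^ 2) := by nlinarith [sq_nonneg (‖x‖ - 1)]
  have h4 := mul_le_mul_of_nonneg_left h3 h0
  have h5 := mul_nonneg (abs_nonneg (V 0)) (sq_nonneg ‖x‖)
  linarith

theorem Pot.shift (hV : Pot V ε) (ρ : ℝ) :
    ∃ C : ℝ, ∀ x z : E, ‖z‖ ≤ ρ → |V (x + z) - V x| ≤ C * (1 + ‖x‖) := by
  obtain ⟨C, h0, hC⟩ := PotL.inc hV
  refine ⟨C * (1 + ρ) * ρ, fun x z hz => (hC x z).trans ?_⟩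
  have h1 := norm_nonneg z
  have h2 := norm_nonneg x
  have h3 : 1 + ‖x‖ + ‖z‖ ≤ (1 + ρ) * (1 + ‖x‖) := by nlinarith
  have h4 := mul_le_mul (mul_le_mul_of_nonneg_left h3 h0) hz h1
    (mul_nonneg h0 (mul_nonneg (by linarith) (by linarith)))
  linarith

theorem Pot.openPos (hV : Pot V ε) : (ms V).IsOpenPosMeasure := by
  refine Measure.AbsolutelyContinuous.isOpenPosMeasure (μ := volume)
    (withDensity_absolutelyContinuous' ?_ (Eventually.of_forall fun x => ?_))
  · exact hV.meas.neg.exp.ennreal_ofReal.aemeasurable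
  · exact (ENNReal.ofReal_pos.2 (exp_pos _)).ne'

theorem Pot.ball (hV : Pot V ε) {r : ℝ} (hr : 0 < r) :
    ∃ C : ℝ, ∀ x, exp (-(C * (1 + ‖x‖ ^ 2))) ≤ (ms V).real (Metric.ball x r) := by
  obtain ⟨C, hC⟩ := hV.quad
  have := hV.prob
  have h0 : 0 ≤ C := by simpa using (abs_nonneg _).trans (hC 0)
  have hv : 0 < (volume : Measure E).real (Metric.ball 0 r) :=
    ENNReal.toReal_pos (Metric.measure_ball_pos _ _ hr).ne' measure_ball_lt_top.ne
  refine ⟨C * (2 + 2 * r ^ 2) + |log ((volume : Measure E).real (Metric.ball 0 r))|, fun x => ?_⟩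
  have h1 : ENNReal.ofReal (exp (-(C * (2 + 2 * r ^ 2) * (1 + ‖x‖ ^ 2)))) *
      volume (Metric.ball (0 : E) r) ≤ ms V (Metric.ball x r) := by
    rw [ms, withDensity_apply _ measurableSet_ball, ← Measure.addHaar_ball_center volume x,
      ← setLIntegral_const]
    refine setLIntegral_mono' measurableSet_ball fun y hy => ENNReal.ofReal_le_ofReal ?_
    refine exp_le_exp.2 (neg_le_neg (((le_abs_self _).trans (hC y)).trans ?_))
    rw [mul_assoc]
    refine mul_le_mul_of_nonneg_left ?_ h0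
    have h2 : ‖y‖ ≤ ‖x‖ + r := by
      have h3 := norm_le_norm_add_norm_sub' y x
      rw [mem_ball_iff_norm] at hy
      linarith
    have h4 := pow_le_pow_left₀ (norm_nonneg _) h2 2
    nlinarith [sq_nonneg (‖x‖ - r), mul_nonneg (sq_nonneg r) (sq_nonneg ‖x‖)]
  have h5 := ENNReal.toReal_mono (measure_ne_top _ _) h1
  rw [ENNReal.toReal_mul, ENNReal.toReal_ofReal (exp_pos _).le] at h5
  refine le_trans ?_ h5
  change _ ≤ _ * (volume : Measure E).real (Metric.ball 0 r)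
  rw [← exp_log hv, ← exp_add, log_exp]
  refine exp_le_exp.2 ?_
  have h6 := neg_abs_le (log ((volume : Measure E).real (Metric.ball 0 r)))
  have h7 := mul_nonneg (abs_nonneg (log ((volume : Measure E).real (Metric.ball 0 r))))
    (sq_nonneg ‖x‖)
  linarith

theorem Tst.of_supp (h1 : ContDiff ℝ 2 f) (h2 : HasCompactSupport f) : Tst f := by
  exact ⟨h1, 0, by simpa using h2⟩

theorem Tst.cont (hf : Tst f) : Continuous f := hf.1.continuous

theorem Tst.diff (hf : Tst f) : Differentiable ℝ f := hf.1.differentiable (by norm_num)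

theorem Tst.grad_cont (hf : Tst f) : Continuous (gradient f) := by
  exact (InnerProductSpace.toDual ℝ E).symm.continuous.comp (hf.1.continuous_fderiv (by norm_num))

theorem Tst.bdd (hf : Tst f) : ∃ M : ℝ, 0 ≤ M ∧ ∀ x, |f x| ≤ M ∧ ‖gradient f x‖ ≤ M := by
  obtain ⟨c, hc⟩ := hf.2
  obtain ⟨A, hA⟩ := hc.exists_bound_of_continuous (hf.cont.sub continuous_const)
  obtain ⟨B, hB⟩ := (PotL.fsupp hf).exists_bound_of_continuous
    (hf.1.continuous_fderiv (by norm_num))
  have h1 := (norm_nonneg _).trans (hA 0)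
  have h2 := (norm_nonneg _).trans (hB 0)
  have h3 := abs_nonneg c
  refine ⟨A + |c| + B, by linarith, fun x => ⟨?_, ?_⟩⟩
  · have h4 := abs_sub_abs_le_abs_sub (f x) c
    have h5 : |f x - c| ≤ A := hA x
    linarith
  · rw [norm_grad]
    linarith [hB x]

theorem Tst.taylor (hf : Tst f) : ∃ K : ℝ, 0 ≤ K ∧ ∀ x z,
    f x ≤ f z + ⟪gradient f z, x - z⟫ + K * ‖x - z‖ ^ 2 := by
  obtain ⟨K, hK⟩ := (hf.1.fderiv_right (m := 1) (by norm_num)).lipschitzWith_of_hasCompactSupport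
    (PotL.fsupp hf) (by norm_num)
  refine ⟨K, K.2, fun x z => ?_⟩
  have h1 := (convex_closedBall z ‖x - z‖).norm_image_sub_le_of_norm_fderiv_le' (𝕜 := ℝ) (f := f)
    (φ := fderiv ℝ f z) (C := K * ‖x - z‖) (x := z) (y := x) (fun y _ => hf.diff y)
    (fun y hy => (hK.norm_sub_le y z).trans
      (mul_le_mul_of_nonneg_left (mem_closedBall_iff_norm.1 hy) K.2))
    (Metric.mem_closedBall_self (norm_nonneg _)) (mem_closedBall_iff_norm.2 le_rfl)
  have h2 := (le_abs_self _).trans h1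
  rw [inner_grad]
  linarith

theorem Tst.affine (hf : Tst f) (a b : ℝ) :
    Tst (fun x => a + b * f x) ∧ ∀ x, gradient (fun x => a + b * f x) x = b • gradient f x := by
  refine ⟨⟨contDiff_const.add (contDiff_const.mul hf.1), PotL.supp hf fun t => a + b * t⟩,
    fun x => PotL.grad hf (φ := fun t => a + b * t) ?_⟩
  simpa using ((hasDerivAt_id (f x)).const_mul b).const_add a

theorem Tst.log_sq (hf : Tst f) {δ : ℝ} (hδ : 0 < δ) : Tst (fun x => log (f x ^ 2 + δ)) ∧ ∀ x,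
    gradient (fun x => log (f x ^ 2 + δ)) x = (2 * f x / (f x ^ 2 + δ)) • gradient f x := by
  have h1 : ∀ x, f x ^ 2 + δ ≠ 0 := fun x => by positivity
  refine ⟨⟨((hf.1.pow 2).add contDiff_const).log h1, PotL.supp hf fun t => log (t ^ 2 + δ)⟩,
    fun x => PotL.grad hf (φ := fun t => log (t ^ 2 + δ)) ?_⟩
  simpa using ((hasDerivAt_pow 2 (f x)).add_const δ).log (h1 x)

variable {μ : Measure E} [IsFiniteMeasure μ]

theorem Tst.int (hf : Tst f) : Integrable f μ := by
  obtain ⟨M, -, h⟩ := hf.bdd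
  exact PotL.int hf.cont fun x => (h x).1

theorem Tst.int_sq (hf : Tst f) : Integrable (fun x => f x ^ 2) μ := by
  obtain ⟨M, -, h⟩ := hf.bdd
  refine PotL.int (hf.cont.pow 2) (M := M ^ 2) fun x => ?_
  rw [abs_pow]
  exact pow_le_pow_left₀ (abs_nonneg _) (h x).1 2

theorem Tst.int_log (hf : Tst f) : Integrable (fun x => f x ^ 2 * log (f x ^ 2)) μ := by
  have h1 : Continuous fun x => f x ^ 2 * log (f x ^ 2) := continuous_mul_log.comp (hf.cont.pow 2)
  obtain ⟨c, hc⟩ := PotL.supp hf fun t => t ^ 2 * log (t ^ 2)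
  obtain ⟨A, hA⟩ := hc.exists_bound_of_continuous (h1.sub continuous_const)
  refine PotL.int h1 (M := A + |c|) fun x => ?_
  have h2 := abs_sub_abs_le_abs_sub (f x ^ 2 * log (f x ^ 2)) c
  have h3 : |f x ^ 2 * log (f x ^ 2) - c| ≤ A := hA x
  linarith

theorem Tst.int_grad (hf : Tst f) : Integrable (fun x => ‖gradient f x‖ ^ 2) μ := by
  obtain ⟨M, -, h⟩ := hf.bdd
  refine PotL.int (hf.grad_cont.norm.pow 2) (M := M ^ 2) fun x => ?_
  rw [abs_pow, abs_norm]
  exact pow_le_pow_left₀ (norm_nonneg _) (h x).2 2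

omit [IsFiniteMeasure μ] in
theorem Dir_nonneg (μ : Measure E) (f : E → ℝ) : 0 ≤ Dir μ f :=
  integral_nonneg fun _ => sq_nonneg _

omit [IsFiniteMeasure μ] in
theorem LSI.mono {K K' : ℝ} (h : LSI μ K) (hK : K ≤ K') : LSI μ K' := fun f hf =>
  (h f hf).trans (mul_le_mul_of_nonneg_right hK (Dir_nonneg μ f))

end Vale.Agent.P245B
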