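import Vale.Agent.P245B.PotL

/-! Two derivatives of a shifted integral. -/

open MeasureTheory Real Set Filter Topology
open scoped ENNReal RealInnerProductSpace

noncomputable section

namespace Vale.Agent.P245B

open Vale.Agent.P245 (Ent gibbs Ent_nonneg)

set_option linter.unusedSectionVars false

variable {E : Type} [NormedAddCommGroup E] [InnerProductSpace ℝ E] [FiniteDimensional ℝ E]
  [CompleteSpace E] [MeasurableSpace E] [BorelSpace E]

namespace Shift

theorem line {u : E → ℝ} (hu : Differentiable ℝ u) (x e : E) (t : ℝ) :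
    HasDerivAt (fun t : ℝ => u (x + t • e)) ⟪gradient u (x + t • e), e⟫ t := by
  rw [inner_grad]
  have h : HasDerivAt (fun t : ℝ => x + t • e) e t := by
    simpa using ((hasDerivAt_id t).smul_const e).const_add x
  exact (hu _).hasFDerivAt.comp_hasDerivAt t h

theorem xg_exp (C : ℝ) : XG fun x : E => exp (C * (1 + ‖x‖)) :=
  ⟨C, fun _ => (norm_of_nonneg (exp_pos _).le).le⟩

theorem small {t r : ℝ} (h : ‖t‖ ≤ r) (e : E) : ‖t • e‖ ≤ r * ‖e‖ :=
  (norm_smul t e).trans_le (mul_le_mul_of_nonneg_right h (norm_nonneg _))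

end Shift
open Shift

theorem shift_deriv {V u : E → ℝ} {ε : ℝ} (hV : Pot V ε) (ht : Tail (ms V))
    (hu : Differentiable ℝ u) (h1 : XG u) (h2 : XG (gradient u)) (e : E) :
    (∀ t : ℝ, HasDerivAt (fun t : ℝ => ∫ x, u (x + t • e) ∂ms V)
      (∫ x, ⟪gradient u (x + t • e), e⟫ ∂ms V) t) ∧
    HasDerivAt (fun t : ℝ => ∫ x, ⟪gradient u (x + t • e), e⟫ ∂ms V)
      (∫ x, ⟪gradient u x, e⟫ * ⟪gradient V x, e⟫ ∂ms V) 0 := by
  have mg := measurable_grad u
  refine ⟨fun t => ?_, ?_⟩
  · obtain ⟨C, hC⟩ := h2.shift ((‖t‖ + 1) * ‖e‖)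
    obtain ⟨C', hC'⟩ := h1.shift (‖t‖ * ‖e‖)
    have cu := hu.continuous
    refine (hasDerivAt_integral_of_dominated_loc_of_deriv_le (F := fun t x => u (x + t • e))
      (F' := fun t x => ⟪gradient u (x + t • e), e⟫) (Metric.ball_mem_nhds t one_pos)
      (Eventually.of_forall fun t => Continuous.aestronglyMeasurable (by fun_prop))
      (ht.int (Continuous.aestronglyMeasurable (by fun_prop)) ⟨C', fun x => hC' x _ (small le_rfl e)⟩)
      (Measurable.aestronglyMeasurable (by fun_prop))
      (Eventually.of_forall fun x s hs => ?_) ((ht.int_exp C).mul_const ‖e‖)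
      (Eventually.of_forall fun x s _ => line hu x e s)).2
    exact (norm_inner_le_norm _ _).trans (mul_le_mul_of_nonneg_right
      (hC x _ (small (norm_lt_of_mem_ball hs).le e)) (norm_nonneg _))
  · have mV := hV.meas
    have mgV := measurable_grad V
    have e1 : (fun t : ℝ => ∫ x, ⟪gradient u (x + t • e), e⟫ ∂ms V) =
        fun t : ℝ => ∫ y, ⟪gradient u y, e⟫ * exp (-V (y + t • -e)) := by
      funext t
      rw [integral_ms mV, ← integral_add_right_eq_self
        (fun y => ⟪gradient u y, e⟫ * exp (-V (y + t • -e))) (t • e)]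
      simp
    obtain ⟨C0, h0⟩ := hV.grow
    obtain ⟨C, hC⟩ := (XG.of_lin h0).shift (1 * ‖-e‖)
    obtain ⟨C', hC'⟩ := hV.shift (1 * ‖-e‖)
    have xg : XG fun y => ⟪gradient u y, e⟫ := h2.inner (XG.of_bdd fun _ => le_rfl)
    have i1 := (integrable_ms mV _).1
      (ht.int (Measurable.aestronglyMeasurable (by fun_prop)) xg)
    have i2 := (integrable_ms mV _).1 (ht.int (Measurable.aestronglyMeasurable (by fun_prop))
      (xg.mul ((xg_exp C').mul ((xg_exp C).mul (XG.of_bdd (u := fun _ => ‖-e‖) fun _ => le_rfl)))))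
    have key := (hasDerivAt_integral_of_dominated_loc_of_deriv_le (μ := volume)
      (F := fun t y => ⟪gradient u y, e⟫ * exp (-V (y + t • -e)))
      (F' := fun t y => ⟪gradient u y, e⟫ *
        (exp (-V (y + t • -e)) * -⟪gradient V (y + t • -e), -e⟫)) (Metric.ball_mem_nhds 0 one_pos)
      (Eventually.of_forall fun t => Measurable.aestronglyMeasurable (by fun_prop))
      (by simpa using i1) (Measurable.aestronglyMeasurable (by fun_prop))
      (Eventually.of_forall fun x s hs => ?_) i2.norm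
      (Eventually.of_forall fun x s _ => ((line hV.diff x (-e) s).neg.exp).const_mul _)).2
    · rw [e1, integral_ms mV]
      refine key.congr_deriv (integral_congr_ae (Eventually.of_forall fun x => ?_))
      simp only [zero_smul, add_zero, inner_neg_right, neg_neg]
      ring
    · have hs' := small (mem_ball_zero_iff.1 hs).le (-e)
      have a1 : exp (-V (x + s • -e)) ≤ exp (C' * (1 + ‖x‖)) * exp (-V x) := by
        rw [← exp_add]
        exact exp_le_exp.2 (by linarith [(abs_le.1 (hC' x _ hs')).1])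
      have a2 : ‖⟪gradient V (x + s • -e), -e⟫‖ ≤ exp (C * (1 + ‖x‖)) * ‖-e‖ :=
        (norm_inner_le_norm _ _).trans (mul_le_mul_of_nonneg_right (hC x _ hs') (norm_nonneg _))
      simp only [norm_mul, norm_neg (⟪_, _⟫), norm_of_nonneg (exp_pos _).le, norm_norm]
      rw [mul_assoc]
      refine mul_le_mul_of_nonneg_left
        ((mul_le_mul a1 a2 (norm_nonneg _) (by positivity)).trans_eq ?_) (norm_nonneg _)
      ring

/-- The second derivative test. -/
theorem second_nonpos {φ φ' : ℝ → ℝ} {a : ℝ} (h1 : ∀ t, HasDerivAt φ (φ' t) t)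
    (h2 : HasDerivAt φ' a 0) (hmax : ∀ t, φ t ≤ φ 0) : a ≤ 0 := by
  by_contra ha
  have h0 : φ' 0 = 0 :=
    IsLocalMax.hasDerivAt_eq_zero (Eventually.of_forall hmax) (h1 0)
  have h3 := (h2.tendsto_slope_zero_right.eventually (lt_mem_nhds (not_le.1 ha)))
  obtain ⟨d, hd, h4⟩ := (nhdsGT_basis (0 : ℝ)).eventually_iff.1 h3
  obtain ⟨c, hc, h5⟩ := exists_hasDerivAt_eq_slope φ φ' hd
    (fun t _ => (h1 t).continuousAt.continuousWithinAt) fun t _ => h1 t
  have h6 := h4 hc
  rw [h0, zero_add, sub_zero, smul_eq_mul, h5] at h6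
  have h7 := div_nonpos_of_nonpos_of_nonneg (sub_nonpos.2 (hmax d)) (sub_pos.2 hd).le
  exact absurd h6 (not_lt.2 (mul_nonpos_of_nonneg_of_nonpos (inv_pos.2 hc.1).le h7))

end Vale.Agent.P245B
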