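import Vale.Agent.P245B.CplG
import Vale.Agent.P245B.Shift

/-! The second order condition for translations. -/

open MeasureTheory Real Set Filter Topology
open scoped ENNReal RealInnerProductSpace

noncomputable section

namespace Vale.Agent.P245B

open Vale.Agent.P245 (Ent gibbs Ent_nonneg)

set_option linter.unusedSectionVars false

variable {E : Type} [NormedAddCommGroup E] [InnerProductSpace ℝ E] [FiniteDimensional ℝ E]
  [CompleteSpace E] [MeasurableSpace E] [BorelSpace E]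

variable {V c u : E → ℝ} {ε R τ : ℝ}

namespace Sec

theorem lg_V (hV : Pot V ε) (z : E) : LG fun x => V (x + z) - V x := by
  obtain ⟨C, hC⟩ := hV.shift ‖z‖
  exact ⟨(hV.meas.comp (measurable_add_const z)).sub hV.meas, C, fun x => hC x z le_rfl⟩

theorem lg_sh (hV : Pot V ε) (hu : LG u) (z : E) :
    LG fun x => u (x + z) - (V (x + z) - V x) := by
  simpa only [neg_one_mul, ← sub_eq_add_neg] using
    (hu.shift z).add ((lg_V hV z).const_mul (-1))

theorem xg_V (hV : Pot V ε) : XG V := hV.quad.elim fun _ h => XG.of_quad h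

theorem xg_gV (hV : Pot V ε) : XG (gradient V) := hV.grow.elim fun _ h => XG.of_lin h

theorem xg_const (e : E) : XG fun _ : E => e := XG.of_bdd fun _ => le_rfl

theorem grad_exp {v : E → ℝ} (hv : Differentiable ℝ v) (τ : ℝ) (y : E) :
    gradient (fun y => exp (-τ * v y)) y = (-τ * exp (-τ * v y)) • gradient v y := by
  refine ext_inner_right ℝ fun e => ?_
  rw [inner_grad, real_inner_smul_left, inner_grad, ((hv y).hasFDerivAt.const_mul (-τ)).exp.fderiv]
  simp only [smul_apply, smul_eq_mul]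
  ring

theorem int_in {μ : Measure E} (ht : Tail μ) {ρ : E → ℝ} {F G : E → E} (m0 : Measurable ρ)
    (m1 : Measurable F) (m2 : Measurable G) (h0 : XG ρ) (h1 : XG F) (h2 : XG G) (e : E) :
    Integrable (fun x => ρ x * (⟪F x, e⟫ * ⟪G x, e⟫)) μ :=
  ht.int (m0.mul ((m1.inner measurable_const).mul (m2.inner measurable_const))).aestronglyMeasurable
    (h0.mul ((h1.inner (xg_const e)).mul (h2.inner (xg_const e))))

theorem sum_in {μ : Measure E} (ht : Tail μ) {ρ : E → ℝ} {F G : E → E} (m0 : Measurable ρ)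
    (m1 : Measurable F) (m2 : Measurable G) (h0 : XG ρ) (h1 : XG F) (h2 : XG G) {ι : Type}
    [Fintype ι] (b : OrthonormalBasis ι ℝ E) :
    ∫ x, ρ x * ⟪F x, G x⟫ ∂μ = ∑ i, ∫ x, ρ x * (⟪F x, b i⟫ * ⟪G x, b i⟫) ∂μ := by
  rw [← integral_finsetSum _ fun i _ => int_in ht m0 m1 m2 h0 h1 h2 (b i)]
  refine integral_congr_ae (Eventually.of_forall fun x => ?_)
  simp only [← Finset.mul_sum, real_inner_comm (b _) (G x), b.sum_inner_mul_inner]

theorem sum_in' {μ : Measure E} (ht : Tail μ) {F G : E → E}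
    (m1 : Measurable F) (m2 : Measurable G) (h1 : XG F) (h2 : XG G) {ι : Type}
    [Fintype ι] (b : OrthonormalBasis ι ℝ E) :
    ∫ x, ⟪F x, G x⟫ ∂μ = ∑ i, ∫ x, ⟪F x, b i⟫ * ⟪G x, b i⟫ ∂μ := by
  simpa only [one_mul] using sum_in ht (ρ := fun _ => 1) measurable_const m1 m2
    (XG.of_bdd fun _ => le_rfl) h1 h2 b

theorem int_cpl {μ : Measure E} [IsProbabilityMeasure μ] (ht : Tail μ) (hc : Cost c R)
    (h : Opt μ c τ u) {G : E → E} (hm : Measurable G) (hG : XG G) {q : E × E → E}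
    (mq : Measurable q) (hq : ∀ p, ‖q p‖ ≤ ‖p.1‖ + ‖p.2‖) :
    Integrable (fun p : E × E => ⟪gradient c (p.2 - p.1), G (q p)⟫) (cpl μ c τ u) := by
  obtain ⟨C, hC⟩ := hG
  have h1 : Integrable (fun p => G (q p)) (cpl μ c τ u) :=
    cpl_int ht hc h (hm.comp mq).aestronglyMeasurable (C := max C 0) fun p =>
      (hC _).trans (exp_le_exp.2 (mul_le_mul (le_max_left _ _) (by linarith [hq p])
        (by positivity) (le_max_right _ _)))
  refine (h1.norm.const_mul R).mono' (((measurable_grad c).comp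
    (measurable_snd.sub measurable_fst)).inner (hm.comp mq)).aestronglyMeasurable
    (Eventually.of_forall fun p => (norm_inner_le_norm _ _).trans ?_)
  exact mul_le_mul_of_nonneg_right (hc.bdd _) (norm_nonneg _)

end Sec

theorem Tr_shift (hV : Pot V ε) (c u : E → ℝ) (z y : E) :
    Tr (ms V) c (fun x => u (x + z) - (V (x + z) - V x)) y = Tr (ms V) c u (y + z) := by
  unfold Tr
  rw [integral_ms hV.meas, integral_ms hV.meas, ← integral_add_right_eq_self
    (fun x => exp (u x - c (y + z - x)) * exp (-V x)) z]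
  refine congrArg log (integral_congr_ae (Eventually.of_forall fun x => ?_))
  simp only [add_sub_add_right_eq_sub, ← exp_add]
  refine congrArg exp ?_
  ring

theorem second_dir (hV : Pot V ε) (ht : Tail (ms V)) (hc : Cost c R) (hτ : 0 < τ)
    (h : Opt (ms V) c τ u) (e : E) :
    ∫ x, ⟪gradient u x, e⟫ * ⟪gradient V x, e⟫ ∂ms V -
        ∫ y, rh (ms V) c τ u y * (⟪gradient (Tr (ms V) c u) y, e⟫ * ⟪gradient V y, e⟫) ∂ms V ≤
      τ * (∫ y, rh (ms V) c τ u y * ⟪gradient (Tr (ms V) c u) y, e⟫ ∂ms V) ^ 2 +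
        ∫ x, ⟪gradient V x, e⟫ * ⟪gradient V x, e⟫ ∂ms V := by
  have := hV.prob
  have hv : Differentiable ℝ (Tr (ms V) c u) := fun y =>
    (Tr_grad ht hc h.lg y).differentiableAt
  have xw : XG fun y => exp (-τ * Tr (ms V) c u y) := ((Tr_lg ht hc h.lg).const_mul _).exp_xg
  have hw : gradient (fun y => exp (-τ * Tr (ms V) c u y)) =
      fun y => (-τ * exp (-τ * Tr (ms V) c u y)) • gradient (Tr (ms V) c u) y :=
    funext (Sec.grad_exp hv τ)
  obtain ⟨a1, a2⟩ := shift_deriv hV ht (h.diff ht hc).1 h.lg.xg (XG.of_bdd (h.diff ht hc).2) e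
  obtain ⟨b1, b2⟩ := shift_deriv hV ht hV.diff (Sec.xg_V hV) (Sec.xg_gV hV) e
  obtain ⟨c1, c2⟩ := shift_deriv hV ht (u := fun y => exp (-τ * Tr (ms V) c u y))
    ((hv.const_mul _).exp) xw (by
      rw [hw]
      exact ((XG.of_bdd fun _ => le_rfl).mul xw).smul (XG.of_bdd (Tr_grad_le ht hc h.lg))) e
  have hZ : ∀ t : ℝ, Zf (ms V) c τ (fun x => u (x + t • e) - (V (x + t • e) - V x)) =
      ∫ x, exp (-τ * Tr (ms V) c u (x + t • e)) ∂ms V := fun t => by
    simp only [Zf, Tr_shift hV]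
  have hZ0 : ∀ t : ℝ, 0 < ∫ x, exp (-τ * Tr (ms V) c u (x + t • e)) ∂ms V := fun t =>
    hZ t ▸ Zf_pos ht hc (Sec.lg_sh hV h.lg _) τ
  have iV : Integrable V (ms V) := ht.int hV.meas.aestronglyMeasurable (Sec.xg_V hV)
  have hP : ∀ t : ℝ, ∫ x, u (x + t • e) ∂ms V - (∫ x, V (x + t • e) ∂ms V - ∫ x, V x ∂ms V) +
      τ⁻¹ * log (∫ x, exp (-τ * Tr (ms V) c u (x + t • e)) ∂ms V) =
      Psi (ms V) c τ fun x => u (x + t • e) - (V (x + t • e) - V x) := fun t => by
    have i1 := ht.int (Sec.lg_V hV (t • e)).1.aestronglyMeasurable (Sec.lg_V hV (t • e)).xg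
    have i2 : Integrable (fun x => V (x + t • e)) (ms V) :=
      (i1.add iV).congr (Eventually.of_forall fun x => sub_add_cancel _ _)
    rw [Psi, hZ, integral_sub (ht.int (h.lg.shift _).1.aestronglyMeasurable (h.lg.shift _).xg) i1,
      integral_sub i2 iV]
  have key := second_nonpos (fun t => ((a1 t).sub ((b1 t).sub_const (∫ x, V x ∂ms V))).add
    (((c1 t).log (hZ0 t).ne').const_mul τ⁻¹))
    ((a2.sub b2).add ((c2.div (c1 0) (hZ0 0).ne').const_mul τ⁻¹)) fun t => by
      refine (hP t).trans_le ((h.max _ (Sec.lg_sh hV h.lg _)).trans_eq (Eq.trans ?_ (hP 0).symm))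
      simp only [zero_smul, add_zero, sub_self, sub_zero]
  have hz := Zf_pos ht hc h.lg τ
  have hr : ∀ y, exp (-τ * Tr (ms V) c u y) = Zf (ms V) c τ u * rh (ms V) c τ u y := fun y => by
    rw [rh, exp_sub, exp_log hz, mul_div_cancel₀ _ hz.ne']
  simp only [zero_smul, add_zero, hw, real_inner_smul_left] at key
  have e0 : ∫ x, exp (-τ * Tr (ms V) c u x) ∂ms V = Zf (ms V) c τ u := rfl
  have e1 : ∫ x, -τ * exp (-τ * Tr (ms V) c u x) * ⟪gradient (Tr (ms V) c u) x, e⟫ ∂ms V =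
      -τ * Zf (ms V) c τ u * ∫ y, rh (ms V) c τ u y * ⟪gradient (Tr (ms V) c u) y, e⟫ ∂ms V := by
    rw [← integral_const_mul]
    refine integral_congr_ae (Eventually.of_forall fun x => ?_)
    simp only [hr]
    ring
  have e2 : ∫ x, -τ * exp (-τ * Tr (ms V) c u x) * ⟪gradient (Tr (ms V) c u) x, e⟫ *
      ⟪gradient V x, e⟫ ∂ms V = -τ * Zf (ms V) c τ u * ∫ y, rh (ms V) c τ u y *
        (⟪gradient (Tr (ms V) c u) y, e⟫ * ⟪gradient V y, e⟫) ∂ms V := by
    rw [← integral_const_mul]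
    refine integral_congr_ae (Eventually.of_forall fun x => ?_)
    simp only [hr]
    ring
  rw [e0, e1, e2] at key
  have e3 : ∀ a b : ℝ, τ⁻¹ * ((-τ * Zf (ms V) c τ u * a * Zf (ms V) c τ u -
      -τ * Zf (ms V) c τ u * b * (-τ * Zf (ms V) c τ u * b)) / Zf (ms V) c τ u ^ 2) =
      -a - τ * b ^ 2 := fun a b => by
    field_simp
  rw [e3] at key
  linarith

theorem second_order (hV : Pot V ε) (ht : Tail (ms V)) (hc : Cost c R) (hτ : 0 < τ)
    (h : Opt (ms V) c τ u) :
    ∫ p, ⟪gradient c (p.2 - p.1), gradient V p.2 - gradient V p.1⟫ ∂cpl (ms V) c τ u ≤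
      τ * ‖∫ p, gradient c (p.2 - p.1) ∂cpl (ms V) c τ u‖ ^ 2 +
        ∫ x, ‖gradient V x‖ ^ 2 ∂ms V := by
  have := hV.prob
  have mV := measurable_grad V
  have xV := Sec.xg_gV hV
  let b := stdOrthonormalBasis ℝ E
  have i0 : Integrable (fun p : E × E => gradient c (p.2 - p.1)) (cpl (ms V) c τ u) := by
    have := cpl_prob ht hc h
    exact (integrable_const R).mono' ((measurable_grad c).comp
      (measurable_snd.sub measurable_fst)).aestronglyMeasurable (Eventually.of_forall fun p => hc.bdd _)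
  have e1 : ∀ i, ⟪b i, ∫ p, gradient c (p.2 - p.1) ∂cpl (ms V) c τ u⟫ ^ 2 =
      (∫ y, rh (ms V) c τ u y * ⟪gradient (Tr (ms V) c u) y, b i⟫ ∂ms V) ^ 2 := fun i => by
    rw [← integral_inner i0, ← neg_sq (∫ y, rh (ms V) c τ u y * _ ∂ms V),
      ← cpl_grad_snd ht hc h measurable_const (Sec.xg_const (b i))]
    simp only [real_inner_comm]
  simp only [inner_sub_right, ← real_inner_self_eq_norm_sq (gradient V _)]
  rw [integral_sub (Sec.int_cpl ht hc h mV xV measurable_snd fun p => le_add_of_nonneg_left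
      (norm_nonneg _)) (Sec.int_cpl ht hc h mV xV measurable_fst fun p => le_add_of_nonneg_right
      (norm_nonneg _)), cpl_grad_fst ht hc h mV xV, cpl_grad_snd ht hc h mV xV,
    Sec.sum_in ht (rh_meas ht hc h.lg τ) (measurable_grad _) mV (rh_xg ht hc h.lg τ)
      (XG.of_bdd (Tr_grad_le ht hc h.lg)) xV b,
    Sec.sum_in' ht (measurable_grad u) mV (XG.of_bdd (h.diff ht hc).2) xV b,
    Sec.sum_in' ht mV mV xV xV b, ← b.sum_sq_inner_right, Finset.mul_sum, ← Finset.sum_add_distrib,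
    sub_neg_eq_add, neg_add_eq_sub, ← Finset.sum_sub_distrib]
  refine Finset.sum_le_sum fun i _ => ?_
  rw [e1]
  exact second_dir hV ht hc hτ h (b i)

end Vale.Agent.P245B
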