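import Vale.Agent.P245B.PotL
import Vale.Agent.P245B.TailL

/-! Gaussian smoothing. -/

open MeasureTheory Real Set Filter Topology
open scoped ENNReal RealInnerProductSpace

noncomputable section

namespace Vale.Agent.P245B

open Vale.Agent.P245 (Ent gibbs Ent_nonneg)

set_option linter.unusedSectionVars false

variable {E : Type} [NormedAddCommGroup E] [InnerProductSpace ℝ E] [FiniteDimensional ℝ E]
  [CompleteSpace E] [MeasurableSpace E] [BorelSpace E]

/-- Densities that are `ε`-log-concave. -/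
structure LCd (ρ : E → ℝ) (ε : ℝ) : Prop where
  meas : Measurable ρ
  nonneg : ∀ x, 0 ≤ ρ x
  convex : Convex ℝ {x | 0 < ρ x}
  concave : ConcaveOn ℝ {x | 0 < ρ x} fun x => log (ρ x) + ε / 2 * ‖x‖ ^ 2

variable {μ : Measure E} [IsProbabilityMeasure μ] {t : ℝ}

namespace Smo

theorem cont (t : ℝ) (y : E) : Continuous fun x => ga t (y - x) :=
  (ga_cont t).comp (continuous_const.sub continuous_id)

theorem int (ht : 0 < t) (y : E) : Integrable (fun x => ga t (y - x)) μ :=
  (integrable_const (∫ w : E, gs t w)⁻¹).mono' (cont t y).aestronglyMeasurable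
    (ae_of_all _ fun x => by
      rw [Real.norm_eq_abs, abs_of_pos (ga_pos ht _)]
      exact ga_le ht _)

theorem pos (ht : 0 < t) (y : E) : 0 < ∫ x, ga t (y - x) ∂μ := by
  rw [integral_pos_iff_support_of_nonneg (fun x => (ga_pos ht _).le) (int ht y)]
  have e : (Function.support fun x => ga t (y - x)) = univ :=
    eq_univ_of_forall fun x => (ga_pos ht _).ne'
  rw [e, measure_univ]
  exact one_pos

/-- the derivative of the Gaussian density -/
def dg (t : ℝ) (z : E) : E →L[ℝ] ℝ := (-(ga t z / t)) • innerSL ℝ z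

theorem has_dg (ht : 0 < t) (z : E) : HasFDerivAt (ga t) (dg t z) z := by
  have h := ((((hasStrictFDerivAt_norm_sq z).hasFDerivAt.mul_const (2 * t)⁻¹).neg).exp).mul_const
    (∫ w : E, gs t w)⁻¹
  have e : (ga t : E → ℝ) = fun z => exp (-(‖z‖ ^ 2 * (2 * t)⁻¹)) * (∫ w : E, gs t w)⁻¹ := by
    funext z
    simp only [ga, gs, div_eq_mul_inv]
  refine (h.congr_fderiv ?_).congr_of_eventuallyEq (Eventually.of_forall fun z => congrFun e z)
  ext v
  simp only [dg, e, ContinuousLinearMap.smul_apply, ContinuousLinearMap.neg_apply, smul_eq_mul,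
    Pi.neg_apply, innerSL_apply_apply, nsmul_eq_mul, Nat.cast_ofNat]
  field_simp

theorem cont_dg (t : ℝ) : Continuous (dg t : E → E →L[ℝ] ℝ) :=
  ((ga_cont t).div_const t).neg.smul (innerSL ℝ).continuous

theorem norm_dg (ht : 0 < t) (z : E) :
    ‖dg t z‖ ≤ (1 + 2 * t) / t / ∫ w : E, gs t w := by
  have hI := gs_pos (E := E) ht
  have h1 : ‖z‖ ^ 2 / (2 * t) * gs t z ≤ 1 := by
    unfold gs
    rw [exp_neg, ← div_eq_mul_inv, div_le_one (exp_pos _)]
    linarith [add_one_le_exp (‖z‖ ^ 2 / (2 * t))]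
  have h2 : gs t z ≤ 1 := exp_le_one_iff.2 (neg_nonpos.2 (by positivity))
  have h3 : 0 < gs t z := exp_pos _
  have h4 : ‖z‖ ^ 2 * gs t z ≤ 2 * t := by
    rw [div_mul_eq_mul_div, div_le_one (by positivity)] at h1
    exact h1
  have h5 : ‖z‖ ≤ 1 + ‖z‖ ^ 2 := by nlinarith [sq_nonneg (‖z‖ - 1)]
  have h6 : gs t z * ‖z‖ ≤ 1 + 2 * t := by nlinarith [mul_le_mul_of_nonneg_left h5 h3.le]
  rw [dg, norm_smul, innerSL_apply_norm, norm_neg, Real.norm_eq_abs,
    abs_of_pos (div_pos (ga_pos ht z) ht)]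
  calc _ = gs t z * ‖z‖ / t / ∫ w : E, gs t w := by unfold ga; ring
    _ ≤ _ := by gcongr

end Smo

theorem exp_Vt (ht : 0 < t) (y : E) : exp (-Vt μ t y) = ∫ x, ga t (y - x) ∂μ := by
  rw [Vt, neg_neg, exp_log (Smo.pos ht y)]

theorem Vt_diff (ht : 0 < t) : Differentiable ℝ (Vt μ t) := by
  intro y
  have h := hasFDerivAt_integral_of_dominated_of_fderiv_le (μ := μ) (𝕜 := ℝ)
    (F := fun y x => ga t (y - x)) (F' := fun y x => Smo.dg t (y - x)) (x₀ := y)
    (bound := fun _ => (1 + 2 * t) / t / ∫ w : E, gs t w) (s := univ) univ_mem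
    (Eventually.of_forall fun y => (Smo.cont t y).aestronglyMeasurable) (Smo.int ht y)
    ((Smo.cont_dg t).comp (continuous_const.sub continuous_id)).aestronglyMeasurable
    (ae_of_all _ fun x y _ => Smo.norm_dg ht _) (integrable_const _)
    (ae_of_all _ fun x y _ => by
      have h1 : HasFDerivAt (fun y : E => y - x) (ContinuousLinearMap.id ℝ E) y :=
        (hasFDerivAt_id y).sub_const x
      exact (HasFDerivAt.comp (f := fun y : E => y - x) y (Smo.has_dg ht (y - x)) h1).congr_fderiv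
        (ContinuousLinearMap.comp_id _))
  exact (h.differentiableAt.log (Smo.pos ht y).ne').neg

theorem Vt_bound (hμ : Tail μ) (ht : 0 < t) :
    ∃ C : ℝ, ∀ y, -C ≤ Vt μ t y ∧ Vt μ t y ≤ C * (1 + ‖y‖ ^ 2) := by
  have hI := gs_pos (E := E) ht
  set I := ∫ w : E, gs t w with hI'
  have i2 : Integrable (fun x : E => ‖x‖ ^ 2) μ :=
    hμ.int (continuous_norm.pow 2).aestronglyMeasurable (XG.of_quad (C := 1) fun x => by
      rw [Real.norm_eq_abs, abs_of_nonneg (sq_nonneg _)]; linarith)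
  have hm : 0 ≤ ∫ x : E, ‖x‖ ^ 2 ∂μ := integral_nonneg fun x => sq_nonneg _
  set m := ∫ x : E, ‖x‖ ^ 2 ∂μ with hm'
  have ht' : 0 < t⁻¹ := inv_pos.2 ht
  refine ⟨|log I| + (m + 1) * t⁻¹, fun y => ⟨?_, ?_⟩⟩
  · have h1 : ∫ x, ga t (y - x) ∂μ ≤ I⁻¹ := by
      have := integral_mono (Smo.int (μ := μ) ht y) (integrable_const I⁻¹) fun x => ga_le ht _
      simpa using this
    have h2 := log_le_log (Smo.pos ht y) h1
    rw [log_inv] at h2
    have h3 : 0 ≤ (m + 1) * t⁻¹ := by positivity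
    unfold Vt
    linarith [neg_abs_le (log I)]
  · have ig : Integrable (fun x : E => -((‖y‖ ^ 2 + ‖x‖ ^ 2) * t⁻¹ + log I)) μ :=
      ((((integrable_const _).add i2).mul_const _).add (integrable_const _)).neg
    have hle : ∀ x : E, exp (-((‖y‖ ^ 2 + ‖x‖ ^ 2) * t⁻¹ + log I)) ≤ ga t (y - x) := fun x => by
      rw [neg_add, exp_add, exp_neg (log I), exp_log hI, ga, gs, div_eq_mul_inv _ I]
      refine mul_le_mul_of_nonneg_right (exp_le_exp.2 (neg_le_neg ?_)) (inv_pos.2 hI).le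
      rw [div_le_iff₀ (by positivity), mul_assoc, mul_comm 2 t, ← mul_assoc t⁻¹,
        inv_mul_cancel₀ ht.ne']
      have h1 := norm_sub_le y x
      have h2 := pow_le_pow_left₀ (norm_nonneg _) h1 2
      nlinarith [sq_nonneg (‖y‖ - ‖x‖)]
    have ie : Integrable (fun x : E => exp (-((‖y‖ ^ 2 + ‖x‖ ^ 2) * t⁻¹ + log I))) μ :=
      (Smo.int ht y).mono' (by fun_prop : Continuous fun x : E =>
        exp (-((‖y‖ ^ 2 + ‖x‖ ^ 2) * t⁻¹ + log I))).aestronglyMeasurable
        (ae_of_all _ fun x => by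
          rw [Real.norm_eq_abs, abs_of_pos (exp_pos _)]
          exact hle x)
    have h1 := (jensen_exp ig ie).trans (integral_mono ie (Smo.int ht y) hle)
    have e : ∫ x : E, -((‖y‖ ^ 2 + ‖x‖ ^ 2) * t⁻¹ + log I) ∂μ =
        -((‖y‖ ^ 2 + m) * t⁻¹ + log I) := by
      have i3 : Integrable (fun x : E => ‖y‖ ^ 2 + ‖x‖ ^ 2) μ := (integrable_const _).add i2
      rw [integral_neg, integral_add (i3.mul_const _) (integrable_const _), integral_mul_const,
        integral_add (integrable_const _) i2]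
      simp [hm']
    rw [e, ← le_log_iff_exp_le (Smo.pos ht y)] at h1
    unfold Vt
    have h2 := le_abs_self (log I)
    have h3 : 0 ≤ (|log I| + m * t⁻¹) * ‖y‖ ^ 2 := by positivity
    nlinarith

theorem lintegral_Vt (ht : 0 < t) {F : E → ℝ≥0∞} (hF : Measurable F) :
    ∫⁻ y, F y ∂ms (Vt μ t) = ∫⁻ x, (∫⁻ z, F (x + z) * ENNReal.ofReal (ga t z)) ∂μ := by
  have hm : Measurable fun p : E × E => ENNReal.ofReal (ga t (p.1 - p.2)) :=
    ((ga_cont t).comp (continuous_fst.sub continuous_snd)).measurable.ennreal_ofReal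
  rw [lintegral_ms (Vt_diff ht).continuous.measurable hF]
  have e : ∀ y : E, ENNReal.ofReal (exp (-Vt μ t y)) * F y =
      ∫⁻ x, ENNReal.ofReal (ga t (y - x)) * F y ∂μ := fun y => by
    rw [exp_Vt ht, ofReal_integral_eq_lintegral_ofReal (Smo.int ht y)
      (ae_of_all _ fun x => (ga_pos ht _).le),
      lintegral_mul_const _ (Smo.cont t y).measurable.ennreal_ofReal]
  simp only [e]
  rw [lintegral_lintegral_swap (hm.mul (hF.comp measurable_fst)).aemeasurable]
  refine lintegral_congr fun x => ?_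
  rw [← lintegral_add_left_eq_self _ x]
  simp only [add_sub_cancel_left, mul_comm]

theorem Vt_prob (ht : 0 < t) : IsProbabilityMeasure (ms (Vt μ t)) := by
  refine ⟨?_⟩
  rw [← lintegral_one, lintegral_Vt ht measurable_const]
  simp only [one_mul]
  rw [← ofReal_integral_eq_lintegral_ofReal (ga_int ht) (ae_of_all _ fun x => (ga_pos ht _).le),
    ga_one ht]
  simp

theorem sg_Vt (ht : 0 < t) {b : E} {L D : ℝ} (h : SG μ b L D) :
    SG (ms (Vt μ t)) b (L + t / 2) D := by
  intro θ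
  have hm : Measurable fun x : E => ENNReal.ofReal (exp ⟪θ, x - b⟫) :=
    (by fun_prop : Continuous fun x : E => exp ⟪θ, x - b⟫).measurable.ennreal_ofReal
  rw [lintegral_Vt ht hm]
  have e : ∀ x : E, ∫⁻ z, ENNReal.ofReal (exp ⟪θ, x + z - b⟫) * ENNReal.ofReal (ga t z) =
      ENNReal.ofReal (exp ⟪θ, x - b⟫) * ENNReal.ofReal (exp (t / 2 * ‖θ‖ ^ 2)) := fun x => by
    rw [← (ga_mgf ht θ).2, ofReal_integral_eq_lintegral_ofReal (ga_mgf ht θ).1
      (ae_of_all _ fun z => (mul_pos (exp_pos _) (ga_pos ht _)).le),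
      ← lintegral_const_mul' _ _ ENNReal.ofReal_ne_top]
    refine lintegral_congr fun z => ?_
    rw [add_sub_right_comm, inner_add_right, exp_add, ENNReal.ofReal_mul (exp_pos _).le,
      ENNReal.ofReal_mul (exp_pos _).le, mul_assoc]
  simp only [e]
  rw [lintegral_mul_const _ hm]
  refine (mul_le_mul_left (h θ) _).trans (le_of_eq ?_)
  rw [← ENNReal.ofReal_mul (exp_pos _).le, ← exp_add]
  congr 2
  ring

end Vale.Agent.P245B
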