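import Vale.Agent.P245B.Bas

/-! The soft transform. -/

open MeasureTheory Real Set Filter Topology
open scoped ENNReal RealInnerProductSpace

noncomputable section

namespace Vale.Agent.P245B

open Vale.Agent.P245 (Ent gibbs Ent_nonneg)

set_option linter.unusedSectionVars false

variable {E : Type} [NormedAddCommGroup E] [InnerProductSpace ℝ E] [FiniteDimensional ℝ E]
  [CompleteSpace E] [MeasurableSpace E] [BorelSpace E]

variable {μ : Measure E} [IsProbabilityMeasure μ] {c u : E → ℝ} {R τ : ℝ}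

theorem Cost.R_nonneg (hc : Cost c R) : 0 ≤ R := (norm_nonneg _).trans (hc.bdd 0)

theorem Cost.cont (hc : Cost c R) : Continuous c := hc.diff.continuous

theorem Cost.lip (hc : Cost c R) (x y : E) : |c x - c y| ≤ R * ‖x - y‖ := by
  have h := Convex.norm_image_sub_le_of_norm_fderiv_le (𝕜 := ℝ) (f := c) (s := univ) (C := R)
    (fun z _ => hc.diff z) (fun z _ => by rw [← norm_grad]; exact hc.bdd z) convex_univ
    (mem_univ y) (mem_univ x)
  rwa [Real.norm_eq_abs] at h

theorem Cost.grad_neg (hc : Cost c R) (z : E) : gradient c (-z) = -gradient c z := by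
  have h1 : HasFDerivAt (fun w : E => c (-w))
      ((fderiv ℝ c (-z)).comp (-ContinuousLinearMap.id ℝ E)) z :=
    (hc.diff (-z)).hasFDerivAt.comp z (hasFDerivAt_id z).neg
  have h2 : (fun w : E => c (-w)) = c := funext hc.even
  rw [h2] at h1
  refine ext_inner_right ℝ fun v => ?_
  rw [inner_neg_left, inner_grad, inner_grad, h1.fderiv]
  simp

theorem Cost.swap (hc : Cost c R) (x y : E) : c (x - y) = c (y - x) := by
  rw [← hc.even, neg_sub]

namespace TOp

theorem meas (hc : Cost c R) (hu : LG u) (y : E) :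
    Measurable fun x => exp (u x - c (y - x)) :=
  (hu.1.sub (hc.cont.measurable.comp (measurable_const.sub measurable_id))).exp

theorem le_exp (hc : Cost c R) (x y : E) : exp (u x - c (y - x)) ≤ exp (u x) :=
  exp_le_exp.2 (sub_le_self _ (hc.nonneg _))

end TOp

theorem Tr_int (ht : Tail μ) (hc : Cost c R) (hu : LG u) (y : E) :
    Integrable (fun x => exp (u x - c (y - x))) μ := by
  refine ht.int (TOp.meas hc hu y).aestronglyMeasurable (hu.exp_xg.of_le fun x => ?_)
  rw [Real.norm_of_nonneg (exp_pos _).le, Real.norm_of_nonneg (exp_pos _).le]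
  exact TOp.le_exp hc x y

theorem exp_Tr (ht : Tail μ) (hc : Cost c R) (hu : LG u) (y : E) :
    exp (Tr μ c u y) = ∫ x, exp (u x - c (y - x)) ∂μ :=
  exp_log (integral_exp_pos (Tr_int ht hc hu y))

theorem Tr_lip (ht : Tail μ) (hc : Cost c R) (hu : LG u) (y y' : E) :
    |Tr μ c u y - Tr μ c u y'| ≤ R * ‖y - y'‖ := by
  have h : ∀ y y' : E, Tr μ c u y ≤ Tr μ c u y' + R * ‖y - y'‖ := fun y y' => by
    rw [← exp_le_exp, exp_add, exp_Tr ht hc hu, exp_Tr ht hc hu, ← integral_mul_const]
    refine integral_mono (Tr_int ht hc hu y) ((Tr_int ht hc hu y').mul_const _) fun x => ?_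
    have h1 := hc.lip (y - x) (y' - x)
    rw [sub_sub_sub_cancel_right] at h1
    have h2 := (abs_le.1 h1).1
    simp only
    rw [← exp_add, exp_le_exp]
    linarith
  have h1 := h y y'
  have h2 := h y' y
  rw [norm_sub_rev] at h2
  exact abs_le.2 ⟨by linarith, by linarith⟩

theorem Tr_lg (ht : Tail μ) (hc : Cost c R) (hu : LG u) : LG (Tr μ c u) :=
  LG.of_lip (Tr_lip ht hc hu)

theorem Tr_grad (ht : Tail μ) (hc : Cost c R) (hu : LG u) (y : E) :
    HasGradientAt (Tr μ c u)
      (-∫ x, exp (u x - c (y - x) - Tr μ c u y) • gradient c (y - x) ∂μ) y := by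
  have hpos : 0 < ∫ x, exp (u x - c (y - x)) ∂μ := integral_exp_pos (Tr_int ht hc hu y)
  have hGm : Measurable fun x => -(exp (u x - c (y - x)) • gradient c (y - x)) :=
    ((TOp.meas hc hu y).smul ((measurable_grad c).comp (measurable_const.sub measurable_id))).neg
  have hb : ∀ (x w : E), ‖-(exp (u x - c (w - x)) • gradient c (w - x))‖ ≤ exp (u x) * R :=
    fun x w => by
      rw [norm_neg, norm_smul, Real.norm_of_nonneg (exp_pos _).le]
      exact mul_le_mul (TOp.le_exp hc x w) (hc.bdd _) (norm_nonneg _) (exp_pos _).le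
  have hbi : Integrable (fun x => exp (u x) * R) μ :=
    (ht.int (hu.1.exp).aestronglyMeasurable hu.exp_xg).mul_const R
  have hGi : Integrable (fun x => -(exp (u x - c (y - x)) • gradient c (y - x))) μ :=
    hbi.mono' hGm.aestronglyMeasurable (Eventually.of_forall fun x => hb x y)
  have hF := hasFDerivAt_integral_of_dominated_of_fderiv_le (μ := μ) (𝕜 := ℝ) (x₀ := y)
    (F := fun w x => exp (u x - c (w - x)))
    (F' := fun w x => innerSL ℝ (-(exp (u x - c (w - x)) • gradient c (w - x))))
    (bound := fun x => exp (u x) * R) (s := univ) univ_mem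
    (Eventually.of_forall fun w => (TOp.meas hc hu w).aestronglyMeasurable) (Tr_int ht hc hu y)
    ((innerSL ℝ (E := E)).continuous.comp_aestronglyMeasurable hGm.aestronglyMeasurable)
    (Eventually.of_forall fun x w _ => by rw [innerSL_apply_norm]; exact hb x w) hbi
    (Eventually.of_forall fun x w _ => by
      have h1 : HasFDerivAt (fun w : E => c (w - x)) (fderiv ℝ c (w - x)) w := by
        have := (hc.diff (w - x)).hasFDerivAt.comp w ((hasFDerivAt_id w).sub_const x)
        rwa [ContinuousLinearMap.comp_id] at this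
      refine ((h1.const_sub (u x)).exp).congr_fderiv ?_
      ext v
      simp only [ContinuousLinearMap.smul_apply, ContinuousLinearMap.neg_apply, smul_eq_mul,
        innerSL_apply_apply, inner_neg_left, real_inner_smul_left, inner_grad, mul_neg])
  have hL := hF.log hpos.ne'
  rw [hasGradientAt_iff_hasFDerivAt]
  refine hL.congr_fderiv ?_
  have hFi : Integrable (fun x => innerSL ℝ (-(exp (u x - c (y - x)) • gradient c (y - x)))) μ :=
    hbi.mono'
      ((innerSL ℝ (E := E)).continuous.comp_aestronglyMeasurable hGm.aestronglyMeasurable)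
      (Eventually.of_forall fun x => by rw [innerSL_apply_norm]; exact hb x y)
  have he : (-∫ x, exp (u x - c (y - x) - Tr μ c u y) • gradient c (y - x) ∂μ) =
      (∫ x, exp (u x - c (y - x)) ∂μ)⁻¹ •
        ∫ x, -(exp (u x - c (y - x)) • gradient c (y - x)) ∂μ := by
    rw [← integral_neg, ← integral_smul]
    refine integral_congr_ae (Eventually.of_forall fun x => ?_)
    simp only
    rw [exp_sub, exp_Tr ht hc hu, smul_neg, smul_smul, div_eq_inv_mul]
  ext v
  rw [he, InnerProductSpace.toDual_apply_apply, ContinuousLinearMap.smul_apply,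
    ContinuousLinearMap.integral_apply hFi, real_inner_smul_left, real_inner_comm,
    ← integral_inner hGi, smul_eq_mul]
  congr 1
  refine integral_congr_ae (Eventually.of_forall fun x => ?_)
  simp only [innerSL_apply_apply]
  exact real_inner_comm _ _

theorem Tr_grad_le (ht : Tail μ) (hc : Cost c R) (hu : LG u) (y : E) :
    ‖gradient (Tr μ c u) y‖ ≤ R := by
  rw [norm_grad]
  exact norm_fderiv_le_of_lip' ℝ hc.R_nonneg (Eventually.of_forall fun w => Tr_lip ht hc hu w y)

theorem Zf_int (ht : Tail μ) (hc : Cost c R) (hu : LG u) (τ : ℝ) :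
    Integrable (fun y => exp (-τ * Tr μ c u y)) μ :=
  ht.int ((Tr_lg ht hc hu).const_mul (-τ)).1.exp.aestronglyMeasurable
    ((Tr_lg ht hc hu).const_mul (-τ)).exp_xg

theorem Zf_pos (ht : Tail μ) (hc : Cost c R) (hu : LG u) (τ : ℝ) : 0 < Zf μ c τ u :=
  integral_exp_pos (Zf_int ht hc hu τ)

theorem Wf_lg (ht : Tail μ) (hc : Cost c R) (hu : LG u) (τ : ℝ) : LG (Wf μ c τ u) := by
  have h := ((Tr_lg ht hc hu).const_mul (-(1 + τ))).add (LG.const (-log (Zf μ c τ u)))
  have e : Wf μ c τ u = fun y => -(1 + τ) * Tr μ c u y + -log (Zf μ c τ u) :=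
    funext fun y => sub_eq_add_neg _ _
  rwa [e]

theorem rh_meas (ht : Tail μ) (hc : Cost c R) (hu : LG u) (τ : ℝ) :
    Measurable (rh μ c τ u) :=
  (((Tr_lg ht hc hu).const_mul (-τ)).1.sub measurable_const).exp

theorem rh_xg (ht : Tail μ) (hc : Cost c R) (hu : LG u) (τ : ℝ) : XG (rh μ c τ u) := by
  have h := (((Tr_lg ht hc hu).const_mul (-τ)).add (LG.const (-log (Zf μ c τ u)))).exp_xg
  have e : rh μ c τ u = fun y => exp (-τ * Tr μ c u y + -log (Zf μ c τ u)) :=
    funext fun y => by rw [rh, sub_eq_add_neg]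
  rwa [e]

theorem rh_one (ht : Tail μ) (hc : Cost c R) (hu : LG u) (τ : ℝ) :
    ∫ y, rh μ c τ u y ∂μ = 1 := by
  have hZ := Zf_pos ht hc hu τ
  have e : rh μ c τ u = fun y => exp (-τ * Tr μ c u y) / Zf μ c τ u :=
    funext fun y => by rw [rh, exp_sub, exp_log hZ]
  rw [e, integral_div]
  exact div_self hZ.ne'

theorem Psi_const (ht : Tail μ) (hc : Cost c R) (hu : LG u) (hτ : 0 < τ) (k : ℝ) :
    Psi μ c τ (fun x => u x + k) = Psi μ c τ u := by
  have h1 : ∀ y, Tr μ c (fun x => u x + k) y = Tr μ c u y + k := fun y => by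
    apply exp_injective
    rw [exp_Tr ht hc (hu.add (LG.const k)), exp_add, exp_Tr ht hc hu, ← integral_mul_const]
    refine integral_congr_ae (Eventually.of_forall fun x => ?_)
    simp only
    rw [← exp_add]
    congr 1
    ring
  have h2 : Zf μ c τ (fun x => u x + k) = Zf μ c τ u * exp (-τ * k) := by
    unfold Zf
    rw [← integral_mul_const]
    refine integral_congr_ae (Eventually.of_forall fun y => ?_)
    simp only
    rw [h1, ← exp_add]
    congr 1
    ring
  have hi : Integrable u μ := ht.int hu.1.aestronglyMeasurable hu.xg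
  unfold Psi
  rw [h2, log_mul (Zf_pos ht hc hu τ).ne' (exp_pos _).ne', log_exp,
    integral_add hi (integrable_const k), integral_const, probReal_univ, one_smul]
  field_simp
  ring

namespace TOp

theorem mono (ht : Tail μ) (hc : Cost c R) (hu : LG u) {v : E → ℝ} (hv : LG v)
    (h : ∀ x, u x ≤ v x) (y : E) : Tr μ c u y ≤ Tr μ c v y := by
  rw [← exp_le_exp, exp_Tr ht hc hu, exp_Tr ht hc hv]
  exact integral_mono (Tr_int ht hc hu y) (Tr_int ht hc hv y) fun x =>
    exp_le_exp.2 (sub_le_sub_right (h x) _)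

end TOp

theorem Psi_seq (ht : Tail μ) (hc : Cost c R) (τ : ℝ) {w : ℕ → E → ℝ} {v : E → ℝ} {C : ℝ}
    (hm : ∀ k, Measurable (w k)) (hb : ∀ k x, |w k x| ≤ C * (1 + ‖x‖))
    (hl : ∀ x, Tendsto (fun k => w k x) atTop (𝓝 (v x))) :
    Tendsto (fun k => Psi μ c τ (w k)) atTop (𝓝 (Psi μ c τ v)) := by
  have hvm : Measurable v := measurable_of_tendsto_metrizable hm (tendsto_pi_nhds.2 hl)
  have hvb : ∀ x, |v x| ≤ C * (1 + ‖x‖) := fun x =>
    le_of_tendsto' (hl x).abs fun k => hb k x
  have hv : LG v := ⟨hvm, C, hvb⟩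
  have hw : ∀ k, LG (w k) := fun k => ⟨hm k, C, hb k⟩
  have hU : LG fun x : E => C * (1 + ‖x‖) :=
    ⟨by fun_prop, C, fun x => (abs_of_nonneg ((abs_nonneg _).trans (hvb x))).le⟩
  have hD : LG fun x : E => -1 * (C * (1 + ‖x‖)) := hU.const_mul (-1)
  have h1 : Tendsto (fun k => ∫ x, w k x ∂μ) atTop (𝓝 (∫ x, v x ∂μ)) :=
    tendsto_integral_of_dominated_convergence (fun x => C * (1 + ‖x‖))
      (fun k => (hm k).aestronglyMeasurable) (ht.int hU.1.aestronglyMeasurable hU.xg)
      (fun k => Eventually.of_forall (hb k)) (Eventually.of_forall hl)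
  have h2 : ∀ y, Tendsto (fun k => Tr μ c (w k) y) atTop (𝓝 (Tr μ c v y)) := fun y => by
    refine Tendsto.log ?_ (integral_exp_pos (Tr_int ht hc hv y)).ne'
    refine tendsto_integral_of_dominated_convergence (fun x => exp (C * (1 + ‖x‖)))
      (fun k => (TOp.meas hc (hw k) y).aestronglyMeasurable) (ht.int_exp C)
      (fun k => Eventually.of_forall fun x => ?_)
      (Eventually.of_forall fun x => ((hl x).sub_const _).rexp)
    rw [Real.norm_of_nonneg (exp_pos _).le]
    exact (TOp.le_exp hc x y).trans (exp_le_exp.2 (abs_le.1 (hb k x)).2)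
  have h3 : Tendsto (fun k => Zf μ c τ (w k)) atTop (𝓝 (Zf μ c τ v)) := by
    refine tendsto_integral_of_dominated_convergence
      (fun y => exp (-τ * Tr μ c (fun x : E => C * (1 + ‖x‖)) y) +
        exp (-τ * Tr μ c (fun x : E => -1 * (C * (1 + ‖x‖))) y))
      (fun k => (Zf_int ht hc (hw k) τ).aestronglyMeasurable)
      ((Zf_int ht hc hU τ).add (Zf_int ht hc hD τ)) (fun k => Eventually.of_forall fun y => ?_)
      (Eventually.of_forall fun y => ((h2 y).const_mul _).rexp)
    rw [Real.norm_of_nonneg (exp_pos _).le]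
    have a1 := TOp.mono ht hc (hw k) hU (fun x => (abs_le.1 (hb k x)).2) y
    have a2 := TOp.mono ht hc hD (hw k) (fun x => by linarith [(abs_le.1 (hb k x)).1]) y
    rcases le_total 0 τ with h | h
    · exact le_add_of_nonneg_of_le (exp_pos _).le
        (exp_le_exp.2 (mul_le_mul_of_nonpos_left a2 (by linarith)))
    · exact le_add_of_le_of_nonneg
        (exp_le_exp.2 (mul_le_mul_of_nonneg_left a1 (by linarith))) (exp_pos _).le
  exact h1.add ((h3.log (Zf_pos ht hc hv τ).ne').const_mul _)

end Vale.Agent.P245B
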